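import Vale.Agent.Lib.P190.Cone

/-!
Bridges between the homological hypotheses (projective dimension at most one; `Ext¹` cyclic) and
the explicit data used by the cone construction.
-/

set_option linter.unusedSectionVars false

universe u

open CategoryTheory Abelian Matrix

namespace Vale.Agent.Lib.P190

section fractionField

variable {A : Type u} [CommRing A] [IsDomain A] (K : Type u) [Field K] [Algebra A K]
  [IsFractionRing A K]

lemma baer_fractionField : Module.Baer A K := by
  intro I g
  by_cases hI : I = ⊥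
  · refine ⟨0, ?_⟩
    intro x hx
    subst hI
    have hx0 : x = 0 := by simpa using hx
    subst hx0
    have : (⟨0, hx⟩ : (⊥ : Ideal A)) = 0 := rfl
    rw [this, map_zero, map_zero]
  · obtain ⟨a, ha, ha0⟩ := Submodule.exists_mem_ne_zero_of_ne_bot hI
    have haK : algebraMap A K a ≠ 0 := by
      simpa using (IsFractionRing.injective A K).ne ha0
    let c : K := g ⟨a, ha⟩ / algebraMap A K a
    refine ⟨LinearMap.toSpanSingleton A K c, ?_⟩
    intro x hx
    have h1 : a • g ⟨x, hx⟩ = x • g ⟨a, ha⟩ := by
      rw [← map_smul, ← map_smul]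
      congr 1
      apply Subtype.ext
      simp [mul_comm]
    rw [LinearMap.toSpanSingleton_apply]
    simp only [c]
    rw [Algebra.smul_def] at h1 ⊢
    rw [Algebra.smul_def] at h1
    field_simp
    rw [← h1]

instance injective_fractionField : Module.Injective A K :=
  (baer_fractionField K).injective

/-- The short complex `0 → A → K → K/A → 0`. -/
noncomputable abbrev fracSeq : ShortComplex (ModuleCat.{u} A) where
  X₁ := ModuleCat.of A A
  X₂ := ModuleCat.of A K
  X₃ := ModuleCat.of A (KmodA A K)
  f := ModuleCat.ofHom (Algebra.linearMap A K)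
  g := ModuleCat.ofHom (intSub A K).mkQ
  zero := by
    ext
    simp

lemma fracSeq_shortExact : (fracSeq (A := A) K).ShortExact := by
  apply ModuleCat.shortComplex_shortExact
  · intro x
    change (intSub A K).mkQ x = 0 ↔ x ∈ Set.range (Algebra.linearMap A K)
    rw [Submodule.mkQ_apply, Submodule.Quotient.mk_eq_zero]
    rfl
  · exact IsFractionRing.injective A K
  · exact (intSub A K).mkQ_surjective

end fractionField

section ext

variable {A R : Type u} [CommRing A] [IsDomain A] [CommRing R] [Algebra A R]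
  (K : Type u) [Field K] [Algebra A K] [IsFractionRing A K]

/-- Multiplication by `r` on `R`, in the category of `A`-modules. -/
noncomputable abbrev mulHom (r : R) : ModuleCat.of A R ⟶ ModuleCat.of A R :=
  ModuleCat.ofHom (LinearMap.mulLeft A r)

theorem exists_g_of_ext_cyclic (e : Ext (ModuleCat.of A R) (ModuleCat.of A A) 1)
    (hcyc : ∀ t : Ext (ModuleCat.of A R) (ModuleCat.of A A) 1, ∃ r : R,
      t = (Ext.mk₀ (mulHom r)).comp e (zero_add 1)) :
    ∃ g : R →ₗ[A] KmodA A K, ∀ h : R →ₗ[A] KmodA A K, ∃ r : R, ∃ lam : R →ₗ[A] K, ∀ s,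
      h s = g (r * s) + (intSub A K).mkQ (lam s) := by
  have hS := fracSeq_shortExact (A := A) K
  have : Injective (ModuleCat.of A K) := Module.injective_object_of_injective_module A K
  obtain ⟨g₀, hg₀⟩ := Ext.covariant_sequence_exact₁ (ModuleCat.of A R) hS e
    (Ext.eq_zero_of_injective _) (zero_add 1)
  obtain ⟨g', rfl⟩ := (Ext.mk₀_bijective _ _).2 g₀
  refine ⟨g'.hom, ?_⟩
  intro h
  obtain ⟨r, hr⟩ := hcyc ((Ext.mk₀ (ModuleCat.ofHom h)).comp hS.extClass (zero_add 1))
  refine ⟨r, ?_⟩
  have key : (Ext.mk₀ (ModuleCat.ofHom h - mulHom r ≫ g')).comp hS.extClass (zero_add 1) = 0 := by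
    rw [sub_eq_add_neg, Ext.mk₀_add, Ext.add_comp, Ext.mk₀_neg, Ext.neg_comp, hr, ← hg₀,
      Ext.mk₀_comp_mk₀_assoc, add_neg_cancel]
  obtain ⟨lam, hlam⟩ := Ext.covariant_sequence_exact₃ (ModuleCat.of A R) hS _ (zero_add 1) key
  obtain ⟨lam', rfl⟩ := (Ext.mk₀_bijective _ _).2 lam
  rw [Ext.mk₀_comp_mk₀] at hlam
  have h2 := (Ext.mk₀_bijective _ _).1 hlam
  refine ⟨lam'.hom, ?_⟩
  intro s
  have h3 := congrArg (fun φ => φ.hom s) h2
  simp only [ModuleCat.hom_comp, ModuleCat.hom_sub, LinearMap.comp_apply, LinearMap.sub_apply,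
    ModuleCat.hom_ofHom, LinearMap.mulLeft_apply] at h3
  rw [h3]
  abel

end ext

section presentation

variable {A R : Type u} [CommRing A] [IsLocalRing A] [IsNoetherianRing A] [AddCommGroup R]
  [Module A R] [Module.Finite A R]

/-- A module of projective dimension at most one over a Noetherian local ring has a finite free
presentation with injective presentation matrix. -/
theorem exists_presentation (h : HasProjectiveDimensionLT (ModuleCat.of A R) 2) :
    ∃ (n m : ℕ) (p : (Fin n → A) →ₗ[A] R) (D : Matrix (Fin n) (Fin m) A),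
      Function.Surjective p ∧ (∀ f, p (D *ᵥ f) = 0) ∧ (∀ x, p x = 0 → ∃ f, D *ᵥ f = x) ∧
        (∀ f, D *ᵥ f = 0 → f = 0) := by
  obtain ⟨n, p, hp⟩ := Module.Finite.exists_fin' A R
  let S := p.shortComplexKer
  have hS : S.ShortExact := LinearMap.shortExact_shortComplexKer hp
  have hfree : Projective S.X₂ := by
    change Projective (ModuleCat.of A (Fin n → A))
    rw [← IsProjective.iff_projective]
    infer_instance
  have h1 : HasProjectiveDimensionLT S.X₃ 2 := h
  have h2 : HasProjectiveDimensionLT S.X₁ 1 := (hS.hasProjectiveDimensionLT_X₃_iff 0 hfree).1 h1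
  have h3 : Projective S.X₁ := projective_iff_hasProjectiveDimensionLT_one.2 h2
  have h4 : Module.Projective A (LinearMap.ker p) := (IsProjective.iff_projective _).2 h3
  have h5 : Module.Free A (LinearMap.ker p) := Module.free_of_flat_of_isLocalRing
  let b := Module.finBasis A (LinearMap.ker p)
  let D : Matrix (Fin n) (Fin (Module.finrank A (LinearMap.ker p))) A :=
    fun i j => (b j).1 i
  have hDf : ∀ f, D *ᵥ f = ((∑ j, f j • b j : LinearMap.ker p) : Fin n → A) := by
    intro f
    funext i
    simp [D, mulVec, dotProduct, mul_comm]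
  refine ⟨n, _, p, D, hp, ?_, ?_, ?_⟩
  · intro f
    rw [hDf]
    exact (∑ j, f j • b j : LinearMap.ker p).2
  · intro x hx
    refine ⟨b.repr ⟨x, hx⟩, ?_⟩
    rw [hDf, ← b.sum_repr ⟨x, hx⟩]
    simp
  · intro f hf
    rw [hDf] at hf
    have h6 : (∑ j, f j • b j : LinearMap.ker p) = 0 := Subtype.ext hf
    funext j
    exact Fintype.linearIndependent_iff.1 b.linearIndependent f h6 j

end presentation

end Vale.Agent.Lib.P190
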