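import Vale.Agent.Lib.P190.Normal6

/-!
The bound on torsion modules and the small Cohen-Macaulay theorem for normal F-split rings of
dimension three which are module-finite over a regular local ring.
-/

set_option linter.unusedSectionVars false

universe u

open IsLocalRing RingTheory.Sequence Matrix

namespace Vale.Agent.Lib.P190

section elem

variable {A : Type u} [CommRing A] [IsDomain A] [IsNoetherianRing A]

lemma not_mem_of_minimal' (I : Ideal A) (b : A) (h2 : ∀ g, b * g ∈ I → g ∈ I) (P : Ideal A)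
    (hP : P ∈ I.minimalPrimes) : b ∉ P := by
  intro hb
  obtain ⟨s, hs⟩ := exists_colon_of_minimal _ P hP
  have h1 : s * b ∈ I := (hs b).2 hb
  have h2' : s ∈ I := h2 s (by rwa [mul_comm])
  have h3 : (1 : A) ∈ P := (hs 1).1 (by rwa [mul_one])
  exact hP.1.1.ne_top ((Ideal.eq_top_iff_one _).2 h3)

/-- Elementwise forms of regularity of a sequence of three elements in a domain. -/
lemma regular_elementwise (a₁ a₂ a₃ : A) (h : IsRegular A [a₁, a₂, a₃]) :
    a₁ ≠ 0 ∧ a₂ ≠ 0 ∧ (∀ g, a₂ * g ∈ Ideal.span {a₁} → g ∈ Ideal.span {a₁}) ∧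
      ∀ g, a₃ * g ∈ Ideal.span {a₁, a₂} → g ∈ Ideal.span {a₁, a₂} := by
  have hw := (isWeaklyRegular_iff A [a₁, a₂, a₃]).1 h.toIsWeaklyRegular
  have h1 : a₁ ≠ 0 := by
    rintro rfl
    have h0 := hw 0 (by simp)
    rw [isSMulRegular_quotient_iff_mem_of_smul_mem] at h0
    have h3 := h0 1 (by simp)
    simp at h3
  have h2 : ∀ g, a₂ * g ∈ Ideal.span {a₁} → g ∈ Ideal.span {a₁} := by
    intro g hg
    have h0 := hw 1 (by simp)
    rw [isSMulRegular_quotient_iff_mem_of_smul_mem] at h0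
    have hl : [a₁, a₂, a₃].take 1 = [a₁] := rfl
    rw [hl] at h0
    have h3 := h0 g (by
      rw [mem_ofList_single_smul_top]
      obtain ⟨k, hk⟩ := Ideal.mem_span_singleton'.1 hg
      exact ⟨k, by simpa [mul_comm] using hk.symm⟩)
    rw [mem_ofList_single_smul_top] at h3
    obtain ⟨k, hk⟩ := h3
    exact Ideal.mem_span_singleton'.2 ⟨k, by simpa [mul_comm] using hk.symm⟩
  have h3 : ∀ g, a₃ * g ∈ Ideal.span {a₁, a₂} → g ∈ Ideal.span {a₁, a₂} := by
    intro g hg
    have h0 := hw 2 (by simp)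
    rw [isSMulRegular_quotient_iff_mem_of_smul_mem] at h0
    have hl : [a₁, a₂, a₃].take 2 = [a₁, a₂] := rfl
    rw [hl] at h0
    have h3 := h0 g (by
      rw [mem_ofList_pair_smul_top]
      obtain ⟨k, k', hk⟩ := Ideal.mem_span_pair.1 hg
      exact ⟨k, k', by simpa [mul_comm] using hk.symm⟩)
    rw [mem_ofList_pair_smul_top] at h3
    obtain ⟨k, k', hk⟩ := h3
    exact Ideal.mem_span_pair.2 ⟨k, k', by simpa [mul_comm] using hk.symm⟩
  refine ⟨h1, ?_, h2, h3⟩
  rintro rfl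
  have h4 : (1 : A) ∈ Ideal.span {a₁} := h2 1 (by simp)
  apply h.top_ne_smul
  have h5 : Ideal.ofList [a₁, 0, a₃] = ⊤ := by
    rw [Ideal.eq_top_iff_one]
    have h6 : Ideal.span {a₁} ≤ Ideal.ofList [a₁, 0, a₃] := by
      rw [Ideal.span_le, Set.singleton_subset_iff]
      exact Ideal.subset_span (by simp)
    exact h6 h4
  rw [h5, Submodule.top_smul]

lemma mem_maximalIdeal_of_eq (a₁ a₂ a₃ : A) [IsLocalRing A]
    (hm : maximalIdeal A = Ideal.span {a₁, a₂, a₃}) :
    a₁ ∈ maximalIdeal A ∧ a₂ ∈ maximalIdeal A ∧ a₃ ∈ maximalIdeal A := by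
  rw [hm]
  exact ⟨Ideal.subset_span (by simp), Ideal.subset_span (by simp), Ideal.subset_span (by simp)⟩

lemma height_maximalIdeal_le (a₁ a₂ a₃ : A) [IsLocalRing A]
    (hm : maximalIdeal A = Ideal.span {a₁, a₂, a₃}) : (maximalIdeal A).height ≤ 3 := by
  have h1 := Ideal.height_le_spanFinrank (maximalIdeal A) (maximalIdeal.isMaximal A).ne_top
  have h2 : (maximalIdeal A).spanFinrank ≤ 3 := by
    rw [hm]
    refine (Submodule.spanFinrank_span_le_ncard_of_finite (by simp)).trans ?_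
    refine (Set.ncard_insert_le _ _).trans ?_
    have := Set.ncard_insert_le a₂ ({a₃} : Set A)
    simp only [Set.ncard_singleton] at this
    omega
  refine h1.trans ?_
  exact_mod_cast h2

/-- A regular system of parameters of length three: the ring has dimension three. -/
lemma ringKrullDim_eq_three (a₁ a₂ a₃ : A) [IsLocalRing A]
    (hm : maximalIdeal A = Ideal.span {a₁, a₂, a₃}) (h1 : a₁ ≠ 0)
    (h2 : ∀ g, a₂ * g ∈ Ideal.span {a₁} → g ∈ Ideal.span {a₁})
    (h3 : ∀ g, a₃ * g ∈ Ideal.span {a₁, a₂} → g ∈ Ideal.span {a₁, a₂}) :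
    ringKrullDim A = 3 := by
  obtain ⟨hm1, hm2, hm3⟩ := mem_maximalIdeal_of_eq a₁ a₂ a₃ hm
  have hle : Ideal.span {a₁, a₂} ≤ maximalIdeal A := by
    rw [Ideal.span_le]
    rintro x (rfl | rfl)
    · exact hm1
    · exact hm2
  obtain ⟨P₂, hP₂, -⟩ := Ideal.exists_minimalPrimes_le hle
  have hP₂p : P₂.IsPrime := hP₂.1.1
  have ha₁ : Ideal.span {a₁} ≤ P₂ := by
    rw [Ideal.span_le, Set.singleton_subset_iff]
    exact hP₂.1.2 (Ideal.subset_span (by simp))
  obtain ⟨P₁, hP₁, hle1⟩ := Ideal.exists_minimalPrimes_le ha₁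
  have hP₁p : P₁.IsPrime := hP₁.1.1
  have h12 : P₁ < P₂ := lt_of_le_of_ne hle1 (fun h => not_mem_of_minimal a₁ a₂ h2 P₁ hP₁ (by
    rw [h]
    exact hP₂.1.2 (Ideal.subset_span (by simp))))
  have h23 : P₂ < maximalIdeal A := lt_of_le_of_ne (le_maximalIdeal hP₂p.ne_top)
    (fun h => not_mem_of_minimal' _ a₃ h3 P₂ hP₂ (by rw [h]; exact hm3))
  have h01 : ⊥ < P₁ := by
    refine bot_lt_iff_ne_bot.2 ?_
    intro h
    have h4 : a₁ ∈ P₁ := hP₁.1.2 (Ideal.mem_span_singleton_self _)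
    rw [h] at h4
    exact h1 (by simpa using h4)
  have : (⊥ : Ideal A).IsPrime := Ideal.isPrime_bot
  have e0 := Ideal.height_add_one_le_of_lt_of_isPrime h01
  have e1 := Ideal.height_add_one_le_of_lt_of_isPrime h12
  have e2 := Ideal.height_add_one_le_of_lt_of_isPrime h23
  have hge : (3 : ℕ∞) ≤ (maximalIdeal A).height := by
    calc (3 : ℕ∞) = 0 + 1 + 1 + 1 := by norm_num
      _ ≤ (⊥ : Ideal A).height + 1 + 1 + 1 := by gcongr; exact zero_le
      _ ≤ P₁.height + 1 + 1 := by gcongr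
      _ ≤ P₂.height + 1 := by gcongr
      _ ≤ _ := e2
  have heq : (maximalIdeal A).height = 3 := le_antisymm (height_maximalIdeal_le a₁ a₂ a₃ hm) hge
  rw [← maximalIdeal_height_eq_ringKrullDim, heq]
  rfl

end elem

section final

variable {A R : Type u} [CommRing A] [IsDomain A] [IsLocalRing A] [IsNoetherianRing A]
  [IsIntegrallyClosed A] [CommRing R] [IsDomain R] [IsLocalRing R] [IsNoetherianRing R]
  [IsIntegrallyClosed R] [Algebra A R] [Module.Finite A R] [FaithfulSMul A R]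

lemma algebraMap_mem_maximalIdeal (a : A) (ha : a ∈ maximalIdeal A) :
    algebraMap A R a ∈ maximalIdeal R := by
  rw [mem_maximalIdeal, mem_nonunits_iff] at ha ⊢
  intro h3
  exact ha (isUnit_of_map_unit (algebraMap A R) a h3)

/-- The quotient by powers of the images of a regular system of parameters is Artinian. -/
lemma isArtinianRing_quot (a₁ a₂ a₃ : A) (hm : maximalIdeal A = Ideal.span {a₁, a₂, a₃}) (c : ℕ)
    (hc : 1 ≤ c) :
    IsArtinianRing (R ⧸ Ideal.span {algebraMap A R a₁ ^ c, algebraMap A R a₂ ^ c,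
      algebraMap A R a₃ ^ c}) := by
  apply IsLocalRing.quotient_artinian_of_mem_minimalPrimes_of_isLocalRing
  obtain ⟨hm1, hm2, hm3⟩ := mem_maximalIdeal_of_eq a₁ a₂ a₃ hm
  have hm1' := algebraMap_mem_maximalIdeal (R := R) a₁ hm1
  have hm2' := algebraMap_mem_maximalIdeal (R := R) a₂ hm2
  have hm3' := algebraMap_mem_maximalIdeal (R := R) a₃ hm3
  have hc0 : c ≠ 0 := by omega
  refine ⟨⟨inferInstance, ?_⟩, ?_⟩
  · rw [Ideal.span_le]
    rintro x (rfl | rfl | rfl)
    · exact Ideal.pow_mem_of_mem _ hm1' _ (by omega)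
    · exact Ideal.pow_mem_of_mem _ hm2' _ (by omega)
    · exact Ideal.pow_mem_of_mem _ hm3' _ (by omega)
  · rintro Q ⟨hQp, hQ⟩ -
    have hx1 : a₁ ∈ Q.comap (algebraMap A R) :=
      hQp.mem_of_pow_mem c (hQ (Ideal.subset_span (by simp)))
    have hx2 : a₂ ∈ Q.comap (algebraMap A R) :=
      hQp.mem_of_pow_mem c (hQ (Ideal.subset_span (by simp)))
    have hx3 : a₃ ∈ Q.comap (algebraMap A R) :=
      hQp.mem_of_pow_mem c (hQ (Ideal.subset_span (by simp)))
    have hle : maximalIdeal A ≤ Q.comap (algebraMap A R) := by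
      rw [hm, Ideal.span_le]
      rintro x (rfl | rfl | rfl)
      · exact hx1
      · exact hx2
      · exact hx3
    have hcomap : Q.comap (algebraMap A R) = maximalIdeal A :=
      ((maximalIdeal.isMaximal A).eq_of_le (Ideal.comap_ne_top _ hQp.ne_top) hle).symm
    have hQm : Q.IsMaximal := Ideal.isMaximal_of_isIntegral_of_isMaximal_comap Q (by
      rw [hcomap]
      exact maximalIdeal.isMaximal A)
    rw [IsLocalRing.eq_maximalIdeal hQm]

/-- **Uniform bound for the torsion modules.** -/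
theorem exists_bound_Cmod (a₁ a₂ a₃ : A) (hm : maximalIdeal A = Ideal.span {a₁, a₂, a₃})
    (h1 : a₁ ≠ 0) (hb : a₂ ≠ 0) (h2 : ∀ g, a₂ * g ∈ Ideal.span {a₁} → g ∈ Ideal.span {a₁})
    (h3 : ∀ g, a₃ * g ∈ Ideal.span {a₁, a₂} → g ∈ Ideal.span {a₁, a₂}) :
    ∃ C : ℕ, ∀ t : ℕ, Module.length R
      (Cmod (algebraMap A R a₁) (algebraMap A R a₂) (algebraMap A R a₃) t) ≤ C := by
  have hx : algebraMap A R a₁ ≠ 0 := by
    intro h
    exact h1 (FaithfulSMul.algebraMap_injective A R (by simpa using h))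
  have HA3 : ∀ (t N : ℕ) (g : A), a₃ ^ N * g ∈ Ideal.span {a₁ ^ t, a₂ ^ t} →
      g ∈ Ideal.span {a₁ ^ t, a₂ ^ t} := fun t N g h =>
    regular_pair_pow a₁ a₂ a₃ h1 hb h2 h3 t t N g h
  have HR : ∀ (i j : ℕ) (w : R), algebraMap A R a₂ ^ j * w ∈ Ideal.span {algebraMap A R a₁ ^ i} →
      w ∈ Ideal.span {algebraMap A R a₁ ^ i} := fun i j w h =>
    regular_mod_pow' a₁ a₂ h1 h2 i j w h
  have hR : ∀ z : R, algebraMap A R a₂ * z ∈ Ideal.span {algebraMap A R a₁} →
      z ∈ Ideal.span {algebraMap A R a₁} := by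
    intro z hz
    have h4 := HR 1 1 z (by simpa using hz)
    simpa using h4
  obtain ⟨n, m, p, D, hp, hD, hker, hinj⟩ :=
    exists_free_presentation (R := R) a₁ a₂ a₃ hm h1 h2 h3 hR
  have hinv : ∀ P : Ideal A, P.IsPrime → P ≠ maximalIdeal A → ∃ a, a ∉ P ∧ a ∈ invIdeal D := by
    intro P hP hPm
    have hlt : P < maximalIdeal A := lt_of_le_of_ne (le_maximalIdeal hP.ne_top) hPm
    have hinjP := inj_mod_prime p D hp hD hker hinj (maximalIdeal A) P hlt
      (height_maximalIdeal_le a₁ a₂ a₃ hm)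
    obtain ⟨a, ha, G, hG⟩ := exists_inverse D P hinjP
    exact ⟨a, ha, G, hG⟩
  obtain ⟨c₀, hc₀⟩ := exists_pow_mem_invIdeal D hinv
  obtain ⟨hm1, hm2, hm3⟩ := mem_maximalIdeal_of_eq a₁ a₂ a₃ hm
  let c := c₀ + 1
  have hc : ∀ a ∈ maximalIdeal A, a ^ c ∈ invIdeal D := by
    intro a ha
    have h4 : a ^ c = a * a ^ c₀ := pow_succ' a c₀
    rw [h4]
    exact Ideal.mul_mem_left _ _ (hc₀ a ha)
  have HT : ∀ a ∈ maximalIdeal A, ∀ (t N : ℕ) (u : R), algebraMap A R a₃ ^ N * u ∈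
      Ideal.span {algebraMap A R a₁ ^ t, algebraMap A R a₂ ^ t} →
      algebraMap A R a ^ c * u ∈ Ideal.span {algebraMap A R a₁ ^ t, algebraMap A R a₂ ^ t} := by
    intro a ha t N u hu
    obtain ⟨G, hG⟩ := hc a ha
    have h4 := mul_mem_of_torsion p D hp hD hker a₁ a₂ a₃ HA3 (a ^ c) G hG t N u hu
    rwa [map_pow] at h4
  have hbound := length_Cmod_le (algebraMap A R a₁) (algebraMap A R a₂) (algebraMap A R a₃) hx HR c
    (fun t N u hu => ⟨HT a₁ hm1 t N u hu, HT a₂ hm2 t N u hu⟩)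
  -- finiteness of the length
  have hart := isArtinianRing_quot (R := R) a₁ a₂ a₃ hm c (by simp [c])
  have hfin : Module.length R
      (Cmod (algebraMap A R a₁) (algebraMap A R a₂) (algebraMap A R a₃) c) ≠ ⊤ := by
    refine length_ne_top_of_torsion (Ideal.span {algebraMap A R a₁ ^ c, algebraMap A R a₂ ^ c,
      algebraMap A R a₃ ^ c}) ?_
    intro r hr x
    refine Submodule.span_induction (p := fun r _ => r • x = 0) ?_ ?_ ?_ ?_ hr
    · obtain ⟨x, hx'⟩ := x
      obtain ⟨w, rfl⟩ := Submodule.Quotient.mk_surjective _ x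
      obtain ⟨N, hN⟩ := (mk_mem_Cmod _ _ _ _ w).1 hx'
      have hkill : ∀ r : R, r * w ∈ Ideal.span {algebraMap A R a₁ ^ c, algebraMap A R a₂ ^ c} →
          r • (⟨Submodule.Quotient.mk w, hx'⟩ : Cmod (algebraMap A R a₁) (algebraMap A R a₂)
            (algebraMap A R a₃) c) = 0 := by
        intro r hr
        apply Subtype.ext
        change r • (Submodule.Quotient.mk w : R ⧸ _) = 0
        rw [← Submodule.Quotient.mk_smul, Submodule.Quotient.mk_eq_zero]
        exact hr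
      rintro v (rfl | rfl | rfl)
      · exact hkill _ (Ideal.mem_span_pair.2 ⟨w, 0, by ring⟩)
      · exact hkill _ (Ideal.mem_span_pair.2 ⟨0, w, by ring⟩)
      · exact hkill _ (HT a₃ hm3 c N w hN)
    · simp
    · intro y z _ _ hy hz
      rw [add_smul, hy, hz, add_zero]
    · intro a y _ hy
      rw [smul_eq_mul, mul_smul, hy, smul_zero]
  obtain ⟨C, hC⟩ := ENat.ne_top_iff_exists.1 hfin
  exact ⟨C, fun t => by
    rw [hC]
    exact hbound t⟩

end final

end Vale.Agent.Lib.P190
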