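import Vale.Agent.Lib.P190.CompleteP
import Vale.Agent.Lib.P190.Normal7

/-!
The ring of formal power series in three variables over a field: its maximal ideal, the regular
sequence of variables, normality.
-/

set_option linter.unusedSectionVars false

universe u

open IsLocalRing MvPowerSeries RingTheory.Sequence

namespace Vale.Agent.Lib.P190

section pi

variable (k : Type u) [Field k] (n : ℕ)

/-- Setting the first variable to zero. -/
noncomputable def piHom : MvPowerSeries (Fin (n + 1)) k →+* MvPowerSeries (Fin n) k :=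
  (PowerSeries.constantCoeff (R := MvPowerSeries (Fin n) k)).comp
    ((MvPowerSeries.finSuccEquiv k n).toRingEquiv : MvPowerSeries (Fin (n + 1)) k →+* _)

lemma piHom_apply (f : MvPowerSeries (Fin (n + 1)) k) :
    piHom k n f = PowerSeries.constantCoeff (MvPowerSeries.finSuccEquiv k n f) := rfl

lemma piHom_X_zero : piHom k n (X 0) = 0 := by
  rw [piHom_apply, finSuccEquiv_X_zero]
  simp

lemma piHom_X_succ (j : Fin n) : piHom k n (X j.succ) = X j := by
  rw [piHom_apply, finSuccEquiv_X_succ]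
  simp

lemma piHom_eq_zero_iff (f : MvPowerSeries (Fin (n + 1)) k) :
    piHom k n f = 0 ↔ (X 0 : MvPowerSeries (Fin (n + 1)) k) ∣ f := by
  rw [piHom_apply, ← PowerSeries.X_dvd_iff]
  constructor
  · rintro ⟨c, hc⟩
    refine ⟨(MvPowerSeries.finSuccEquiv k n).symm c, ?_⟩
    apply (MvPowerSeries.finSuccEquiv k n).injective
    rw [map_mul, finSuccEquiv_X_zero, AlgEquiv.apply_symm_apply, hc]
  · rintro ⟨c, rfl⟩
    rw [map_mul, finSuccEquiv_X_zero]
    exact Dvd.intro _ rfl

lemma piHom_surjective : Function.Surjective (piHom k n) := by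
  intro b
  refine ⟨(MvPowerSeries.finSuccEquiv k n).symm (PowerSeries.C b), ?_⟩
  rw [piHom_apply, AlgEquiv.apply_symm_apply]
  simp

lemma constantCoeff_piHom (f : MvPowerSeries (Fin (n + 1)) k) :
    constantCoeff (piHom k n f) = constantCoeff f := by
  rw [piHom_apply, ← coeff_zero_eq_constantCoeff_apply, ← coeff_zero_eq_constantCoeff_apply,
    ← PowerSeries.coeff_zero_eq_constantCoeff_apply, coeff_coeff_finSuccEquiv,
    Finsupp.cons_zero_zero]

lemma X_ne_zero' (j : Fin n) : (X j : MvPowerSeries (Fin n) k) ≠ 0 := by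
  classical
  intro h
  have h1 := congrArg (coeff (Finsupp.single j 1)) h
  rw [coeff_X, if_pos rfl, map_zero] at h1
  exact one_ne_zero h1

end pi

section three

variable (k : Type u) [Field k]

/-- The power series ring in three variables. -/
abbrev PS3 (k : Type u) [Field k] : Type u := MvPowerSeries (Fin 3) k

instance : IsDomain (MvPowerSeries (Fin 3) k) := NoZeroDivisors.to_isDomain _
instance : IsDomain (MvPowerSeries (Fin 2) k) := NoZeroDivisors.to_isDomain _
instance : IsDomain (MvPowerSeries (Fin 1) k) := NoZeroDivisors.to_isDomain _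

instance : IsIntegrallyClosed (PS3 k) := isIntegrallyClosed_of_cic (cic_mvPowerSeries k 3)

/-- The ring hom killing the first two variables. -/
noncomputable def qHom : PS3 k →+* MvPowerSeries (Fin 1) k := (piHom k 1).comp (piHom k 2)

/-- The ring hom killing all variables. -/
noncomputable def rHom : PS3 k →+* MvPowerSeries (Fin 0) k := (piHom k 0).comp (qHom k)

lemma X1_eq : (X 1 : PS3 k) = X (Fin.succ 0) := rfl
lemma X2_eq : (X 2 : PS3 k) = X (Fin.succ 1) := rfl
lemma X1_eq' : (X 1 : MvPowerSeries (Fin 2) k) = X (Fin.succ 0) := rfl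

lemma qHom_X0 : qHom k (X 0) = 0 := by
  simp [qHom, piHom_X_zero]

lemma qHom_X1 : qHom k (X 1) = 0 := by
  simp [qHom, X1_eq, piHom_X_succ, piHom_X_zero]

lemma qHom_X2 : qHom k (X 2) = X 0 := by
  simp only [qHom, RingHom.comp_apply]
  rw [X2_eq, piHom_X_succ, X1_eq', piHom_X_succ]

lemma span_X0_iff (g : PS3 k) : g ∈ Ideal.span {(X 0 : PS3 k)} ↔ piHom k 2 g = 0 := by
  rw [Ideal.mem_span_singleton, piHom_eq_zero_iff]

lemma span_X01_iff (g : PS3 k) :
    g ∈ Ideal.span {(X 0 : PS3 k), X 1} ↔ qHom k g = 0 := by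
  constructor
  · intro h
    obtain ⟨a, b, rfl⟩ := Ideal.mem_span_pair.1 h
    simp [qHom_X0, qHom_X1]
  · intro h
    have h1 : (X 0 : MvPowerSeries (Fin 2) k) ∣ piHom k 2 g := (piHom_eq_zero_iff k 1 _).1 h
    obtain ⟨b', hb'⟩ := h1
    obtain ⟨b, rfl⟩ := piHom_surjective k 2 b'
    have h2 : piHom k 2 (g - X 1 * b) = 0 := by
      rw [map_sub, map_mul, X1_eq, piHom_X_succ, hb']
      ring
    obtain ⟨c, hc⟩ := (piHom_eq_zero_iff k 2 _).1 h2
    exact Ideal.mem_span_pair.2 ⟨c, b, by linear_combination -hc⟩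

lemma rHom_eq_zero_of_constantCoeff (h : PS3 k) (h0 : constantCoeff h = 0) : rHom k h = 0 := by
  have h1 : constantCoeff (rHom k h) = 0 := by
    simp only [rHom, qHom, RingHom.comp_apply]
    rw [constantCoeff_piHom, constantCoeff_piHom, constantCoeff_piHom]
    exact h0
  ext a
  have h2 : a = 0 := Subsingleton.elim _ _
  rw [h2, coeff_zero_eq_constantCoeff_apply, h1, map_zero]

lemma mem_span_X012 (h : PS3 k) (h0 : constantCoeff h = 0) :
    h ∈ Ideal.span {(X 0 : PS3 k), X 1, X 2} := by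
  have h1 : piHom k 0 (qHom k h) = 0 := rHom_eq_zero_of_constantCoeff k h h0
  obtain ⟨c', hc'⟩ := (piHom_eq_zero_iff k 0 _).1 h1
  have hq : Function.Surjective (qHom k) :=
    (piHom_surjective k 1).comp (piHom_surjective k 2)
  obtain ⟨c, rfl⟩ := hq c'
  have h2 : qHom k (h - X 2 * c) = 0 := by
    rw [map_sub, map_mul, qHom_X2, hc']
    ring
  obtain ⟨a, b, hab⟩ := Ideal.mem_span_pair.1 ((span_X01_iff k _).2 h2)
  rw [Ideal.mem_span_insert]
  refine ⟨a, b * X 1 + c * X 2, ?_, by linear_combination -hab⟩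
  exact Ideal.mem_span_pair.2 ⟨b, c, rfl⟩

theorem maximalIdeal_PS3 :
    maximalIdeal (PS3 k) = Ideal.span {(X 0 : PS3 k), X 1, X 2} := by
  apply le_antisymm
  · intro h hh
    apply mem_span_X012
    rw [mem_maximalIdeal, mem_nonunits_iff, MvPowerSeries.isUnit_iff_constantCoeff] at hh
    by_contra h1
    exact hh (isUnit_iff_ne_zero.2 h1)
  · rw [Ideal.span_le]
    have key : ∀ j : Fin 3, (X j : PS3 k) ∈ maximalIdeal (PS3 k) := by
      intro j
      rw [mem_maximalIdeal, mem_nonunits_iff, MvPowerSeries.isUnit_iff_constantCoeff]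
      simp
    rintro x (rfl | rfl | rfl)
    · exact key 0
    · exact key 1
    · exact key 2

lemma reg1 : (X 0 : PS3 k) ≠ 0 := X_ne_zero' k 3 0

lemma reg2 (g : PS3 k) (h : (X 1 : PS3 k) * g ∈ Ideal.span {(X 0 : PS3 k)}) :
    g ∈ Ideal.span {(X 0 : PS3 k)} := by
  rw [span_X0_iff] at h ⊢
  rw [map_mul, X1_eq, piHom_X_succ] at h
  exact (mul_eq_zero.1 h).resolve_left (X_ne_zero' k 2 _)

lemma reg3 (g : PS3 k) (h : (X 2 : PS3 k) * g ∈ Ideal.span {(X 0 : PS3 k), X 1}) :
    g ∈ Ideal.span {(X 0 : PS3 k), X 1} := by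
  rw [span_X01_iff] at h ⊢
  rw [map_mul, qHom_X2] at h
  exact (mul_eq_zero.1 h).resolve_left (X_ne_zero' k 1 _)

end three

section regular

/-- A sequence of three elements in a local domain, regular in the elementary sense. -/
lemma isRegular_of_elementwise {A : Type u} [CommRing A] [IsDomain A] [IsLocalRing A] (a₁ a₂ a₃ : A)
    (hm : maximalIdeal A = Ideal.span {a₁, a₂, a₃}) (h1 : a₁ ≠ 0)
    (h2 : ∀ g, a₂ * g ∈ Ideal.span {a₁} → g ∈ Ideal.span {a₁})
    (h3 : ∀ g, a₃ * g ∈ Ideal.span {a₁, a₂} → g ∈ Ideal.span {a₁, a₂}) :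
    IsRegular A [a₁, a₂, a₃] := by
  refine ⟨?_, ?_⟩
  · rw [isWeaklyRegular_iff]
    intro i hi
    have hi' : i < 3 := by simpa using hi
    obtain rfl | rfl | rfl : i = 0 ∨ i = 1 ∨ i = 2 := by omega
    · rw [isSMulRegular_quotient_iff_mem_of_smul_mem]
      intro z hz
      have hz' : a₁ * z = 0 := by simpa using hz
      have hz0 : z = 0 := (mul_eq_zero.1 hz').resolve_left h1
      simp [hz0]
    · rw [isSMulRegular_quotient_iff_mem_of_smul_mem]
      intro z hz
      have hl : [a₁, a₂, a₃].take 1 = [a₁] := rfl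
      rw [hl, mem_ofList_single_smul_top] at hz ⊢
      obtain ⟨k, hk⟩ := hz
      obtain ⟨c, hc⟩ := Ideal.mem_span_singleton'.1 (h2 z (Ideal.mem_span_singleton'.2 ⟨k, by
        simpa [mul_comm] using hk.symm⟩))
      exact ⟨c, by simpa [mul_comm] using hc.symm⟩
    · rw [isSMulRegular_quotient_iff_mem_of_smul_mem]
      intro z hz
      have hl : [a₁, a₂, a₃].take 2 = [a₁, a₂] := rfl
      rw [hl, mem_ofList_pair_smul_top] at hz ⊢
      obtain ⟨k, k', hk⟩ := hz
      obtain ⟨c, c', hc⟩ := Ideal.mem_span_pair.1 (h3 z (Ideal.mem_span_pair.2 ⟨k, k', by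
        simpa [mul_comm] using hk.symm⟩))
      exact ⟨c, c', by simpa [mul_comm] using hc.symm⟩
  · intro h
    have h4 : Ideal.ofList [a₁, a₂, a₃] = maximalIdeal A := by
      rw [hm, Ideal.ofList_cons, Ideal.ofList_cons, Ideal.ofList_singleton, Ideal.span_insert,
        Ideal.span_insert]
    rw [h4, smul_eq_mul, Ideal.mul_top] at h
    exact (maximalIdeal.isMaximal A).ne_top h.symm

theorem isRegular_PS3 (k : Type u) [Field k] : IsRegular (PS3 k) [(X 0 : PS3 k), X 1, X 2] :=
  isRegular_of_elementwise _ _ _ (maximalIdeal_PS3 k) (reg1 k) (reg2 k) (reg3 k)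

end regular

end Vale.Agent.Lib.P190
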