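import Vale.Agent.Lib.P190.CompleteN

/-!
Domains module-finite over a complete Noetherian local ring are local.
-/

set_option linter.unusedSectionVars false

universe u

open IsLocalRing Polynomial

namespace Vale.Agent.Lib.P190

section henselian

/-- Finite modules over a precomplete ring are precomplete. -/
theorem isPrecomplete_of_finite {A : Type*} [CommRing A] (I : Ideal A) [IsPrecomplete I A]
    (N : Type*) [AddCommGroup N] [Module A N] [Module.Finite A N] : IsPrecomplete I N := by
  classical
  obtain ⟨l, g, hg⟩ := Module.Finite.exists_fin (R := A) (M := N)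
  have hstep : ∀ (n : ℕ) (v : N), v ∈ (I ^ n • ⊤ : Submodule A N) →
      ∃ b : Fin l → A, (∀ i, b i ∈ I ^ n) ∧ v = ∑ i, b i • g i := by
    intro n v hv
    refine Submodule.smul_induction_on hv ?_ ?_
    · intro r hr w _
      have hw : w ∈ Submodule.span A (Set.range g) := by
        rw [hg]
        trivial
      obtain ⟨c, hc⟩ := (Submodule.mem_span_range_iff_exists_fun A).1 hw
      refine ⟨fun i => r * c i, fun i => Ideal.mul_mem_right _ _ hr, ?_⟩
      rw [← hc, Finset.smul_sum]
      simp [mul_smul]
    · rintro v₁ v₂ ⟨b₁, hb₁, rfl⟩ ⟨b₂, hb₂, rfl⟩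
      refine ⟨b₁ + b₂, fun i => Ideal.add_mem _ (hb₁ i) (hb₂ i), ?_⟩
      simp only [Pi.add_apply, add_smul, Finset.sum_add_distrib]
  refine ⟨fun {f} hf => ?_⟩
  have hdiff : ∀ n, f (n + 1) - f n ∈ (I ^ n • ⊤ : Submodule A N) := by
    intro n
    have h1 := hf (Nat.le_succ n)
    rw [SModEq.sub_mem] at h1
    rw [← neg_sub]
    exact Submodule.neg_mem _ h1
  choose b hb hb' using fun n => hstep n _ (hdiff n)
  let a : ℕ → Fin l → A := fun J i => ∑ j ∈ Finset.range J, b j i
  have hsum : ∀ J, f J = f 0 + ∑ i, a J i • g i := by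
    intro J
    induction J with
    | zero => simp [a]
    | succ J ih =>
      have h2 : f (J + 1) = f J + ∑ i, b J i • g i := by
        rw [← hb' J]
        abel
      rw [h2, ih, add_assoc, ← Finset.sum_add_distrib]
      simp only [a, Finset.sum_range_succ, add_smul]
  have hcauchy : ∀ i {m n : ℕ}, m ≤ n → a m i ≡ a n i [SMOD (I ^ m • ⊤ : Submodule A A)] := by
    intro i m n hmn
    rw [SModEq.sub_mem, smul_eq_mul, Ideal.mul_top]
    obtain ⟨c, rfl⟩ := Nat.exists_eq_add_of_le hmn
    have h1 : a m i - a (m + c) i = - ∑ j ∈ Finset.range c, b (m + j) i := by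
      simp only [a, Finset.sum_range_add]
      ring
    rw [h1]
    refine Ideal.neg_mem_iff _ |>.2 (Ideal.sum_mem _ fun j _ => ?_)
    exact Ideal.pow_le_pow_right (Nat.le_add_right m j) (hb (m + j) i)
  choose L hL using fun i => IsPrecomplete.prec (I := I) inferInstance (hcauchy i)
  refine ⟨f 0 + ∑ i, L i • g i, fun J => ?_⟩
  rw [SModEq.sub_mem]
  have h1 : f J - (f 0 + ∑ i, L i • g i) = ∑ i, (a J i - L i) • g i := by
    rw [hsum J]
    simp only [sub_smul, Finset.sum_sub_distrib]
    abel
  rw [h1]
  refine Submodule.sum_mem _ fun i _ => ?_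
  have h2 := hL i J
  rw [SModEq.sub_mem, smul_eq_mul, Ideal.mul_top] at h2
  exact Submodule.smul_mem_smul h2 trivial

/-- **A domain module-finite over a complete Noetherian local ring is local.** -/
theorem isLocalRing_of_finite_of_complete {R S : Type*} [CommRing R] [IsLocalRing R]
    [IsNoetherianRing R] [IsAdicComplete (maximalIdeal R) R] [CommRing S] [IsDomain S]
    [Algebra R S] [Module.Finite R S] : IsLocalRing S := by
  classical
  have hP : IsPrecomplete (maximalIdeal R) S := isPrecomplete_of_finite _ S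
  have h1 : IsAdicComplete (maximalIdeal R) S := {}
  set J : Ideal S := (maximalIdeal R).map (algebraMap R S) with hJ
  have h2 : IsAdicComplete J S := (IsAdicComplete.map_algebraMap_iff _ _).2 h1
  have hH : HenselianRing S J := inferInstance
  have key : ∀ (P : R[X]), P.map (residue R) = 0 → ∀ s : S, aeval s P ∈ J := by
    intro P hP s
    rw [aeval_eq_sum_range]
    refine Ideal.sum_mem _ fun i _ => ?_
    rw [Algebra.smul_def]
    refine Ideal.mul_mem_right _ _ (Ideal.mem_map_of_mem _ ?_)
    rw [← residue_eq_zero_iff, ← coeff_map, hP, coeff_zero]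
  have hunit : ∀ w : S, w - 1 ∈ J → IsUnit w := by
    intro w hw
    have h3 := (Ideal.mem_jacobson_bot.1 (hH.jac hw)) 1
    simpa using h3
  refine IsLocalRing.of_isUnit_or_isUnit_one_sub_self fun s => ?_
  obtain ⟨f, hf, hfs⟩ := Algebra.IsIntegral.isIntegral (R := R) s
  have hsurj := Polynomial.map_surjective (residue R) (residue_surjective (R := R))
  set F : (ResidueField R)[X] := f.map (residue R) with hF
  have hF0 : (X : (ResidueField R)[X]) * F ≠ 0 :=
    mul_ne_zero X_ne_zero (hf.map (residue R)).ne_zero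
  obtain ⟨a, h, hnd, hfac⟩ := WfDvdMonoid.max_power_factor hF0 irreducible_X
  have ha : a ≠ 0 := by
    rintro rfl
    apply hnd
    rw [pow_zero, one_mul] at hfac
    rw [← hfac]
    exact Dvd.intro _ rfl
  have hco : IsCoprime (X ^ a) h := (irreducible_X.coprime_iff_not_dvd.2 hnd).pow_left
  obtain ⟨c, d, hcd⟩ := hco
  obtain ⟨c', rfl⟩ := hsurj c
  obtain ⟨d', rfl⟩ := hsurj d
  obtain ⟨h', rfl⟩ := hsurj h
  set γ := aeval s c' with hγ
  set δ := aeval s d' with hδ
  set η := aeval s h' with hη
  have h3 : γ * s ^ a + δ * η - 1 ∈ J := by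
    have h4 := key (c' * X ^ a + d' * h' - 1) (by
      simp only [Polynomial.map_sub, Polynomial.map_add, Polynomial.map_mul, Polynomial.map_pow,
        map_X, Polynomial.map_one]
      rw [hcd, sub_self]) s
    simpa using h4
  have h5 : s ^ a * η ∈ J := by
    have h4 := key (X ^ a * h' - X * f) (by
      simp only [Polynomial.map_sub, Polynomial.map_mul, Polynomial.map_pow, map_X]
      rw [← hF, hfac, sub_self]) s
    have h6 : aeval s f = 0 := by
      rw [aeval_def]
      exact hfs
    simpa [h6] using h4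
  set y := δ * η with hy
  set z := γ * s ^ a with hz
  have hyz : y * z ∈ J := by
    have h6 : y * z = γ * δ * (s ^ a * η) := by
      rw [hy, hz]
      ring
    rw [h6]
    exact Ideal.mul_mem_left _ _ h5
  have hyy : y ^ 2 - y ∈ J := by
    have h6 : y ^ 2 - y = y * (z + y - 1) - y * z := by ring
    rw [h6]
    exact Ideal.sub_mem _ (Ideal.mul_mem_left _ _ h3) hyz
  -- the idempotent
  have hmonic : ((X : S[X]) ^ 2 - X).Monic := monic_X_pow_sub (by simp)
  obtain ⟨e, he, he'⟩ := hH.is_henselian ((X : S[X]) ^ 2 - X) hmonic y (by simpa using hyy) (by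
    have h6 : ((Ideal.Quotient.mk J) (eval y (derivative ((X : S[X]) ^ 2 - X)))) *
        ((Ideal.Quotient.mk J) (eval y (derivative ((X : S[X]) ^ 2 - X)))) = 1 := by
      rw [← map_mul, ← map_one (Ideal.Quotient.mk J), Ideal.Quotient.eq]
      have h7 : eval y (derivative ((X : S[X]) ^ 2 - X)) * eval y (derivative ((X : S[X]) ^ 2 - X))
          - 1 = 4 * (y ^ 2 - y) := by
        simp only [derivative_sub, derivative_X_pow, derivative_X, eval_sub, eval_mul, eval_pow,
          eval_X, eval_one]
        simp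
        ring
      rw [h7]
      exact Ideal.mul_mem_left _ _ hyy
    exact IsUnit.of_mul_eq_one _ h6)
  have he2 : e * (e - 1) = 0 := by
    have h6 : eval e ((X : S[X]) ^ 2 - X) = 0 := he
    simp only [eval_sub, eval_pow, eval_X] at h6
    rw [← h6]
    ring
  rcases mul_eq_zero.1 he2 with h0 | h0
  · -- the idempotent vanishes
    left
    rw [h0] at he'
    have hyJ : y ∈ J := by
      have h6 := Ideal.neg_mem_iff _ |>.2 he'
      simpa using h6
    have h7 : z - 1 ∈ J := by
      have h8 : z - 1 = (z + y - 1) - y := by ring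
      rw [h8]
      exact Ideal.sub_mem _ h3 hyJ
    have h8 := hunit z h7
    obtain ⟨a', rfl⟩ := Nat.exists_eq_succ_of_ne_zero ha
    have h9 : z = (γ * s ^ a') * s := by
      rw [hz, pow_succ]
      ring
    rw [h9] at h8
    exact isUnit_of_mul_isUnit_right h8
  · -- the idempotent is one
    right
    have he1 : e = 1 := sub_eq_zero.1 h0
    rw [he1] at he'
    have h6 : s ^ a ∈ J := by
      have h7 : s ^ a = - s ^ a * (1 - y) * (-1) + δ * (s ^ a * η) * (1) + 0 := by
        rw [hy]
        ring
      rw [h7, add_zero]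
      exact Ideal.add_mem _ (Ideal.mul_mem_right _ _ (Ideal.mul_mem_left _ _ he'))
        (Ideal.mul_mem_right _ _ (Ideal.mul_mem_left _ _ h5))
    have h7 : (1 - s) * ∑ i ∈ Finset.range a, s ^ i - 1 ∈ J := by
      rw [mul_neg_geom_sum]
      have h8 : 1 - s ^ a - 1 = - s ^ a := by ring
      rw [h8]
      exact Ideal.neg_mem_iff _ |>.2 h6
    exact isUnit_of_mul_isUnit_left (hunit _ h7)

end henselian

end Vale.Agent.Lib.P190
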