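import Vale.Agent.Lib.P190.CompleteP

/-!
Coefficient fields of complete local rings of prime characteristic with F-finite residue field.
-/

set_option linter.unusedSectionVars false

universe u v

open IsLocalRing Polynomial
open scoped IntermediateField

namespace Vale.Agent.Lib.P190

section tower

variable {p : ℕ} [Fact p.Prime] {L : Type u} [Field L] [CharP L p] {Q Q' : Type v} [CommRing Q]
  [CommRing Q'] (π : Q →+* Q') (f : L →+* Q') (hπ : Function.Surjective π)

include hπ in
/-- Extending a ring map along a tower of fields of exponent one. -/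
theorem exists_extension_tower : ∀ (n : ℕ) (K : Type u) [Field K] [Algebra K L]
    [FiniteDimensional K L], Module.finrank K L = n →
    (∀ x : L, ∃ c : K, algebraMap K L c = x ^ p) →
    ∀ g : K →+* Q, (∀ c, π (g c) = f (algebraMap K L c)) →
    (∀ (x : L) (t : Q) (c : K), π t = f x → algebraMap K L c = x ^ p → t ^ p = g c) →
    ∃ g' : L →+* Q, (∀ c, g' (algebraMap K L c) = g c) ∧ ∀ x, π (g' x) = f x := by
  intro n
  induction n using Nat.strong_induction_on with
  | _ n ih =>
    intro K _ _ _ hn hexp g hg hlift
    by_cases hsurj : Function.Surjective (algebraMap K L)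
    · let e : K ≃+* L := RingEquiv.ofBijective (algebraMap K L)
        ⟨(algebraMap K L).injective, hsurj⟩
      refine ⟨g.comp (e.symm : L →+* K), ?_, ?_⟩
      · intro c
        have h1 : e.symm (algebraMap K L c) = c := e.symm_apply_apply c
        simp [h1]
      · intro x
        obtain ⟨c, rfl⟩ := hsurj x
        have h1 : e.symm (algebraMap K L c) = c := e.symm_apply_apply c
        simp [h1, hg]
    · obtain ⟨x, hx⟩ : ∃ x : L, x ∉ Set.range (algebraMap K L) := by
        by_contra hcon
        push Not at hcon
        exact hsurj hcon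
      let _ : Algebra K Q := g.toAlgebra
      have halg : ∀ c, algebraMap K Q c = g c := fun _ => rfl
      obtain ⟨c, hc⟩ := hexp x
      have hint : IsIntegral K x := IsIntegral.of_finite K x
      have hpp : p.Prime := Fact.out
      have hirr : Irreducible ((X : K[X]) ^ p - C c) := by
        rw [X_pow_sub_C_irreducible_iff_of_prime hpp]
        rintro b rfl
        apply hx
        refine ⟨b, ?_⟩
        have h1 : (algebraMap K L b - x) ^ p = 0 := by
          rw [sub_pow_char, ← map_pow, hc, sub_self]
        have h2 := pow_eq_zero_iff (hpp.ne_zero) |>.1 h1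
        exact sub_eq_zero.1 h2
      have hmin : (X : K[X]) ^ p - C c = minpoly K x := by
        refine minpoly.eq_of_irreducible_of_monic hirr ?_ (monic_X_pow_sub_C _ hpp.ne_zero)
        simp [hc]
      obtain ⟨t, ht⟩ := hπ (f x)
      have htp : t ^ p = g c := hlift x t c ht hc
      let pb := IntermediateField.adjoin.powerBasis hint
      have hroot : aeval t (minpoly K pb.gen) = 0 := by
        rw [IntermediateField.adjoin.powerBasis_gen, IntermediateField.minpoly_gen, ← hmin]
        simp [htp, halg]
      let g₁ : K⟮x⟯ →ₐ[K] Q := pb.lift t hroot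
      have hgen : π (g₁ pb.gen) = f (pb.gen : L) := by
        simp only [g₁]
        rw [pb.lift_gen, ht, IntermediateField.adjoin.powerBasis_gen]
        rfl
      have hg₁ : ∀ y : K⟮x⟯, π (g₁ y) = f (y : L) := by
        intro y
        obtain ⟨P, rfl⟩ := pb.exists_eq_aeval' y
        have h1 : g₁ (aeval pb.gen P) = eval₂ g (g₁ pb.gen) P := by
          rw [← aeval_algHom_apply, aeval_def]
          rfl
        have h2 : ((aeval pb.gen P : K⟮x⟯) : L) = eval₂ (algebraMap K L) (pb.gen : L) P := by
          have h3 : ((aeval pb.gen P : K⟮x⟯) : L) = aeval (pb.gen : L) P :=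
            (aeval_algHom_apply (K⟮x⟯).val pb.gen P).symm
          rw [h3, aeval_def]
        rw [h1, h2, hom_eval₂, hom_eval₂, hgen]
        congr 1
        ext c
        simp [hg]
      have hcomm : ∀ c : K, g₁ (algebraMap K K⟮x⟯ c) = g c := fun c => g₁.commutes c
      have hpos : 0 < Module.finrank K⟮x⟯ L := Module.finrank_pos
      have hdeg : Module.finrank K K⟮x⟯ = p := by
        rw [IntermediateField.adjoin.finrank hint, ← hmin, natDegree_X_pow_sub_C]
      have hlt : Module.finrank K⟮x⟯ L < n := by
        rw [← hn, ← Module.finrank_mul_finrank K K⟮x⟯ L, hdeg]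
        have := hpp.two_le
        nlinarith
      obtain ⟨g', hg', hg''⟩ := ih _ hlt K⟮x⟯ rfl
        (fun y => by
          obtain ⟨c', hc'⟩ := hexp y
          exact ⟨algebraMap K K⟮x⟯ c', by rw [← hc']; rfl⟩)
        g₁.toRingHom hg₁
        (fun y t' c₁ ht' hc₁ => by
          obtain ⟨c', hc'⟩ := hexp y
          have h1 : c₁ = algebraMap K K⟮x⟯ c' := by
            apply Subtype.ext
            have h2 : ((c₁ : K⟮x⟯) : L) = y ^ p := hc₁
            rw [h2, ← hc']
            rfl
          rw [h1]
          change t' ^ p = g₁ (algebraMap K K⟮x⟯ c')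
          rw [hcomm, hlift y t' c' ht' hc'])
      refine ⟨g', fun c' => ?_, hg''⟩
      have h1 : algebraMap K L c' = algebraMap K⟮x⟯ L (algebraMap K K⟮x⟯ c') := rfl
      rw [h1, hg']
      exact hcomm c'

end tower

section step

variable {p : ℕ} [Fact p.Prime] {k : Type u} [Field k] [CharP k p] {Q Q' : Type v} [CommRing Q]
  [CommRing Q'] (π : Q →+* Q') (hπ : Function.Surjective π)

include hπ in
/-- Lifting ring maps from an F-finite field along surjections whose kernel is killed by Frobenius. -/
theorem exists_lift_step (hfin : (frobenius k p).Finite) (hker : ∀ x, π x = 0 → x ^ p = 0)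
    (hadd : ∀ x y : Q, (x + y) ^ p = x ^ p + y ^ p) (f : k →+* Q') :
    ∃ f' : k →+* Q, ∀ x, π (f' x) = f x := by
  classical
  have hpp : p.Prime := Fact.out
  have key : ∀ t t' : Q, π t = π t' → t ^ p = t' ^ p := by
    intro t t' h
    have h1 : (t - t') ^ p = 0 := hker _ (by rw [map_sub, h, sub_self])
    have h2 := hadd t' (t - t')
    rw [h1, add_zero, add_sub_cancel] at h2
    exact h2
  choose l hl using fun a => hπ (f a)
  let h' : k →+* Q :=
    { toFun := fun a => l a ^ p
      map_one' := by
        have h1 := key (l 1) 1 (by rw [hl, map_one, map_one])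
        rw [h1, one_pow]
      map_mul' := by
        intro a b
        have h1 := key (l (a * b)) (l a * l b) (by rw [hl, map_mul, map_mul, hl, hl])
        change l (a * b) ^ p = l a ^ p * l b ^ p
        rw [h1, mul_pow]
      map_zero' := by
        have h1 := key (l 0) 0 (by rw [hl, map_zero, map_zero])
        change l 0 ^ p = 0
        rw [h1, zero_pow hpp.ne_zero]
      map_add' := by
        intro a b
        have h1 := key (l (a + b)) (l a + l b) (by rw [hl, map_add, map_add, hl, hl])
        change l (a + b) ^ p = l a ^ p + l b ^ p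
        rw [h1, hadd] }
  have hh' : ∀ a, h' a = l a ^ p := fun _ => rfl
  let K : Subfield k := (frobenius k p).fieldRange
  let e : k ≃+* K := RingEquiv.ofBijective (frobenius k p).rangeRestrictField
    ⟨by
      intro a b hab
      apply (frobenius k p).injective
      exact congrArg Subtype.val hab,
     by
      rintro ⟨y, a, rfl⟩
      exact ⟨a, rfl⟩⟩
  have he : ∀ a, ((e a : K) : k) = a ^ p := fun a => rfl
  let g : K →+* Q := h'.comp (e.symm : K →+* k)
  have hg : ∀ a, g (e a) = h' a := by
    intro a
    simp [g]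
  have hfd : FiniteDimensional K k := by
    have h1 : (frobenius k p) = (algebraMap K k).comp (frobenius k p).rangeRestrictField := rfl
    rw [h1] at hfin
    exact RingHom.finite_algebraMap.1 (RingHom.Finite.of_comp_finite hfin)
  obtain ⟨g', -, hg'⟩ := exists_extension_tower π f hπ _ K rfl
    (fun x => ⟨e x, he x⟩) g
    (fun c => by
      obtain ⟨a, rfl⟩ := e.surjective c
      rw [hg, hh', map_pow, hl, ← map_pow]
      rfl)
    (fun x t c ht hc => by
      have h1 : c = e x := Subtype.ext (by rw [he]; exact hc)
      rw [h1, hg, hh']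
      exact key _ _ (by rw [ht, hl]))
  exact ⟨g', hg'⟩

end step

section coefficient

variable {R : Type u} [CommRing R] [IsLocalRing R] (p : ℕ) [Fact p.Prime] [CharP R p]

lemma frobenius_residue_finite [CharP (ResidueField R) p] (hfin : (frobenius R p).Finite) :
    (frobenius (ResidueField R) p).Finite := by
  have h1 : (frobenius (ResidueField R) p).comp (residue R) =
      (residue R).comp (frobenius R p) := by
    ext x
    simp [frobenius_def]
  have h2 : ((frobenius (ResidueField R) p).comp (residue R)).Finite := by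
    rw [h1]
    exact RingHom.Finite.comp (RingHom.Finite.of_surjective _ (residue_surjective)) hfin
  exact RingHom.Finite.of_comp_finite h2

/-- **Coefficient fields.** -/
theorem exists_coefficient_field [IsAdicComplete (maximalIdeal R) R]
    [CharP (ResidueField R) p] (hfin : (frobenius R p).Finite) :
    ∃ s : ResidueField R →+* R, ∀ x, residue R (s x) = x := by
  classical
  have hpp : p.Prime := Fact.out
  have hfink := frobenius_residue_finite p hfin
  set m := maximalIdeal R with hm
  let Q : ℕ → Type u := fun e => R ⧸ m ^ (p ^ e)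
  have hle : ∀ {a b : ℕ}, a ≤ b → m ^ (p ^ b) ≤ m ^ (p ^ a) := fun h =>
    Ideal.pow_le_pow_right (Nat.pow_le_pow_right hpp.pos h)
  let π : (e : ℕ) → (R ⧸ m ^ (p ^ (e + 1))) →+* (R ⧸ m ^ (p ^ e)) := fun e =>
    Ideal.Quotient.factor (hle (Nat.le_succ e))
  have hπ : ∀ e, Function.Surjective (π e) := fun e => Ideal.Quotient.factor_surjective _
  have hker : ∀ e x, π e x = 0 → x ^ p = 0 := by
    intro e x hx
    obtain ⟨y, rfl⟩ := Ideal.Quotient.mk_surjective x
    have h1 : y ∈ m ^ (p ^ e) := by
      rw [← Ideal.Quotient.eq_zero_iff_mem]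
      exact hx
    rw [← map_pow, Ideal.Quotient.eq_zero_iff_mem]
    have h2 : y ^ p ∈ (m ^ (p ^ e)) ^ p := Ideal.pow_mem_pow h1 p
    rwa [← pow_mul, ← pow_succ] at h2
  have hadd : ∀ e (x y : R ⧸ m ^ (p ^ (e + 1))), (x + y) ^ p = x ^ p + y ^ p := by
    intro e x y
    obtain ⟨a, rfl⟩ := Ideal.Quotient.mk_surjective x
    obtain ⟨b, rfl⟩ := Ideal.Quotient.mk_surjective y
    rw [← map_add, ← map_pow, ← map_pow, ← map_pow, add_pow_char, map_add]
  have hstep : ∀ e (f : ResidueField R →+* (R ⧸ m ^ (p ^ e))),
      ∃ f' : ResidueField R →+* (R ⧸ m ^ (p ^ (e + 1))), ∀ x, π e (f' x) = f x := fun e f =>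
    exists_lift_step (π e) (hπ e) hfink (hker e) (hadd e) f
  choose next hnext using hstep
  have h0 : m ≤ m ^ (p ^ 0) := by simp
  let f₀ : ResidueField R →+* (R ⧸ m ^ (p ^ 0)) := Ideal.Quotient.factor h0
  let fam : (e : ℕ) → (ResidueField R →+* (R ⧸ m ^ (p ^ e))) := fun e =>
    Nat.rec f₀ (fun e f => next e f) e
  have hfam : ∀ e x, π e (fam (e + 1) x) = fam e x := fun e x => hnext e (fam e) x
  have hfam' : ∀ a c x, Ideal.Quotient.factor (hle (Nat.le_add_right a c)) (fam (a + c) x) =
      fam a x := by
    intro a c x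
    induction c with
    | zero =>
      obtain ⟨r, hr⟩ := Ideal.Quotient.mk_surjective (fam a x)
      change Ideal.Quotient.factor (hle (Nat.le_add_right a 0)) (fam a x) = fam a x
      rw [← hr]
      rfl
    | succ c ih =>
      have h5 : π (a + c) (fam (a + c + 1) x) = fam (a + c) x := hfam (a + c) x
      have h6 : Ideal.Quotient.factor (hle (Nat.le_add_right a (c + 1))) (fam (a + (c + 1)) x) =
          Ideal.Quotient.factor (hle (Nat.le_add_right a c)) (π (a + c) (fam (a + c + 1) x)) := by
        obtain ⟨r, hr⟩ := Ideal.Quotient.mk_surjective (fam (a + c + 1) x)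
        change Ideal.Quotient.factor _ (fam (a + c + 1) x) = _
        rw [← hr]
        rfl
      rw [h6, h5, ih]
  have hfam'' : ∀ a b (hab : a ≤ b) x, Ideal.Quotient.factor (hle hab) (fam b x) = fam a x := by
    intro a b hab x
    obtain ⟨c, rfl⟩ := Nat.exists_eq_add_of_le hab
    exact hfam' a c x
  have hn : ∀ n : ℕ, n ≤ p ^ n := fun n => (Nat.lt_pow_self hpp.one_lt).le
  let F : (n : ℕ) → (ResidueField R →+* (R ⧸ m ^ n)) := fun n =>
    (Ideal.Quotient.factor (Ideal.pow_le_pow_right (hn n))).comp (fam n)
  have hF : ∀ {a b : ℕ} (hab : a ≤ b), (Ideal.Quotient.factorPow m hab).comp (F b) = F a := by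
    intro a b hab
    ext x
    obtain ⟨c, rfl⟩ := Nat.exists_eq_add_of_le hab
    have h1 := hfam' a c x
    simp only [F, RingHom.comp_apply]
    rw [← h1]
    obtain ⟨r, hr⟩ := Ideal.Quotient.mk_surjective (fam (a + c) x)
    rw [← hr]
    rfl
  let s := IsAdicComplete.liftRingHom m F hF
  have hs : ∀ n x, Ideal.Quotient.mk (m ^ n) (s x) = F n x := fun n x =>
    IsAdicComplete.mk_liftRingHom m F hF n x
  refine ⟨s, fun x => ?_⟩
  obtain ⟨r, rfl⟩ := residue_surjective x
  have h1 := hs (p ^ 0) (residue R r)
  have h2 := hfam'' 0 (p ^ 0) (Nat.zero_le _) (residue R r)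
  have h3 : fam 0 (residue R r) = Ideal.Quotient.mk _ r := rfl
  have h4 : Ideal.Quotient.mk (m ^ (p ^ 0)) (s (residue R r)) = Ideal.Quotient.mk _ r := by
    rw [← h3, ← h2, h1]
    rfl
  have h5 : s (residue R r) - r ∈ m ^ (p ^ 0) := Ideal.Quotient.eq.1 h4
  have h6 : s (residue R r) - r ∈ m := by simpa using h5
  have h7 : residue R (s (residue R r) - r) = 0 := (residue_eq_zero_iff _).2 h6
  rwa [map_sub, sub_eq_zero] at h7

end coefficient

end Vale.Agent.Lib.P190
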