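import Vale.Agent.Lib.P190.CompleteA
import Vale.Agent.Lib.P190.CompleteK

/-!
Power series maps into complete rings, complete Nakayama, and the structure theorem.
-/

set_option linter.unusedSectionVars false

universe u

open IsLocalRing MvPowerSeries

namespace Vale.Agent.Lib.P190

section lift

variable {σ : Type} [Finite σ] {k : Type u} [Field k] {R : Type u} [CommRing R] (m : Ideal R)
  [IsAdicComplete m R] (s : k →+* R) (x : σ → R) (hx : ∀ i, x i ∈ m)

/-- The polynomial map. -/
noncomputable def polyHom : MvPolynomial σ k →+* R := MvPolynomial.eval₂Hom s x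

lemma polyHom_X (i : σ) : polyHom s x (MvPolynomial.X i) = x i := by
  simp [polyHom]

lemma polyHom_C (c : k) : polyHom s x (MvPolynomial.C c) = s c := by
  simp [polyHom]

include hx in
lemma polyHom_pow_mem (n : ℕ) (q : MvPolynomial σ k) (hq : q ∈ MvPolynomial.idealOfVars σ k ^ n) :
    polyHom s x q ∈ m ^ n := by
  have h1 : Ideal.map (polyHom s x) (MvPolynomial.idealOfVars σ k) ≤ m := by
    rw [Ideal.map_le_iff_le_comap, MvPolynomial.idealOfVars, Ideal.span_le]
    rintro _ ⟨i, rfl⟩
    change polyHom s x (MvPolynomial.X i) ∈ m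
    rw [polyHom_X]
    exact hx i
  have h2 : Ideal.map (polyHom s x) (MvPolynomial.idealOfVars σ k ^ n) ≤ m ^ n := by
    rw [Ideal.map_pow]
    exact Ideal.pow_right_mono h1 n
  exact h2 (Ideal.mem_map_of_mem _ hq)

/-- The truncated maps. -/
noncomputable def truncHom (n : ℕ) : MvPowerSeries σ k →+* R ⧸ m ^ n :=
  (Ideal.quotientMap (m ^ n) (polyHom s x) (fun q hq => polyHom_pow_mem m s x hx n q hq)).comp
    (truncTotalAlgHom σ k n : MvPowerSeries σ k →+* _)

lemma truncHom_apply (n : ℕ) (p : MvPowerSeries σ k) :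
    truncHom m s x hx n p = Ideal.Quotient.mk (m ^ n) (polyHom s x (truncTotal n p)) := rfl

lemma truncHom_compat {a b : ℕ} (hab : a ≤ b) :
    (Ideal.Quotient.factorPow m hab).comp (truncHom m s x hx b) = truncHom m s x hx a := by
  ext p
  simp only [RingHom.comp_apply, truncHom_apply]
  change Ideal.Quotient.mk (m ^ a) (polyHom s x (truncTotal b p)) = _
  rw [Ideal.Quotient.eq, ← map_sub]
  exact polyHom_pow_mem m s x hx a _ (truncTotal_sub_truncTotal_mem_pow_idealOfVars hab le_rfl p)

/-- The map from power series to a complete ring. -/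
noncomputable def phiHom : MvPowerSeries σ k →+* R :=
  IsAdicComplete.liftRingHom m (truncHom m s x hx) (fun hab => truncHom_compat m s x hx hab)

lemma phiHom_spec (n : ℕ) (p : MvPowerSeries σ k) :
    Ideal.Quotient.mk (m ^ n) (phiHom m s x hx p) =
      Ideal.Quotient.mk (m ^ n) (polyHom s x (truncTotal n p)) :=
  IsAdicComplete.mk_liftRingHom m (truncHom m s x hx) (fun hab => truncHom_compat m s x hx hab) n p

lemma eq_zero_of_forall_pow_mem (y : R) (h : ∀ n, y ∈ m ^ n) : y = 0 := by
  apply IsHausdorff.haus (I := m) inferInstance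
  intro n
  rw [SModEq.zero, smul_eq_mul, Ideal.mul_top]
  exact h n

lemma phiHom_coe (q : MvPolynomial σ k) :
    phiHom m s x hx (q : MvPowerSeries σ k) = polyHom s x q := by
  rw [← sub_eq_zero]
  apply eq_zero_of_forall_pow_mem m
  intro n
  have h1 := phiHom_spec m s x hx n (q : MvPowerSeries σ k)
  have h2 : q - truncTotal n (q : MvPowerSeries σ k) ∈ MvPolynomial.idealOfVars σ k ^ n :=
    (MvPolynomial.mem_pow_idealOfVars_iff' ..).mpr fun y hy => by simp [coeff_truncTotal _ hy]
  have h3 := polyHom_pow_mem m s x hx n _ h2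
  rw [map_sub] at h3
  rw [← Ideal.Quotient.eq_zero_iff_mem, map_sub, h1, sub_eq_zero, eq_comm, Ideal.Quotient.eq]
  exact h3

lemma phiHom_C (c : k) : phiHom m s x hx (MvPowerSeries.C c) = s c := by
  have h1 := phiHom_coe m s x hx (MvPolynomial.C c)
  rwa [MvPolynomial.coe_C, polyHom_C] at h1

lemma phiHom_X (i : σ) : phiHom m s x hx (MvPowerSeries.X i) = x i := by
  have h1 := phiHom_coe m s x hx (MvPolynomial.X i)
  rwa [MvPolynomial.coe_X, polyHom_X] at h1

end lift

section nakayama

variable {A N : Type*} [CommRing A] [AddCommGroup N] [Module A N] (I : Ideal A)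
  {ι : Type*} [Fintype ι] (g : ι → N)

lemma nakayama_step (hg : ∀ v : N, ∃ c : ι → A, v - ∑ i, c i • g i ∈ (I • ⊤ : Submodule A N))
    (j : ℕ) (v : N) (hv : v ∈ (I ^ j • ⊤ : Submodule A N)) :
    ∃ b : ι → A, (∀ i, b i ∈ I ^ j) ∧ v - ∑ i, b i • g i ∈ (I ^ (j + 1) • ⊤ : Submodule A N) := by
  classical
  refine Submodule.smul_induction_on hv ?_ ?_
  · intro r hr w _
    obtain ⟨c, hc⟩ := hg w
    refine ⟨fun i => r * c i, fun i => Ideal.mul_mem_right _ _ hr, ?_⟩
    have h1 : r • w - ∑ i, (r * c i) • g i = r • (w - ∑ i, c i • g i) := by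
      rw [smul_sub, Finset.smul_sum]
      simp [mul_smul]
    rw [h1, pow_succ, mul_smul]
    exact Submodule.smul_mem_smul hr hc
  · rintro v₁ v₂ ⟨b₁, hb₁, h₁⟩ ⟨b₂, hb₂, h₂⟩
    refine ⟨b₁ + b₂, fun i => Ideal.add_mem _ (hb₁ i) (hb₂ i), ?_⟩
    have h3 : v₁ + v₂ - ∑ i, (b₁ + b₂) i • g i =
        (v₁ - ∑ i, b₁ i • g i) + (v₂ - ∑ i, b₂ i • g i) := by
      simp only [Pi.add_apply, add_smul, Finset.sum_add_distrib]
      abel
    rw [h3]
    exact Submodule.add_mem _ h₁ h₂

/-- **Complete Nakayama.** -/
theorem complete_nakayama [IsAdicComplete I A] [IsHausdorff I N]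
    (hg : ∀ v : N, ∃ c : ι → A, v - ∑ i, c i • g i ∈ (I • ⊤ : Submodule A N)) (u : N) :
    ∃ c : ι → A, u = ∑ i, c i • g i := by
  classical
  choose! b hb hb' using nakayama_step I g hg
  -- the remainders
  let w : ℕ → N := fun j => Nat.rec u (fun j w => w - ∑ i, b j w i • g i) j
  have hw0 : w 0 = u := rfl
  have hws : ∀ j, w (j + 1) = w j - ∑ i, b j (w j) i • g i := fun j => rfl
  have hwm : ∀ j, w j ∈ (I ^ j • ⊤ : Submodule A N) := by
    intro j
    induction j with
    | zero => simp [hw0]
    | succ j ih =>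
      rw [hws]
      exact hb' j _ ih
  have hbm : ∀ j i, b j (w j) i ∈ I ^ j := fun j i => hb j _ (hwm j) i
  -- partial sums
  let a : ℕ → ι → A := fun J i => ∑ j ∈ Finset.range J, b j (w j) i
  have hrem : ∀ J, u - ∑ i, a J i • g i = w J := by
    intro J
    induction J with
    | zero => simp [a, hw0]
    | succ J ih =>
      have h2 : u - ∑ i, a (J + 1) i • g i =
          (u - ∑ i, a J i • g i) - ∑ i, b J (w J) i • g i := by
        simp only [a, Finset.sum_range_succ, add_smul, Finset.sum_add_distrib]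
        abel
      rw [h2, ih, hws]
  have hcauchy : ∀ i {m n : ℕ}, m ≤ n → a m i ≡ a n i [SMOD (I ^ m • ⊤ : Submodule A A)] := by
    intro i m n hmn
    rw [SModEq.sub_mem, smul_eq_mul, Ideal.mul_top]
    obtain ⟨c, rfl⟩ := Nat.exists_eq_add_of_le hmn
    have h1 : a m i - a (m + c) i = - ∑ j ∈ Finset.range c, b (m + j) (w (m + j)) i := by
      simp only [a, Finset.sum_range_add]
      ring
    rw [h1]
    refine Ideal.neg_mem_iff _ |>.2 (Ideal.sum_mem _ fun j _ => ?_)
    exact Ideal.pow_le_pow_right (Nat.le_add_right m j) (hbm (m + j) i)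
  choose L hL using fun i => IsPrecomplete.prec (I := I) inferInstance (hcauchy i)
  refine ⟨L, ?_⟩
  rw [← sub_eq_zero]
  apply IsHausdorff.haus (I := I) inferInstance
  intro J
  rw [SModEq.zero]
  have h1 : u - ∑ i, L i • g i = w J + ∑ i, (a J i - L i) • g i := by
    rw [← hrem J]
    simp only [sub_smul, Finset.sum_sub_distrib]
    abel
  rw [h1]
  refine Submodule.add_mem _ (hwm J) (Submodule.sum_mem _ fun i _ => ?_)
  have h2 := hL i J
  rw [SModEq.sub_mem, smul_eq_mul, Ideal.mul_top] at h2
  exact Submodule.smul_mem_smul h2 trivial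

end nakayama

section cohen

variable {R : Type u} [CommRing R] [IsLocalRing R] [IsNoetherianRing R]

/-- Finite generation modulo powers of the maximal ideal, over a coefficient field. -/
lemma exists_family (s : ResidueField R →+* R) (hs : ∀ x, residue R (s x) = x) (N : ℕ) :
    ∃ (ι : Type) (_ : Fintype ι) (g : ι → R), ∀ r : R, ∃ c : ι → ResidueField R,
      r - ∑ i, s (c i) * g i ∈ maximalIdeal R ^ N := by
  induction N with
  | zero =>
    exact ⟨Empty, inferInstance, fun _ => 0, fun r => ⟨fun _ => 0, by simp⟩⟩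
  | succ N ih =>
    obtain ⟨ι, _, g, hg⟩ := ih
    obtain ⟨l, z, hz⟩ := Submodule.fg_iff_exists_fin_generating_family.1
      (IsNoetherian.noetherian (maximalIdeal R ^ N))
    refine ⟨ι ⊕ Fin l, inferInstance, Sum.elim g z, fun r => ?_⟩
    obtain ⟨c, hc⟩ := hg r
    rw [← hz] at hc
    obtain ⟨e, he⟩ := (Submodule.mem_span_range_iff_exists_fun R).1 hc
    refine ⟨Sum.elim c (fun j => residue R (e j)), ?_⟩
    rw [Fintype.sum_sum_type]
    simp only [Sum.elim_inl, Sum.elim_inr]
    have h1 : r - (∑ i, s (c i) * g i + ∑ j, s (residue R (e j)) * z j) =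
        ∑ j, (e j - s (residue R (e j))) * z j := by
      rw [← sub_sub, ← he]
      simp only [sub_mul, Finset.sum_sub_distrib, smul_eq_mul]
    rw [h1]
    refine Ideal.sum_mem _ fun j _ => ?_
    rw [pow_succ']
    refine Ideal.mul_mem_mul ?_ ?_
    · rw [← residue_eq_zero_iff, map_sub, hs, sub_self]
    · rw [← hz]
      exact Submodule.subset_span ⟨j, rfl⟩

variable [IsDomain R] [IsAdicComplete (maximalIdeal R) R]

/-- **Cohen structure theorem** in the case at hand. -/
theorem exists_structure (hdim : ringKrullDim R = 3) (p : ℕ) [Fact p.Prime] [CharP R p]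
    (hfin : (frobenius R p).Finite) :
    ∃ Φ : PS3 (ResidueField R) →+* R, Function.Injective Φ ∧ Φ.Finite := by
  classical
  have hpp : p.Prime := Fact.out
  have hchar : CharP (ResidueField R) p := by
    rw [CharP.charP_iff_prime_eq_zero hpp]
    have h1 := congrArg (residue R) (CharP.cast_eq_zero R p)
    rwa [map_natCast, map_zero] at h1
  obtain ⟨s, hs⟩ := exists_coefficient_field p hfin
  set m := maximalIdeal R with hm
  -- parameters
  have hht : (m.height : WithBot ℕ∞) = 3 := by
    rw [hm, IsLocalRing.maximalIdeal_height_eq_ringKrullDim, hdim]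
  have hht' : m.height = 3 := by
    exact WithBot.coe_injective (by simpa using hht)
  obtain ⟨S, hS, hcard⟩ := Ideal.exists_finset_card_eq_height_of_isNoetherianRing m
  have hcard' : S.card = 3 := by
    rw [hht'] at hcard
    exact_mod_cast hcard
  let eS : S ≃ Fin 3 := S.equivFinOfCardEq hcard'
  let x : Fin 3 → R := fun i => (eS.symm i : R)
  have hrange : Set.range x = (S : Set R) := by
    ext y
    constructor
    · rintro ⟨i, rfl⟩
      exact (eS.symm i).2
    · intro hy
      exact ⟨eS ⟨y, hy⟩, by simp [x]⟩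
  have hspan : Ideal.span (Set.range x) = Ideal.span (S : Set R) := by rw [hrange]
  have hx : ∀ i, x i ∈ m := fun i => hS.1.2 (Ideal.subset_span (eS.symm i).2)
  -- the map
  let Φ : PS3 (ResidueField R) →+* R := phiHom m s x hx
  have hΦC : ∀ c, Φ (MvPowerSeries.C c) = s c := phiHom_C m s x hx
  have hΦX : ∀ i, Φ (MvPowerSeries.X i) = x i := phiHom_X m s x hx
  let I : Ideal (PS3 (ResidueField R)) := Ideal.span (Set.range MvPowerSeries.X)
  have hI : ∀ a ∈ I, Φ a ∈ m := by
    have h1 : I ≤ m.comap Φ := by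
      rw [Ideal.span_le]
      rintro _ ⟨i, rfl⟩
      change Φ (MvPowerSeries.X i) ∈ m
      rw [hΦX]
      exact hx i
    exact fun a ha => h1 ha
  have hIn : ∀ n, ∀ a ∈ I ^ n, Φ a ∈ m ^ n := by
    intro n a ha
    have h1 : Ideal.map Φ I ≤ m := Ideal.map_le_iff_le_comap.2 hI
    have h2 : Ideal.map Φ (I ^ n) ≤ m ^ n := by
      rw [Ideal.map_pow]
      exact Ideal.pow_right_mono h1 n
    exact h2 (Ideal.mem_map_of_mem _ ha)
  let _ : Algebra (PS3 (ResidueField R)) R := Φ.toAlgebra
  have hsmul : ∀ (a : PS3 (ResidueField R)) (r : R), a • r = Φ a * r := fun a r => rfl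
  have hhaus : IsHausdorff I R := by
    refine ⟨fun y hy => ?_⟩
    apply eq_zero_of_forall_pow_mem m
    intro n
    have h1 := hy n
    rw [SModEq.zero] at h1
    have h2 : (I ^ n • ⊤ : Submodule (PS3 (ResidueField R)) R) ≤
        (m ^ n).restrictScalars (PS3 (ResidueField R)) := by
      rw [Submodule.smul_le]
      intro a ha r _
      rw [hsmul]
      exact Ideal.mul_mem_right _ _ (hIn n a ha)
    exact h2 h1
  -- the parameters generate a primary ideal
  have hrad : m ≤ (Ideal.span (Set.range x)).radical := by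
    rw [Ideal.radical_eq_sInf]
    refine le_sInf ?_
    rintro Q ⟨hQ1, hQ2⟩
    rw [hspan] at hQ1
    exact hS.2 ⟨hQ2, hQ1⟩ (le_maximalIdeal hQ2.ne_top)
  obtain ⟨N, hN⟩ := Ideal.exists_pow_le_of_le_radical_of_fg hrad (IsNoetherian.noetherian m)
  obtain ⟨ι, _, g, hg⟩ := exists_family s hs N
  have hspanI : ∀ y ∈ Ideal.span (Set.range x), y ∈ (I • ⊤ : Submodule (PS3 (ResidueField R)) R) := by
    intro y hy
    refine Submodule.span_induction (p := fun y _ =>
      y ∈ (I • ⊤ : Submodule (PS3 (ResidueField R)) R)) ?_ ?_ ?_ ?_ hy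
    · rintro _ ⟨i, rfl⟩
      have h1 : x i = (MvPowerSeries.X i : PS3 (ResidueField R)) • (1 : R) := by
        rw [hsmul, hΦX, mul_one]
      rw [h1]
      exact Submodule.smul_mem_smul (Ideal.subset_span ⟨i, rfl⟩) trivial
    · exact Submodule.zero_mem _
    · intro a b _ _ ha hb
      exact Submodule.add_mem _ ha hb
    · intro r a _ ha
      have h1 : (r • a : R) ∈ (I • ⊤ : Submodule (PS3 (ResidueField R)) R) := by
        refine Submodule.smul_induction_on ha ?_ ?_
        · intro b hb c _
          have h2 : r • (b • c) = b • (r * c) := by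
            rw [hsmul, smul_eq_mul, hsmul]
            ring
          rw [h2]
          exact Submodule.smul_mem_smul hb trivial
        · intro u v hu hv
          rw [smul_add]
          exact Submodule.add_mem _ hu hv
      exact h1
  have hgen : ∀ v : R, ∃ c : ι → PS3 (ResidueField R),
      v - ∑ i, c i • g i ∈ (I • ⊤ : Submodule (PS3 (ResidueField R)) R) := by
    intro v
    obtain ⟨c, hc⟩ := hg v
    refine ⟨fun i => MvPowerSeries.C (c i), ?_⟩
    have h1 : v - ∑ i, (MvPowerSeries.C (c i) : PS3 (ResidueField R)) • g i =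
        v - ∑ i, s (c i) * g i := by
      congr 1
      refine Finset.sum_congr rfl fun i _ => ?_
      rw [hsmul, hΦC]
    rw [h1]
    exact hspanI _ (hN hc)
  have hsurj : Function.Surjective (Fintype.linearCombination (PS3 (ResidueField R)) g) := by
    intro u
    obtain ⟨c, hc⟩ := complete_nakayama I g hgen u
    exact ⟨c, by rw [Fintype.linearCombination_apply, ← hc]⟩
  have hfinΦ : Module.Finite (PS3 (ResidueField R)) R := Module.Finite.of_surjective _ hsurj
  -- injectivity
  have hinj : Function.Injective Φ := by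
    rw [injective_iff_map_eq_zero]
    intro r hr
    by_contra hr0
    let B := Φ.range
    let f : PS3 (ResidueField R) →+* B := Φ.rangeRestrict
    have hf : Function.Surjective f := Φ.rangeRestrict_surjective
    have hfr : f r = 0 := Subtype.ext hr
    have hdimA : ringKrullDim (PS3 (ResidueField R)) = 3 :=
      ringKrullDim_eq_three _ _ _ (maximalIdeal_PS3 _) (reg1 _) (reg2 _) (reg3 _)
    have h1 := ringKrullDim_succ_le_of_surjective f hf (mem_nonZeroDivisors_of_ne_zero hr0) hfr
    rw [hdimA] at h1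
    have h2 : ringKrullDim R = ringKrullDim B := by
      have h3 : Algebra.IsIntegral B R := by
        refine ⟨fun y => ?_⟩
        have h4 : IsIntegral (PS3 (ResidueField R)) y := Algebra.IsIntegral.isIntegral y
        obtain ⟨P, hP, hP'⟩ := h4
        refine ⟨P.map f, hP.map f, ?_⟩
        rw [Polynomial.eval₂_map]
        exact hP'
      have h4 : FaithfulSMul B R := (faithfulSMul_iff_algebraMap_injective B R).2
        Subtype.val_injective
      exact ringKrullDim_eq_of_integral
    rw [← h2, hdim] at h1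
    exact absurd h1 (by norm_num)
  exact ⟨Φ, hinj, RingHom.finite_algebraMap.2 hfinΦ⟩

end cohen

end Vale.Agent.Lib.P190
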