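import Vale.Agent.Lib.P190.CompleteL

/-!
Finiteness of the normalization: a Noetherian domain with finite Frobenius which is module-finite
over a normal Noetherian domain has module-finite normalization.
-/

set_option linter.unusedSectionVars false

universe u

open IsLocalRing

namespace Vale.Agent.Lib.P190

section finiteness

/-- Finiteness descends along an injective map. -/
lemma finite_of_comp_injective {A S C : Type*} [CommRing A] [CommRing S] [CommRing C]
    [IsNoetherianRing A] (g : A →+* S) (π : S →+* C) (hπ : Function.Injective π)
    (h : (π.comp g).Finite) : g.Finite := by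
  let _ : Algebra A S := g.toAlgebra
  let _ : Algebra A C := (π.comp g).toAlgebra
  have hC : Module.Finite A C := h
  let f : S →ₗ[A] C :=
    { toFun := π
      map_add' := map_add π
      map_smul' := fun a s => by
        change π (g a * s) = π (g a) * π s
        rw [map_mul] }
  exact Module.Finite.of_injective f hπ

/-- Iterates of a finite Frobenius are finite. -/
lemma iterateFrobenius_finite (R : Type*) [CommRing R] (p : ℕ) [Fact p.Prime] [CharP R p]
    (hfin : (frobenius R p).Finite) (e : ℕ) : (iterateFrobenius R p e).Finite := by
  induction e with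
  | zero =>
    have h1 : iterateFrobenius R p 0 = RingHom.id R := by
      ext x
      simp
    rw [h1]
    exact RingHom.Finite.id R
  | succ e ih =>
    have h1 : iterateFrobenius R p (e + 1) = (frobenius R p).comp (iterateFrobenius R p e) := by
      ext x
      simp only [iterateFrobenius_def, RingHom.comp_apply, frobenius_def, pow_succ, pow_mul]
    rw [h1]
    exact RingHom.Finite.comp hfin ih

/-- A module-finite extension of domains has a finite extension of fraction fields. -/
lemma finiteDimensional_of_finite (A R K₀ K : Type*) [CommRing A] [IsDomain A] [CommRing R]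
    [IsDomain R] [Algebra A R] [Module.Finite A R] [FaithfulSMul A R] [Field K₀] [Field K]
    [Algebra A K₀] [IsFractionRing A K₀] [Algebra R K] [IsFractionRing R K] [Algebra K₀ K]
    [Algebra A K] [IsScalarTower A K₀ K] [IsScalarTower A R K] : FiniteDimensional K₀ K := by
  classical
  obtain ⟨s, hs⟩ := (Module.Finite.fg_top : (⊤ : Submodule A R).FG)
  have key : ∀ y ∈ Submodule.span A (s : Set R),
      algebraMap R K y ∈ Submodule.span K₀ (algebraMap R K '' (s : Set R)) := by
    intro y hy
    induction hy using Submodule.span_induction with
    | mem x hx => exact Submodule.subset_span ⟨x, hx, rfl⟩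
    | zero => simp
    | add _ _ _ _ h₁ h₂ =>
      rw [map_add]
      exact Submodule.add_mem _ h₁ h₂
    | smul c x _ h =>
      have h1 : algebraMap R K (c • x) = (algebraMap A K₀ c) • algebraMap R K x := by
        rw [Algebra.smul_def, map_mul, Algebra.smul_def, ← IsScalarTower.algebraMap_apply A R K,
          IsScalarTower.algebraMap_apply A K₀ K]
      rw [h1]
      exact Submodule.smul_mem _ _ h
  have hspan : Submodule.span K₀ (algebraMap R K '' (s : Set R)) = ⊤ := by
    rw [eq_top_iff]
    intro x _
    obtain ⟨r, d, hd, rfl⟩ := IsFractionRing.div_surjective (A := R) x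
    have hd0 : d ≠ 0 := nonZeroDivisors.ne_zero hd
    have h1 := Ideal.comap_ne_bot_of_integral_mem (R := A) (I := Ideal.span {d}) hd0
      (Ideal.mem_span_singleton_self d) (Algebra.IsIntegral.isIntegral d)
    obtain ⟨a, ha, ha0⟩ := Submodule.exists_mem_ne_zero_of_ne_bot h1
    rw [Ideal.mem_comap, Ideal.mem_span_singleton] at ha
    obtain ⟨d', hd'⟩ := ha
    have h2 : r * d' ∈ Submodule.span A (s : Set R) := by
      rw [hs]
      trivial
    have h3 := key _ h2
    have hinj : Function.Injective (algebraMap R K) := IsFractionRing.injective R K
    have hA : algebraMap K₀ K (algebraMap A K₀ a) = algebraMap R K d * algebraMap R K d' := by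
      rw [← IsScalarTower.algebraMap_apply A K₀ K, IsScalarTower.algebraMap_apply A R K, hd', map_mul]
    have hiA : algebraMap R K (algebraMap A R a) ≠ 0 := by
      rw [Ne, map_eq_zero_iff _ hinj, map_eq_zero_iff _ (FaithfulSMul.algebraMap_injective A R)]
      exact ha0
    have hd1 : algebraMap R K d ≠ 0 := by
      rw [Ne, map_eq_zero_iff _ hinj]
      exact hd0
    have hd2 : algebraMap R K d' ≠ 0 := by
      intro h
      rw [hd', map_mul, h, mul_zero] at hiA
      exact hiA rfl
    have h4 : algebraMap R K r / algebraMap R K d =
        (algebraMap A K₀ a)⁻¹ • algebraMap R K (r * d') := by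
      rw [Algebra.smul_def, map_inv₀, hA, map_mul]
      field_simp
    rw [h4]
    exact Submodule.smul_mem _ _ h3
  exact Module.finite_def.2 ⟨(s.image (algebraMap R K)), by rw [Finset.coe_image, hspan]⟩

/-- **Finiteness of the normalization.** -/
theorem finite_integralClosure (A R K : Type u) [CommRing A] [IsDomain A] [IsNoetherianRing A]
    [IsIntegrallyClosed A] [CommRing R] [IsDomain R] [Algebra A R] [Module.Finite A R]
    [FaithfulSMul A R] [Field K] [Algebra R K] [IsFractionRing R K] [Algebra A K]
    [IsScalarTower A R K] (p : ℕ) [Fact p.Prime] [CharP R p] (hfin : (frobenius R p).Finite) :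
    Module.Finite R (integralClosure R K) := by
  classical
  have hιA : Function.Injective (algebraMap A R) := FaithfulSMul.algebraMap_injective A R
  have hιR : Function.Injective (algebraMap R K) := IsFractionRing.injective R K
  have hinjAK : Function.Injective (algebraMap A K) := by
    rw [IsScalarTower.algebraMap_eq A R K]
    exact hιR.comp hιA
  have : FaithfulSMul A K := (faithfulSMul_iff_algebraMap_injective A K).2 hinjAK
  let K₀ := FractionRing A
  let _ : Algebra K₀ K := FractionRing.liftAlgebra A K
  have : IsScalarTower A K₀ K := FractionRing.isScalarTower_liftAlgebra A K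
  have : FiniteDimensional K₀ K := finiteDimensional_of_finite A R K₀ K
  have : CharP K p := charP_of_injective_algebraMap hιR p
  have : CharP A p := (RingHom.charP_iff (algebraMap A R) hιA p).2 inferInstance
  have : CharP K₀ p := charP_of_injective_algebraMap (IsFractionRing.injective A K₀) p
  let L := separableClosure K₀ K
  have : CharP L p := charP_of_injective_algebraMap (algebraMap K₀ L).injective p
  have hpp : p.Prime := Fact.out
  have : ExpChar L p := ExpChar.prime hpp
  obtain ⟨e, he⟩ := (IsPurelyInseparable.hasExponent_iff' L K p).1 inferInstance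
  let C := integralClosure A L
  have hC : IsNoetherian A C := IsIntegralClosure.isNoetherian A K₀ L C
  have hCf : Module.Finite A C := inferInstance
  let S := integralClosure R K
  let π₀ : S →+* K := (iterateFrobenius K p e).comp (algebraMap S K)
  have hπ₀ : ∀ s, π₀ s = (s : K) ^ p ^ e := fun s => rfl
  have hmem : ∀ s, π₀ s ∈ L := by
    intro s
    obtain ⟨l, hl⟩ := he (s : K)
    rw [hπ₀, ← hl]
    exact l.2
  let π₁ : S →+* L := π₀.codRestrict L hmem
  have hπ₁ : ∀ s, ((π₁ s : L) : K) = (s : K) ^ p ^ e := fun s => rfl
  have : Algebra.IsIntegral A R := inferInstance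
  have hint : ∀ s, π₁ s ∈ C := by
    intro s
    have h1 : IsIntegral R (s : K) := s.2
    have h2 : IsIntegral A (s : K) := isIntegral_trans _ h1
    have h3 : IsIntegral A ((π₁ s : L) : K) := by
      rw [hπ₁]
      exact h2.pow _
    exact (isIntegral_algHom_iff (IntermediateField.val L |>.restrictScalars A)
      Subtype.val_injective).1 h3
  let π : S →+* C := π₁.codRestrict C hint
  have hπ : ∀ s, (((π s : C) : L) : K) = (s : K) ^ p ^ e := fun s => rfl
  have hπinj : Function.Injective π := by
    intro s t hst
    have h1 : (s : K) ^ p ^ e = (t : K) ^ p ^ e := by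
      rw [← hπ, ← hπ, hst]
    have h2 := (iterateFrobenius K p e).injective (a₁ := (s : K)) (a₂ := (t : K)) (by
      simpa [iterateFrobenius_def] using h1)
    exact Subtype.ext h2
  -- the power map on A is finite
  have hψ : (iterateFrobenius A p e).Finite := by
    apply finite_of_comp_injective (iterateFrobenius A p e) (algebraMap A R) hιA
    have h1 : (algebraMap A R).comp (iterateFrobenius A p e) =
        (iterateFrobenius R p e).comp (algebraMap A R) := by
      ext x
      simp [iterateFrobenius_def]
    rw [h1]
    exact RingHom.Finite.comp (iterateFrobenius_finite R p hfin e)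
      (RingHom.finite_algebraMap.2 inferInstance)
  -- the composite
  let g : A →+* S := (algebraMap R S).comp (algebraMap A R)
  have hg : g.Finite := by
    apply finite_of_comp_injective g π hπinj
    have h1 : π.comp g = (algebraMap A C).comp (iterateFrobenius A p e) := by
      ext x
      change (((π (g x) : C) : L) : K) = _
      rw [hπ]
      have h2 : ((g x : S) : K) = algebraMap A K x := (IsScalarTower.algebraMap_apply A R K x).symm
      have h3 : ∀ y : A, (((algebraMap A C y : C) : L) : K) = algebraMap A K y := fun y => rfl
      simp only [RingHom.comp_apply]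
      rw [h2, h3, iterateFrobenius_def, map_pow]
    rw [h1]
    exact RingHom.Finite.comp (RingHom.finite_algebraMap.2 hCf) hψ
  exact RingHom.finite_algebraMap.1 (RingHom.Finite.of_comp_finite hg)

end finiteness

end Vale.Agent.Lib.P190
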