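import Mathlib

/-!
Complete integral closure: stability under formal power series, hence power series rings over fields
are integrally closed.
-/

set_option linter.unusedSectionVars false

universe u

open PowerSeries

namespace Vale.Agent.Lib.P190

/-- Complete integral closure, in terms of divisibility. -/
def CIC (B : Type*) [CommRing B] : Prop :=
  ∀ u v d : B, v ≠ 0 → d ≠ 0 → (∀ n : ℕ, v ^ n ∣ d * u ^ n) → v ∣ u

section fieldCase

lemma cic_of_isField {B : Type*} [CommRing B] (h : IsField B) : CIC B := by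
  intro u v d hv _ _
  obtain ⟨w, hw⟩ := h.mul_inv_cancel hv
  exact ⟨w * u, by linear_combination (-u) * hw⟩

lemma CIC.of_ringEquiv {B C : Type*} [CommRing B] [CommRing C] (e : B ≃+* C) (h : CIC B) :
    CIC C := by
  intro u v d hv hd hn
  have h1 : e.symm v ∣ e.symm u := h _ _ (e.symm d)
    (by simpa using hv) (by simpa using hd) (fun n => by
      have := map_dvd e.symm (hn n)
      simpa [map_mul, map_pow] using this)
  have := map_dvd e h1
  simpa using this

end fieldCase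

section integrallyClosed

variable {B : Type u} [CommRing B] [IsDomain B]

theorem isIntegrallyClosed_of_cic (h : CIC B) : IsIntegrallyClosed B := by
  rw [isIntegrallyClosed_iff (FractionRing B)]
  intro x hx
  classical
  let K := FractionRing B
  obtain ⟨u, v, hv, rfl⟩ := IsFractionRing.div_surjective (A := B) x
  have hv0 : v ≠ 0 := nonZeroDivisors.ne_zero hv
  have hvK : algebraMap B K v ≠ 0 := by
    simpa using (IsFractionRing.injective B K).ne hv0
  set x : K := algebraMap B K u / algebraMap B K v with hxdef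
  obtain ⟨G, hG⟩ := IsIntegral.fg_adjoin_singleton hx
  obtain ⟨d, hd⟩ := IsLocalization.exist_integer_multiples_of_finset (nonZeroDivisors B) G
  have hd0 : (d : B) ≠ 0 := nonZeroDivisors.ne_zero d.2
  have hall : ∀ y ∈ Algebra.adjoin B {x}, IsLocalization.IsInteger B ((d : B) • y) := by
    intro y hy
    have hy' : y ∈ Submodule.span B (G : Set K) := by
      rw [hG]
      exact hy
    refine Submodule.span_induction (p := fun y _ => IsLocalization.IsInteger B ((d : B) • y))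
      ?_ ?_ ?_ ?_ hy'
    · intro g hg
      exact hd g hg
    · simpa using IsLocalization.isInteger_zero
    · intro a b _ _ ha hb
      rw [smul_add]
      exact IsLocalization.isInteger_add ha hb
    · intro c a _ ha
      rw [smul_comm]
      exact IsLocalization.isInteger_smul ha
  have hdiv : ∀ n : ℕ, v ^ n ∣ d * u ^ n := by
    intro n
    have h1 : x ^ n ∈ Algebra.adjoin B {x} :=
      Subalgebra.pow_mem _ (Algebra.self_mem_adjoin_singleton B x) n
    obtain ⟨c, hc⟩ := hall _ h1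
    refine ⟨c, ?_⟩
    apply IsFractionRing.injective B K
    rw [map_mul, map_mul, map_pow, map_pow, hc, Algebra.smul_def, hxdef, div_pow, mul_left_comm,
      mul_div_cancel₀ _ (pow_ne_zero n hvK)]
  obtain ⟨w, rfl⟩ := h u v d hv0 hd0 hdiv
  refine ⟨w, ?_⟩
  rw [hxdef, map_mul, mul_div_cancel_left₀ _ hvK]

end integrallyClosed

section powerSeries

variable {B : Type*} [CommRing B] [IsDomain B]

lemma almost_sub {R : Type*} [CommRing R] (u v d Q : R) (h : ∀ n : ℕ, v ^ n ∣ d * u ^ n) (n : ℕ) :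
    v ^ n ∣ d * (u - v * Q) ^ n := by
  have e : u - v * Q = u + v * (-Q) := by ring
  rw [e, add_pow, Finset.mul_sum]
  refine Finset.dvd_sum fun i hi => ?_
  have hi' : i ≤ n := Nat.lt_succ_iff.1 (Finset.mem_range.1 hi)
  obtain ⟨c, hc⟩ := h i
  refine ⟨c * (-Q) ^ (n - i) * (n.choose i : R), ?_⟩
  have h1 : v ^ n = v ^ i * v ^ (n - i) := by
    rw [← pow_add, Nat.add_sub_cancel' hi']
  rw [h1, mul_pow v (-Q)]
  linear_combination (v ^ (n - i) * (-Q) ^ (n - i) * (n.choose i : R)) * hc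

lemma dvd_of_X_pow_mul {R : Type*} [CommRing R] [IsDomain R] {π a b : R} (hπ : Prime π)
    (ha : ¬ π ∣ a) (e : ℕ) (h : a ∣ π ^ e * b) : a ∣ b := by
  obtain ⟨c, hc⟩ := h
  have h1 : π ^ e ∣ a * c := ⟨b, hc.symm⟩
  have h2 : π ^ e ∣ c := hπ.pow_dvd_of_dvd_mul_left e ha h1
  obtain ⟨c', rfl⟩ := h2
  refine ⟨c', ?_⟩
  have h3 : π ^ e ≠ 0 := pow_ne_zero _ hπ.ne_zero
  apply mul_left_cancel₀ h3
  linear_combination hc

/-- The main step: constant terms nonzero. -/
lemma dvd_of_constantCoeff_ne_zero (hB : CIC B) (u v d : B⟦X⟧)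
    (hv : constantCoeff v ≠ 0) (hd : constantCoeff d ≠ 0) (h : ∀ n : ℕ, v ^ n ∣ d * u ^ n) :
    v ∣ u := by
  have hXv : ¬ (X : B⟦X⟧) ∣ v := by
    rwa [X_dvd_iff]
  have step : ∀ (m : ℕ) (Q : B⟦X⟧), (X : B⟦X⟧) ^ m ∣ u - v * Q →
      ∃ Q' : B⟦X⟧, (X : B⟦X⟧) ^ (m + 1) ∣ u - v * Q' ∧ (X : B⟦X⟧) ^ m ∣ Q' - Q := by
    intro m Q hQ
    obtain ⟨w, hw⟩ := hQ
    have h1 : ∀ n : ℕ, v ^ n ∣ d * w ^ n := by
      intro n
      have h2 := almost_sub u v d Q h n
      rw [hw, mul_pow, ← pow_mul] at h2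
      have h3 : v ^ n ∣ X ^ (m * n) * (d * w ^ n) := by
        have : d * (X ^ (m * n) * w ^ n) = X ^ (m * n) * (d * w ^ n) := by ring
        rwa [this] at h2
      refine dvd_of_X_pow_mul X_prime ?_ _ h3
      intro h4
      rcases n with _ | n
      · simpa using X_prime.not_dvd_one (by simpa using h4)
      · exact hXv (X_prime.dvd_of_dvd_pow h4)
    have h2 : constantCoeff v ∣ constantCoeff w := by
      refine hB _ _ (constantCoeff d) hv hd (fun n => ?_)
      have := map_dvd (constantCoeff (R := B)) (h1 n)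
      simpa [map_mul, map_pow] using this
    obtain ⟨c, hc⟩ := h2
    refine ⟨Q + C c * X ^ m, ?_, ⟨C c, by ring⟩⟩
    have h3 : (X : B⟦X⟧) ∣ w - C c * v := by
      rw [X_dvd_iff, map_sub, map_mul, constantCoeff_C, hc]
      ring
    obtain ⟨z, hz⟩ := h3
    refine ⟨z, ?_⟩
    have h4 : u = v * Q + X ^ m * w := by
      rw [← hw]
      ring
    rw [h4]
    have h5 : w = C c * v + X * z := by
      rw [← hz]
      ring
    rw [h5]
    ring
  choose! next hnext hnext' using step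
  -- the sequence of approximations
  let seq : (m : ℕ) → {Q : B⟦X⟧ // (X : B⟦X⟧) ^ m ∣ u - v * Q} := fun m =>
    Nat.rec ⟨0, by simp⟩ (fun m Q => ⟨next m Q.1, hnext m Q.1 Q.2⟩) m
  have hseq : ∀ m, (X : B⟦X⟧) ^ m ∣ (seq (m + 1)).1 - (seq m).1 := fun m =>
    hnext' m (seq m).1 (seq m).2
  have hseq' : ∀ m k, (X : B⟦X⟧) ^ m ∣ (seq (m + k)).1 - (seq m).1 := by
    intro m k
    induction k with
    | zero => simp
    | succ k ih =>
      have h1 := hseq (m + k)
      have h2 : (X : B⟦X⟧) ^ m ∣ (seq (m + k + 1)).1 - (seq (m + k)).1 :=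
        (pow_dvd_pow _ (Nat.le_add_right m k)).trans h1
      have h3 := dvd_add h2 ih
      have h4 : (seq (m + k + 1)).1 - (seq (m + k)).1 + ((seq (m + k)).1 - (seq m).1) =
          (seq (m + (k + 1))).1 - (seq m).1 := by
        rw [← add_assoc]
        ring
      rwa [h4] at h3
  let q : B⟦X⟧ := PowerSeries.mk fun j => coeff j (seq (j + 1)).1
  have hq : ∀ m, (X : B⟦X⟧) ^ m ∣ q - (seq m).1 := by
    intro m
    rw [X_pow_dvd_iff]
    intro j hj
    rw [map_sub, sub_eq_zero, coeff_mk]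
    obtain ⟨k, hk⟩ := Nat.exists_eq_add_of_le (Nat.succ_le_of_lt hj)
    have h1 := hseq' (j + 1) k
    rw [X_pow_dvd_iff] at h1
    have h2 := h1 j (Nat.lt_succ_self j)
    rw [map_sub, sub_eq_zero] at h2
    rw [hk]
    exact h2.symm
  refine ⟨q, ?_⟩
  rw [← sub_eq_zero]
  ext j
  have h1 := hq (j + 1)
  have h2 := (seq (j + 1)).2
  have h3 : u - v * q = (u - v * (seq (j + 1)).1) - v * (q - (seq (j + 1)).1) := by ring
  have h4 : (X : B⟦X⟧) ^ (j + 1) ∣ u - v * q := by
    rw [h3]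
    exact dvd_sub h2 (Dvd.dvd.mul_left h1 v)
  rw [X_pow_dvd_iff] at h4
  simpa using h4 j (Nat.lt_succ_self j)

/-- **Power series over a completely integrally closed domain.** -/
theorem cic_powerSeries (hB : CIC B) : CIC B⟦X⟧ := by
  intro u v d hv hd h
  by_cases hu : u = 0
  · rw [hu]
    exact dvd_zero _
  -- write everything as a power of `X` times a series with nonzero constant term
  have hfac : ∀ f : B⟦X⟧, f ≠ 0 → ∃ (s : ℕ) (f₀ : B⟦X⟧), f = X ^ s * f₀ ∧ constantCoeff f₀ ≠ 0 := by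
    intro f hf
    refine ⟨f.order.toNat, f.divXPowOrder, X_pow_order_mul_divXPowOrder.symm, ?_⟩
    rw [Ne, constantCoeff_divXPowOrder_eq_zero_iff]
    exact hf
  obtain ⟨s, v₀, rfl, hv₀⟩ := hfac v hv
  obtain ⟨e, d₀, rfl, hd₀⟩ := hfac d hd
  obtain ⟨r, u₀, rfl, hu₀⟩ := hfac u hu
  have hXv : ¬ (X : B⟦X⟧) ∣ v₀ := by rwa [X_dvd_iff]
  have hXd : ¬ (X : B⟦X⟧) ∣ d₀ := by rwa [X_dvd_iff]
  have hXu : ¬ (X : B⟦X⟧) ∣ u₀ := by rwa [X_dvd_iff]
  have hX : (X : B⟦X⟧) ≠ 0 := X_prime.ne_zero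
  have hsr : s ≤ r := by
    by_contra hlt
    push Not at hlt
    have h1 := h (e + 1)
    rw [mul_pow, mul_pow, ← pow_mul, ← pow_mul] at h1
    have h2 : (X : B⟦X⟧) ^ (e + r * (e + 1) + 1) ∣ X ^ (s * (e + 1)) * v₀ ^ (e + 1) := by
      refine Dvd.dvd.mul_right (pow_dvd_pow _ ?_) _
      nlinarith
    have h3 := h2.trans h1
    have h4 : X ^ e * d₀ * (X ^ (r * (e + 1)) * u₀ ^ (e + 1)) =
        X ^ (e + r * (e + 1)) * (d₀ * u₀ ^ (e + 1)) := by
      ring
    rw [h4, pow_succ, mul_dvd_mul_iff_left (pow_ne_zero _ hX)] at h3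
    rcases X_prime.dvd_or_dvd h3 with h5 | h5
    · exact hXd h5
    · exact hXu (X_prime.dvd_of_dvd_pow h5)
  obtain ⟨t, rfl⟩ := Nat.exists_eq_add_of_le hsr
  set u₁ := X ^ t * u₀ with hu₁
  have hmain : v₀ ∣ u₁ := by
    refine dvd_of_constantCoeff_ne_zero hB u₁ v₀ d₀ hv₀ hd₀ (fun n => ?_)
    have h1 := h n
    rw [mul_pow, pow_add, mul_assoc (X ^ s) (X ^ t), mul_pow, ← pow_mul] at h1
    have h2 : X ^ e * d₀ * (X ^ (s * n) * (X ^ t * u₀) ^ n) =
        X ^ (s * n) * (X ^ e * (d₀ * u₁ ^ n)) := by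
      rw [hu₁]
      ring
    rw [h2, mul_dvd_mul_iff_left (pow_ne_zero _ hX)] at h1
    refine dvd_of_X_pow_mul X_prime ?_ e h1
    intro h3
    rcases n with _ | n
    · simpa using X_prime.not_dvd_one (by simpa using h3)
    · exact hXv (X_prime.dvd_of_dvd_pow h3)
  obtain ⟨w, hw⟩ := hmain
  refine ⟨w, ?_⟩
  rw [pow_add, mul_assoc, ← hu₁, hw]
  ring

/-- Power series rings in finitely many variables over a field are completely integrally closed. -/
theorem cic_mvPowerSeries (k : Type*) [Field k] (n : ℕ) : CIC (MvPowerSeries (Fin n) k) := by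
  induction n with
  | zero =>
    refine CIC.of_ringEquiv (MvPowerSeries.isEmptyEquiv (Fin 0) k).toRingEquiv.symm ?_
    exact cic_of_isField (Field.toIsField k)
  | succ n ih =>
    have : IsDomain (MvPowerSeries (Fin n) k) := NoZeroDivisors.to_isDomain _
    exact CIC.of_ringEquiv (MvPowerSeries.finSuccEquiv k n).toRingEquiv.symm (cic_powerSeries ih)

end powerSeries

end Vale.Agent.Lib.P190
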