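import Vale.Agent.Lib.P190.CompleteZ

/-!
Small Cohen-Macaulay modules for complete local F-finite F-split rings of dimension three, not assumed
to be domains: pass to a minimal prime of maximal dimension.
-/

set_option linter.unusedSectionVars false

universe u

open IsLocalRing RingTheory.Sequence

namespace Vale.Agent.Lib.P190

section ring

variable {R : Type u} [CommRing R] (p : ℕ) [Fact p.Prime] [CharP R p]
  (φ : R →+ R) (hφ : ∀ r s, φ (r ^ p * s) = r * φ s) (hφ1 : φ 1 = 1)

include hφ hφ1 in
/-- F-split rings are reduced. -/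
lemma isReduced_of_split : IsReduced R := by
  have hpp : p.Prime := Fact.out
  have h1 : ∀ x : R, x ^ p = 0 → x = 0 := by
    intro x hx
    have h2 := hφ x 1
    rw [hx, zero_mul, map_zero, hφ1, mul_one] at h2
    exact h2.symm
  have h2 : ∀ (k : ℕ) (x : R), x ^ (p ^ k) = 0 → x = 0 := by
    intro k
    induction k with
    | zero =>
      intro x hx
      simpa using hx
    | succ k ih =>
      intro x hx
      apply h1
      apply ih
      rw [← pow_mul, ← pow_succ']
      exact hx
  refine ⟨fun x hx => ?_⟩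
  obtain ⟨n, hn⟩ := hx
  apply h2 n
  have hle : n ≤ p ^ n := (Nat.lt_pow_self hpp.one_lt).le
  exact pow_eq_zero_of_le hle hn

/-- Elements of minimal primes are locally nilpotent. -/
lemma exists_mul_pow_eq_zero (P : Ideal R) (hP : P ∈ (⊥ : Ideal R).minimalPrimes)
    (x : R) (hx : x ∈ P) : ∃ y, y ∉ P ∧ ∃ n : ℕ, y * x ^ n = 0 := by
  have hprime : P.IsPrime := hP.1.1
  let S : Submonoid R := P.primeCompl ⊔ Submonoid.powers x
  by_cases h0 : (0 : R) ∈ S
  · obtain ⟨y, hy, z, ⟨n, rfl⟩, hyz⟩ := Submonoid.mem_sup.1 h0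
    exact ⟨y, hy, n, hyz⟩
  · exfalso
    have hdisj : Disjoint ((⊥ : Ideal R) : Set R) (S : Set R) := by
      rw [Set.disjoint_left]
      intro a ha ha'
      have ha0 : a = 0 := ha
      rw [ha0] at ha'
      exact h0 ha'
    obtain ⟨Q, hQ, hQ1, hQ2⟩ := Ideal.exists_le_prime_disjoint (⊥ : Ideal R) S hdisj
    have hQP : Q ≤ P := by
      intro z hz
      by_contra hzP
      have h1 : z ∈ S := (le_sup_left : P.primeCompl ≤ S) hzP
      exact Set.disjoint_left.1 hQ2 hz h1
    have hPQ : P ≤ Q := hP.2 ⟨hQ, hQ1⟩ hQP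
    have hxS : x ∈ S := (le_sup_right : Submonoid.powers x ≤ S) (Submonoid.mem_powers x)
    exact Set.disjoint_left.1 hQ2 (hPQ hx) hxS

include hφ hφ1 in
/-- The splitting preserves minimal primes. -/
lemma split_mem_of_mem_minimalPrimes (P : Ideal R) (hP : P ∈ (⊥ : Ideal R).minimalPrimes)
    (x : R) (hx : x ∈ P) : φ x ∈ P := by
  have hprime : P.IsPrime := hP.1.1
  have hred : IsReduced R := isReduced_of_split p φ hφ hφ1
  obtain ⟨y, hy, n, hn⟩ := exists_mul_pow_eq_zero P hP x hx
  have hyx : y * x = 0 := by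
    have h1 : IsNilpotent (y * x) := by
      refine ⟨n + 1, ?_⟩
      have h2 : (y * x) ^ (n + 1) = y ^ n * x * (y * x ^ n) := by ring
      rw [h2, hn, mul_zero]
    exact hred.eq_zero _ h1
  have h3 : y * φ x = 0 := by
    rw [← hφ y x]
    have hpp : p.Prime := Fact.out
    obtain ⟨c, hc⟩ := Nat.exists_eq_add_of_le hpp.one_le
    have h4 : y ^ p * x = y ^ c * (y * x) := by
      rw [hc, pow_add, pow_one]
      ring
    rw [h4, hyx, mul_zero, map_zero]
  have h5 : y * φ x ∈ P := by
    rw [h3]
    exact P.zero_mem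
  exact (hprime.mem_or_mem h5).resolve_left hy

end ring

section main

/-- **Complete local F-finite F-split rings of dimension three have small Cohen-Macaulay modules.** -/
theorem exists_small_CM_complete3_ring {R : Type u} [CommRing R] [IsLocalRing R]
    [IsNoetherianRing R] [IsAdicComplete (maximalIdeal R) R] (hdim : ringKrullDim R = 3)
    (p : ℕ) [Fact p.Prime] [CharP R p] (hfin : (frobenius R p).Finite)
    (φ : R →+ R) (hφ : ∀ r s, φ (r ^ p * s) = r * φ s) (hφ1 : φ 1 = 1) :
    ∃ (M : Type u) (_ : AddCommGroup M) (_ : Module R M) (_ : Module.Finite R M)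
      (_ : Nontrivial M) (rs : List R), IsRegular M rs ∧ (∀ x ∈ rs, x ∈ maximalIdeal R) ∧
        (rs.length : WithBot ℕ∞) = ringKrullDim R := by
  classical
  have hpp : p.Prime := Fact.out
  -- a minimal prime of maximal dimension
  have hle : ((3 : ℕ) : WithBot ℕ∞) ≤ Order.krullDim (PrimeSpectrum R) := by
    change ((3 : ℕ) : WithBot ℕ∞) ≤ ringKrullDim R
    rw [hdim]
    rfl
  obtain ⟨l, hl⟩ := (Order.le_krullDim_iff).1 hle
  obtain ⟨P, hP, hPl⟩ := Ideal.exists_minimalPrimes_le (I := (⊥ : Ideal R)) (J := (l.head).asIdeal)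
    bot_le
  have hprime : P.IsPrime := hP.1.1
  let B := R ⧸ P
  have hB3 : ringKrullDim B = 3 := by
    apply le_antisymm
    · rw [← hdim]
      exact ringKrullDim_quotient_le P
    · rw [ringKrullDim_quotient]
      have hmem : ∀ i, P ≤ (l i).asIdeal := by
        intro i
        have h1 : l.head ≤ l i := LTSeries.head_le l i
        exact hPl.trans h1
      let l' : LTSeries (PrimeSpectrum.zeroLocus (R := R) P) :=
        { length := l.length
          toFun := fun i => ⟨l i, hmem i⟩
          step := fun i => l.step i }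
      have h2 : ((l'.length : ℕ) : WithBot ℕ∞) ≤ _ := Order.LTSeries.length_le_krullDim l'
      have h3 : l'.length = 3 := hl
      rw [h3] at h2
      exact h2
  have hπ : Function.Surjective (Ideal.Quotient.mk P) := Ideal.Quotient.mk_surjective
  have hdomB : IsDomain B := Ideal.Quotient.isDomain P
  have hlocB : IsLocalRing B := IsLocalRing.of_surjective' (Ideal.Quotient.mk P) hπ
  -- the characteristic
  have hcharB : CharP B p := by
    rw [CharP.charP_iff_prime_eq_zero hpp]
    have h1 := congrArg (Ideal.Quotient.mk P) (CharP.cast_eq_zero R p)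
    rwa [map_natCast, map_zero] at h1
  -- completeness
  have hmap : (maximalIdeal R).map (algebraMap R B) = maximalIdeal B := by
    apply le_antisymm
    · rw [Ideal.map_le_iff_le_comap]
      intro r hr
      rw [Ideal.mem_comap, mem_maximalIdeal, mem_nonunits_iff]
      intro hu
      obtain ⟨t, ht⟩ := hu.exists_right_inv
      obtain ⟨t, rfl⟩ := hπ t
      have h1 : r * t - 1 ∈ P := by
        rw [← Ideal.Quotient.eq, map_mul, map_one]
        exact ht
      have h2 : r * t - 1 ∈ maximalIdeal R := le_maximalIdeal hprime.ne_top h1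
      have h3 : (1 : R) ∈ maximalIdeal R := by
        have h4 : (1 : R) = r * t - (r * t - 1) := by ring
        rw [h4]
        exact Ideal.sub_mem _ (Ideal.mul_mem_right _ _ hr) h2
      exact (Ideal.ne_top_iff_one _).1 (maximalIdeal.isMaximal R).ne_top h3
    · intro y hy
      obtain ⟨r, rfl⟩ := hπ y
      refine Ideal.mem_map_of_mem _ ?_
      rw [mem_maximalIdeal, mem_nonunits_iff] at hy ⊢
      exact fun hu => hy (hu.map _)
  have hcompB : IsAdicComplete (maximalIdeal B) B := by
    rw [← hmap]
    have hPc : IsPrecomplete (maximalIdeal R) B := isPrecomplete_of_finite _ B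
    have hAc : IsAdicComplete (maximalIdeal R) B := {}
    exact (IsAdicComplete.map_algebraMap_iff _ _).2 hAc
  -- finiteness of Frobenius
  have hfinB : (frobenius B p).Finite := by
    apply RingHom.Finite.of_comp_finite (f := Ideal.Quotient.mk P)
    have h1 : (frobenius B p).comp (Ideal.Quotient.mk P) =
        (Ideal.Quotient.mk P).comp (frobenius R p) := by
      ext x
      simp [frobenius_def]
    rw [h1]
    exact RingHom.Finite.comp (RingHom.Finite.of_surjective _ hπ) hfin
  -- the splitting
  have hφP := split_mem_of_mem_minimalPrimes p φ hφ hφ1 P hP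
  let σ : B → R := Function.surjInv hπ
  have hσ : ∀ y, Ideal.Quotient.mk P (σ y) = y := Function.surjInv_eq hπ
  have hwell : ∀ r : R, Ideal.Quotient.mk P (φ (σ (Ideal.Quotient.mk P r))) =
      Ideal.Quotient.mk P (φ r) := by
    intro r
    rw [Ideal.Quotient.eq, ← map_sub]
    apply hφP
    rw [← Ideal.Quotient.eq]
    exact hσ _
  let φB : B →+ B := AddMonoidHom.mk' (fun y => Ideal.Quotient.mk P (φ (σ y))) (by
    intro a b
    obtain ⟨a, rfl⟩ := hπ a
    obtain ⟨b, rfl⟩ := hπ b
    rw [← map_add, hwell, hwell, hwell, map_add, map_add])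
  have hφB : ∀ r : R, φB (Ideal.Quotient.mk P r) = Ideal.Quotient.mk P (φ r) := hwell
  have hφB1 : ∀ r s : B, φB (r ^ p * s) = r * φB s := by
    intro r s
    obtain ⟨r, rfl⟩ := hπ r
    obtain ⟨s, rfl⟩ := hπ s
    rw [← map_pow, ← map_mul, hφB, hφB, hφ, map_mul]
  have hφB2 : φB 1 = 1 := by
    rw [← map_one (Ideal.Quotient.mk P), hφB, hφ1]
  obtain ⟨M, i1, i2, i3, i4, rs, hrs, hrsm, hrsl⟩ :=
    exists_small_CM_complete3 hB3 p hfinB φB hφB1 hφB2
  -- transfer back
  let _ : Module R M := Module.compHom M (algebraMap R B)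
  have : IsScalarTower R B M := IsScalarTower.of_algebraMap_smul fun _ _ => rfl
  have hfinM : Module.Finite R M := Module.Finite.trans B M
  let rs' : List R := rs.map σ
  have hrs' : rs'.map (algebraMap R B) = rs := by
    simp only [rs', List.map_map]
    conv_rhs => rw [← List.map_id rs]
    apply List.map_congr_left
    intro y _
    exact hσ y
  have hw : IsWeaklyRegular M rs' := by
    rw [← isWeaklyRegular_map_algebraMap_iff B M rs', hrs']
    exact hrs.toIsWeaklyRegular
  have hmem : ∀ x ∈ rs', x ∈ maximalIdeal R := by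
    intro x hx
    obtain ⟨y, hy, rfl⟩ := List.mem_map.1 hx
    have h1 := hrsm y hy
    rw [mem_maximalIdeal, mem_nonunits_iff] at h1 ⊢
    intro hu
    apply h1
    have h2 := hu.map (Ideal.Quotient.mk P)
    rwa [hσ] at h2
  refine ⟨M, inferInstance, inferInstance, hfinM, i4, rs',
    IsRegular.of_isWeaklyRegular_of_mem_maximalIdeal _ hmem hw, hmem, ?_⟩
  rw [hdim, ← hB3, ← hrsl]
  simp [rs']

end main

end Vale.Agent.Lib.P190
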