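import Vale.Agent.Lib.P190.Domain1

/-!
Small Cohen-Macaulay modules for F-split domains of dimension three whose normalization is local and
module-finite.
-/

set_option linter.unusedSectionVars false

universe u

open IsLocalRing RingTheory.Sequence Matrix

namespace Vale.Agent.Lib.P190

section main

variable {A R S : Type u} [CommRing A] [IsDomain A] [IsLocalRing A] [IsNoetherianRing A]
  [IsIntegrallyClosed A] [CommRing R] [IsDomain R] [IsLocalRing R] [Algebra A R]
  [Module.Finite A R] [FaithfulSMul A R] [CommRing S] [IsDomain S] [IsLocalRing S]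
  [IsIntegrallyClosed S] [Algebra R S] [Module.Finite R S] [FaithfulSMul R S]

omit [IsDomain A] [IsNoetherianRing A] [IsIntegrallyClosed A] [IsDomain R] in
lemma algebraMap_mem_maximalIdeal' (a : A) (ha : a ∈ maximalIdeal A) :
    algebraMap A R a ∈ maximalIdeal R := by
  rw [mem_maximalIdeal, mem_nonunits_iff] at ha ⊢
  intro h3
  exact ha (isUnit_of_map_unit (algebraMap A R) a h3)

/-- **Small Cohen-Macaulay modules for F-split domains of dimension three.** -/
theorem exists_small_CM_domain3
    (hbir : ∀ s : S, ∃ r d : R, d ≠ 0 ∧ algebraMap R S d * s = algebraMap R S r)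
    (a₁ a₂ a₃ : A) (hreg : IsRegular A [a₁, a₂, a₃])
    (hm : maximalIdeal A = Ideal.span {a₁, a₂, a₃})
    (p : ℕ) [Fact p.Prime] [CharP R p] (hfin : (frobenius R p).Finite)
    (φ : R →+ R) (hφ : ∀ r s, φ (r ^ p * s) = r * φ s) (hφ1 : φ 1 = 1) :
    ∃ (M : Type u) (_ : AddCommGroup M) (_ : Module R M) (_ : Module.Finite R M)
      (_ : Nontrivial M) (rs : List R), IsRegular M rs ∧ (∀ x ∈ rs, x ∈ maximalIdeal R) ∧
        (rs.length : WithBot ℕ∞) = ringKrullDim R := by
  classical
  have hι : Function.Injective (algebraMap R S) := FaithfulSMul.algebraMap_injective R S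
  have : IsNoetherianRing R := IsNoetherianRing.of_finite A R
  have : IsNoetherianRing S := IsNoetherianRing.of_finite R S
  let _ : Algebra A S := ((algebraMap R S).comp (algebraMap A R)).toAlgebra
  have : IsScalarTower A R S := IsScalarTower.of_algebraMap_eq' rfl
  have : Module.Finite A S := Module.Finite.trans R S
  have : FaithfulSMul A S := (faithfulSMul_iff_algebraMap_injective A S).2 (by
    rw [IsScalarTower.algebraMap_eq A R S]
    exact hι.comp (FaithfulSMul.algebraMap_injective A R))
  have : CharP S p := charP_of_injective_algebraMap hι p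
  have hfinS : (frobenius S p).Finite := by
    apply RingHom.Finite.of_comp_finite (f := algebraMap R S)
    have h1 : (frobenius S p).comp (algebraMap R S) = (algebraMap R S).comp (frobenius R p) := by
      ext x
      simp [frobenius_def]
    rw [h1]
    exact RingHom.Finite.comp (RingHom.finite_algebraMap.2 inferInstance) hfin
  obtain ⟨c, hc, hcc⟩ := exists_conductor_element hbir
  have hp1 : 1 ≤ p := (Fact.out : p.Prime).one_le
  obtain ⟨φ', hφ', hφ1'⟩ := exists_extended_split (S := S) p hp1 φ hφ hφ1 c hc hcc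
  obtain ⟨M, i1, i2, i3, i4, t, ht, hM⟩ :=
    exists_small_CM_normal3' (A := A) (R := S) a₁ a₂ a₃ hreg hm p hfinS φ' hφ' hφ1'
  let _ : Module R M := Module.compHom M (algebraMap R S)
  have : IsScalarTower R S M := IsScalarTower.of_algebraMap_smul fun _ _ => rfl
  have hfinM : Module.Finite R M := Module.Finite.trans S M
  let rs : List R := [algebraMap A R a₁, algebraMap A R a₂, algebraMap A R a₃].map (· ^ t)
  have hrs : rs.map (algebraMap R S) =
      [algebraMap A S a₁, algebraMap A S a₂, algebraMap A S a₃].map (· ^ t) := by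
    simp [rs, IsScalarTower.algebraMap_apply A R S]
  have hw : IsWeaklyRegular M rs := by
    rw [← isWeaklyRegular_map_algebraMap_iff S M rs, hrs]
    exact hM.toIsWeaklyRegular
  have hmem : ∀ x ∈ rs, x ∈ maximalIdeal R := by
    obtain ⟨hm1, hm2, hm3⟩ := mem_maximalIdeal_of_eq a₁ a₂ a₃ hm
    intro x hx
    obtain ⟨y, hy, rfl⟩ := List.mem_map.1 hx
    refine Ideal.pow_mem_of_mem _ ?_ _ (Nat.pos_of_ne_zero ht)
    simp only [List.mem_cons, List.not_mem_nil, or_false] at hy
    rcases hy with rfl | rfl | rfl
    · exact algebraMap_mem_maximalIdeal' _ hm1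
    · exact algebraMap_mem_maximalIdeal' _ hm2
    · exact algebraMap_mem_maximalIdeal' _ hm3
  refine ⟨M, inferInstance, inferInstance, hfinM, i4, rs,
    IsRegular.of_isWeaklyRegular_of_mem_maximalIdeal _ hmem hw, hmem, ?_⟩
  obtain ⟨h1, -, h2, h3⟩ := regular_elementwise a₁ a₂ a₃ hreg
  rw [ringKrullDim_eq_of_integral (A := A) (R := R), ringKrullDim_eq_three a₁ a₂ a₃ hm h1 h2 h3]
  rfl

end main

end Vale.Agent.Lib.P190
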