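import Vale.Agent.Lib.P190.CompleteH
import Vale.Agent.Lib.P190.Domain2

/-!
Small Cohen-Macaulay modules for complete local F-split F-finite domains of dimension three.
-/

set_option linter.unusedSectionVars false

universe u

open IsLocalRing RingTheory.Sequence

namespace Vale.Agent.Lib.P190

/-- **Complete local F-finite F-split domains of dimension three have small Cohen-Macaulay
modules.** -/
theorem exists_small_CM_complete3 {R : Type u} [CommRing R] [IsDomain R] [IsLocalRing R]
    [IsNoetherianRing R] [IsAdicComplete (maximalIdeal R) R] (hdim : ringKrullDim R = 3)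
    (p : ℕ) [Fact p.Prime] [CharP R p] (hfin : (frobenius R p).Finite)
    (φ : R →+ R) (hφ : ∀ r s, φ (r ^ p * s) = r * φ s) (hφ1 : φ 1 = 1) :
    ∃ (M : Type u) (_ : AddCommGroup M) (_ : Module R M) (_ : Module.Finite R M)
      (_ : Nontrivial M) (rs : List R), IsRegular M rs ∧ (∀ x ∈ rs, x ∈ maximalIdeal R) ∧
        (rs.length : WithBot ℕ∞) = ringKrullDim R := by
  classical
  obtain ⟨Φ, hinj, hfinΦ⟩ := exists_structure hdim p hfin
  let A := PS3 (ResidueField R)
  let _ : Algebra A R := Φ.toAlgebra
  have : Module.Finite A R := hfinΦ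
  have : FaithfulSMul A R := (faithfulSMul_iff_algebraMap_injective A R).2 hinj
  let K := FractionRing R
  let S := integralClosure R K
  have hfinS : Module.Finite R S := finite_integralClosure A R K p hfin
  have hlocS : IsLocalRing S := isLocalRing_of_finite_of_complete (R := R)
  have hintS : IsIntegrallyClosed S := integralClosure.isIntegrallyClosedOfFiniteExtension K
  have hfaith : FaithfulSMul R S := (faithfulSMul_iff_algebraMap_injective R S).2 (by
    intro x y hxy
    apply IsFractionRing.injective R K
    exact congrArg Subtype.val hxy)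
  have hbir : ∀ s : S, ∃ r d : R, d ≠ 0 ∧ algebraMap R S d * s = algebraMap R S r := by
    intro s
    obtain ⟨r, d, hd, hrd⟩ := IsFractionRing.div_surjective (A := R) (s : K)
    have hd0 : d ≠ 0 := nonZeroDivisors.ne_zero hd
    refine ⟨r, d, hd0, Subtype.ext ?_⟩
    change algebraMap R K d * (s : K) = algebraMap R K r
    rw [← hrd]
    have hd1 : algebraMap R K d ≠ 0 := by
      rw [Ne, map_eq_zero_iff _ (IsFractionRing.injective R K)]
      exact hd0
    rw [mul_comm, div_mul_cancel₀ _ hd1]
  exact exists_small_CM_domain3 (A := A) (S := S) hbir (MvPowerSeries.X 0) (MvPowerSeries.X 1)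
    (MvPowerSeries.X 2) (isRegular_PS3 _) (maximalIdeal_PS3 _) p hfin φ hφ hφ1

end Vale.Agent.Lib.P190
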