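import Vale.Agent.Lib.P190.Core

/-!
The cone construction: for an `A`-algebra `R` with a free presentation `0 → A^m → A^n → R → 0`
over a domain `A`, and `g : R → K/A` such that `Hom_A(R, K/A) / Hom_A(R, K)` is generated by the
class of `g` over `R`, the module
`M = {(λ, r) ∈ Hom_A(R, K) × R : λ ≡ g(r ·) mod A}` is `A`-projective.
-/

set_option linter.unusedSectionVars false
set_option linter.unusedTactic false

namespace Vale.Agent.Lib.P190

open Matrix

section descend

variable {A V R W : Type*} [CommRing A] [AddCommGroup V] [Module A V] [AddCommGroup R] [Module A R]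
  [AddCommGroup W] [Module A W]

/-- Descend a linear map along a surjection. -/
noncomputable def descendL (p : V →ₗ[A] R) (hp : Function.Surjective p) (φ : V →ₗ[A] W)
    (h : ∀ x, p x = 0 → φ x = 0) : R →ₗ[A] W :=
  ((LinearMap.ker p).liftQ φ (fun x hx => by simpa using h x (by simpa using hx))) ∘ₗ
    (p.quotKerEquivOfSurjective hp).symm.toLinearMap

@[simp] lemma descendL_apply (p : V →ₗ[A] R) (hp : Function.Surjective p) (φ : V →ₗ[A] W)
    (h : ∀ x, p x = 0 → φ x = 0) (x : V) : descendL p hp φ h (p x) = φ x := by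
  have : (p.quotKerEquivOfSurjective hp).symm (p x) = (LinearMap.ker p).mkQ x := by
    rw [LinearEquiv.symm_apply_eq]
    simp
  simp [descendL, this]

end descend

section cone

variable {A R K : Type*} [CommRing A] [IsDomain A] [CommRing R] [Algebra A R] [Field K] [Algebra A K]
  [IsFractionRing A K]

/-- The `A`-submodule of `K` given by `A`. -/
abbrev intSub (A K : Type*) [CommRing A] [Field K] [Algebra A K] : Submodule A K :=
  LinearMap.range (Algebra.linearMap A K)

/-- The module `K / A`. -/
abbrev KmodA (A K : Type*) [CommRing A] [Field K] [Algebra A K] : Type _ := K ⧸ intSub A K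

/-- The cone module `{(λ, r) : λ ≡ g (r ·) mod A}`. -/
def coneM (g : R →ₗ[A] KmodA A K) : Submodule A ((R →ₗ[A] K) × R) where
  carrier := {x | ∀ s, (intSub A K).mkQ (x.1 s) = g (x.2 * s)}
  add_mem' := by
    intro a b ha hb s
    change (intSub A K).mkQ (a.1 s + b.1 s) = g ((a.2 + b.2) * s)
    rw [map_add, ha s, hb s, add_mul, map_add]
  zero_mem' := by
    intro s
    change (intSub A K).mkQ 0 = g (0 * s)
    simp
  smul_mem' := by
    intro c x hx s
    change (intSub A K).mkQ (c • x.1 s) = g ((c • x.2) * s)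
    rw [map_smul, hx s, smul_mul_assoc, map_smul]

omit [IsDomain A] [IsFractionRing A K] in
lemma mem_coneM {g : R →ₗ[A] KmodA A K} {x : (R →ₗ[A] K) × R} :
    x ∈ coneM g ↔ ∀ s, (intSub A K).mkQ (x.1 s) = g (x.2 * s) := Iff.rfl

variable (g : R →ₗ[A] KmodA A K)

omit [IsDomain A] [IsFractionRing A K] in
lemma cone_ext {x y : coneM g} (h1 : ∀ s, x.1.1 s = y.1.1 s) (h2 : x.1.2 = y.1.2) : x = y :=
  Subtype.ext (Prod.ext (LinearMap.ext h1) h2)

/-- The `R`-action on the cone module. -/
noncomputable instance coneModule : Module R (coneM g) where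
  smul r x := ⟨(x.1.1.comp (LinearMap.mulLeft A r), r * x.1.2), by
    intro s
    have := x.2 (r * s)
    simp only [LinearMap.comp_apply, LinearMap.mulLeft_apply]
    rw [this]
    congr 1
    ring⟩
  one_smul x := cone_ext g (fun s => by
      change x.1.1 (1 * s) = x.1.1 s
      rw [one_mul]) (by
      change 1 * x.1.2 = x.1.2
      rw [one_mul])
  mul_smul r t x := cone_ext g (fun s => by
      change x.1.1 ((r * t) * s) = x.1.1 (t * (r * s))
      congr 1
      ring) (by
      change (r * t) * x.1.2 = r * (t * x.1.2)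
      ring)
  smul_zero r := cone_ext g (fun s => rfl) (by
      change r * 0 = 0
      rw [mul_zero])
  smul_add r x y := cone_ext g (fun s => rfl) (by
      change r * (x.1.2 + y.1.2) = r * x.1.2 + r * y.1.2
      rw [mul_add])
  add_smul r t x := cone_ext g (fun s => by
      change x.1.1 ((r + t) * s) = x.1.1 (r * s) + x.1.1 (t * s)
      rw [add_mul, map_add]) (by
      change (r + t) * x.1.2 = r * x.1.2 + t * x.1.2
      rw [add_mul])
  zero_smul x := cone_ext g (fun s => by
      change x.1.1 (0 * s) = 0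
      rw [zero_mul, map_zero]) (by
      change 0 * x.1.2 = 0
      rw [zero_mul])

omit [IsDomain A] [IsFractionRing A K] in
lemma cone_smul_fst (r : R) (x : coneM g) (s : R) : (r • x).1.1 s = x.1.1 (r * s) := rfl

omit [IsDomain A] [IsFractionRing A K] in
lemma cone_smul_snd (r : R) (x : coneM g) : (r • x).1.2 = r * x.1.2 := rfl

instance coneTower : IsScalarTower A R (coneM g) where
  smul_assoc a r x := cone_ext g (fun s => by
      rw [cone_smul_fst]
      change x.1.1 ((a • r) * s) = (a • r • x).1.1 s
      rw [smul_mul_assoc, map_smul]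
      rfl) (by
      rw [cone_smul_snd, smul_mul_assoc]
      rfl)

variable {n m : Type*} [Fintype n] [Fintype m] [DecidableEq n] [DecidableEq m]

/-- The basis vector. -/
abbrev ee (i : n) : n → A := Pi.single i 1

omit [Fintype n] in
lemma linear_eq_sum [Fintype n] {W : Type*} [AddCommGroup W] [Module A W] (φ : (n → A) →ₗ[A] W)
    (y : n → A) : φ y = ∑ i, y i • φ (ee i) := by
  rw [LinearMap.pi_apply_eq_sum_univ φ y]
  refine Finset.sum_congr rfl fun i _ => ?_
  congr 2
  funext j
  simp [ee, Pi.single_apply, eq_comm]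

variable (p : (n → A) →ₗ[A] R)

/-- The lift of `g (p e_i * p e_j)` to `K`. -/
noncomputable def kappa (i j : n) : K :=
  Function.surjInv (intSub A K).mkQ_surjective (g (p (ee i) * p (ee j)))

lemma kappa_symm (i j : n) : kappa g p i j = kappa g p j i := by
  simp only [kappa, mul_comm]

lemma mk_kappa (i j : n) : (intSub A K).mkQ (kappa g p i j) = g (p (ee i) * p (ee j)) :=
  Function.surjInv_eq _ _

/-- The bilinear form `Λ`, for fixed first argument. -/
noncomputable def lamL (x : n → A) : (n → A) →ₗ[A] K where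
  toFun y := ∑ i, ∑ j, (x i * y j) • kappa g p i j
  map_add' := by
    intro u v
    simp [mul_add, add_smul, Finset.sum_add_distrib]
  map_smul' := by
    intro c u
    simp only [Pi.smul_apply, smul_eq_mul, RingHom.id_apply, Finset.smul_sum, smul_smul]
    refine Finset.sum_congr rfl fun i _ => Finset.sum_congr rfl fun j _ => ?_
    congr 1
    ring

lemma lamL_apply (x y : n → A) : lamL g p x y = ∑ i, ∑ j, (x i * y j) • kappa g p i j := rfl

lemma lamL_symm (x y : n → A) : lamL g p x y = lamL g p y x := by
  simp only [lamL_apply]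
  rw [Finset.sum_comm]
  refine Finset.sum_congr rfl fun i _ => Finset.sum_congr rfl fun j _ => ?_
  rw [kappa_symm g p j i, mul_comm]

lemma lamL_add_left (x x' y : n → A) : lamL g p (x + x') y = lamL g p x y + lamL g p x' y := by
  simp [lamL_apply, add_mul, add_smul, Finset.sum_add_distrib]

lemma lamL_smul_left (c : A) (x y : n → A) : lamL g p (c • x) y = c • lamL g p x y := by
  simp only [lamL_apply, Pi.smul_apply, smul_eq_mul, Finset.smul_sum, smul_smul]
  refine Finset.sum_congr rfl fun i _ => Finset.sum_congr rfl fun j _ => ?_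
  congr 1
  ring

lemma mk_lamL (x y : n → A) : (intSub A K).mkQ (lamL g p x y) = g (p x * p y) := by
  have hx : p x = ∑ i, x i • p (ee i) := linear_eq_sum p x
  have hy : p y = ∑ j, y j • p (ee j) := linear_eq_sum p y
  rw [lamL_apply, hx, hy, Finset.sum_mul, map_sum, map_sum]
  refine Finset.sum_congr rfl fun i _ => ?_
  rw [Finset.mul_sum, map_sum, map_sum]
  refine Finset.sum_congr rfl fun j _ => ?_
  rw [map_smul, mk_kappa, smul_mul_assoc, mul_smul_comm, map_smul, map_smul, smul_smul]


/-! ### The matrix `C` -/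

variable (D : Matrix n m A)

lemma lamL_left_sum (x y : n → A) : lamL g p x y = ∑ i, x i • lamL g p (ee i) y := by
  rw [lamL_symm, linear_eq_sum (lamL g p y) x]
  refine Finset.sum_congr rfl fun i _ => ?_
  rw [lamL_symm]

section withD

variable (hD : ∀ f, p (D *ᵥ f) = 0)

include hD in
lemma lamL_mem (x : n → A) (f : m → A) : lamL g p x (D *ᵥ f) ∈ intSub A K := by
  rw [← Submodule.Quotient.mk_eq_zero]
  change (intSub A K).mkQ _ = 0
  rw [mk_lamL, hD, mul_zero, map_zero]

/-- Entries of the matrix `C`, with `algebraMap (C i j) = Λ (e_i, D e_j)`. -/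
noncomputable def matC : Matrix n m A :=
  fun i j => Classical.choose (lamL_mem g p D hD (ee i) (ee j))

lemma matC_spec (i : n) (j : m) :
    algebraMap A K (matC g p D hD i j) = lamL g p (ee i) (D *ᵥ ee j) :=
  Classical.choose_spec (lamL_mem g p D hD (ee i) (ee j))

omit [IsDomain A] [IsFractionRing A K] in
lemma algebraMap_dot_sum {ι : Type*} [Fintype ι] (u v : ι → A) :
    algebraMap A K (u ⬝ᵥ v) = ∑ i, u i • algebraMap A K (v i) := by
  simp [dotProduct, map_sum, Algebra.smul_def]

/-- The key identity `x · (C f) = Λ (x, D f)`. -/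
lemma alg_dot_matC (x : n → A) (f : m → A) :
    algebraMap A K (x ⬝ᵥ (matC g p D hD *ᵥ f)) = lamL g p x (D *ᵥ f) := by
  have h1 : ∀ i, algebraMap A K ((matC g p D hD *ᵥ f) i) = lamL g p (ee i) (D *ᵥ f) := by
    intro i
    have h2 : lamL g p (ee i) (D *ᵥ f) = ∑ j, f j • lamL g p (ee i) (D *ᵥ ee j) := by
      have := linear_eq_sum ((lamL g p (ee i)).comp D.mulVecLin) f
      simpa using this
    rw [h2]
    simp only [mulVec, dotProduct, map_sum, map_mul]
    refine Finset.sum_congr rfl fun j _ => ?_
    rw [matC_spec, Algebra.smul_def, mul_comm]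
  rw [algebraMap_dot_sum, lamL_left_sum]
  refine Finset.sum_congr rfl fun i _ => ?_
  rw [h1]

variable [FaithfulSMul A K]

lemma dot_symm (f f' : m → A) :
    (D *ᵥ f) ⬝ᵥ (matC g p D hD *ᵥ f') = (D *ᵥ f') ⬝ᵥ (matC g p D hD *ᵥ f) := by
  apply FaithfulSMul.algebraMap_injective A K
  rw [alg_dot_matC, alg_dot_matC, lamL_symm]

lemma alg_bMap_dot (y : (n → A) × (n → A)) (f : m → A) :
    algebraMap A K (bMap (matC g p D hD) D y ⬝ᵥ f) =
      lamL g p y.1 (D *ᵥ f) + algebraMap A K (y.2 ⬝ᵥ (D *ᵥ f)) := by
  rw [bMap_dot, map_add, alg_dot_matC]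

end withD

omit [IsDomain A] [Fintype n] [DecidableEq n] [DecidableEq m] in
/-- Over the fraction field, an injective `D` has a left inverse, so any functional extends. -/
lemma exists_extension [Fintype n] [DecidableEq n] [DecidableEq m] [IsDomain A]
    (hinj : ∀ f, D *ᵥ f = 0 → f = 0) (τ : m → A) :
    ∃ lam : (n → A) →ₗ[A] K, ∀ f, lam (D *ᵥ f) = algebraMap A K (τ ⬝ᵥ f) := by
  classical
  have : FaithfulSMul A K := (faithfulSMul_iff_algebraMap_injective A K).2
    (IsFractionRing.injective A K)
  let DK : Matrix n m K := D.map (algebraMap A K)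
  have hDK : ∀ f : m → A, DK *ᵥ (fun j => algebraMap A K (f j)) =
      fun i => algebraMap A K ((D *ᵥ f) i) := by
    intro f
    funext i
    simp [DK, mulVec, dotProduct, map_sum]
  have hK : Function.Injective DK.mulVecLin := by
    rw [injective_iff_map_eq_zero]
    intro v hv
    obtain ⟨b, hb⟩ := IsLocalization.exist_integer_multiples_of_finite (nonZeroDivisors A) v
    choose w hw using hb
    have hDw : D *ᵥ w = 0 := by
      funext i
      apply IsFractionRing.injective A K
      have h1 := congrFun (hDK w) i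
      simp only [Pi.zero_apply, map_zero]
      rw [← h1]
      have hw' : (fun j => algebraMap A K (w j)) = (b : A) • v := by
        funext j
        exact hw j
      rw [hw', mulVec_smul]
      have hv' : DK *ᵥ v = 0 := hv
      rw [hv']
      simp
    have hw0 := hinj w hDw
    funext j
    have h2 := hw j
    rw [hw0] at h2
    simp only [Pi.zero_apply, map_zero] at h2
    have hb0 : (b : A) ≠ 0 := nonZeroDivisors.ne_zero b.2
    have h3 : (b : A) • v j = 0 := h2.symm
    rw [Algebra.smul_def] at h3
    have h4 : algebraMap A K b ≠ 0 := by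
      simp [hb0]
    simpa [h4] using h3
  obtain ⟨L, hL⟩ := LinearMap.exists_leftInverse_of_injective DK.mulVecLin
    (LinearMap.ker_eq_bot.2 hK)
  let emb : (n → A) →ₗ[A] (n → K) := LinearMap.compLeft (Algebra.linearMap A K) n
  let dotτ : (m → K) →ₗ[A] K := ∑ j, τ j • (LinearMap.proj j : (m → K) →ₗ[A] K)
  refine ⟨dotτ ∘ₗ (L.restrictScalars A) ∘ₗ emb, ?_⟩
  intro f
  have h1 : emb (D *ᵥ f) = DK *ᵥ (fun j => algebraMap A K (f j)) := by
    rw [hDK]
    rfl
  have h2 : L (DK *ᵥ (fun j => algebraMap A K (f j))) = fun j => algebraMap A K (f j) := by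
    have := LinearMap.congr_fun hL (fun j => algebraMap A K (f j))
    simpa using this
  simp only [LinearMap.comp_apply, LinearMap.coe_restrictScalars]
  rw [h1, h2, algebraMap_dot_sum]
  simp [dotτ, LinearMap.sum_apply]


section main

variable (hp : Function.Surjective p) (hD : ∀ f, p (D *ᵥ f) = 0)
  (hker : ∀ x, p x = 0 → ∃ f, D *ᵥ f = x)
  (hinj : ∀ f, D *ᵥ f = 0 → f = 0)
  (hcyc : ∀ h : R →ₗ[A] KmodA A K, ∃ r : R, ∃ lam : R →ₗ[A] K, ∀ s,
    h s = g (r * s) + (intSub A K).mkQ (lam s))

include hp hker hinj hcyc in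
/-- The cyclicity hypothesis gives the surjectivity of `b`. -/
lemma bMap_surjective :
    Function.Surjective (bMap (matC g p D hD) D) := by
  have : FaithfulSMul A K := (faithfulSMul_iff_algebraMap_injective A K).2
    (IsFractionRing.injective A K)
  intro τ
  obtain ⟨lam, hlam⟩ := exists_extension (K := K) D hinj τ
  -- the class of `τ`
  let φ : (n → A) →ₗ[A] KmodA A K := (intSub A K).mkQ ∘ₗ lam
  have hφ : ∀ x, p x = 0 → φ x = 0 := by
    intro x hx
    obtain ⟨f, rfl⟩ := hker x hx
    change (intSub A K).mkQ (lam (D *ᵥ f)) = 0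
    rw [hlam, Submodule.mkQ_apply, Submodule.Quotient.mk_eq_zero]
    exact ⟨_, rfl⟩
  obtain ⟨r, lam', hr⟩ := hcyc (descendL p hp φ hφ)
  obtain ⟨rh, rfl⟩ := hp r
  have hα : ∀ i, lam (ee i) - lamL g p rh (ee i) - lam' (p (ee i)) ∈ intSub A K := by
    intro i
    rw [← Submodule.Quotient.mk_eq_zero]
    change (intSub A K).mkQ _ = 0
    have h1 := hr (p (ee i))
    rw [descendL_apply] at h1
    have h2 : (intSub A K).mkQ (lam (ee i)) = φ (ee i) := rfl
    rw [map_sub, map_sub, h2, h1, mk_lamL]
    abel
  choose α hα using hα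
  refine ⟨(rh, α), ?_⟩
  apply eq_of_dot_eq
  intro f
  apply FaithfulSMul.algebraMap_injective A K
  rw [alg_bMap_dot]
  simp only
  rw [← hlam]
  have h3 : algebraMap A K (α ⬝ᵥ (D *ᵥ f)) =
      ∑ i, (D *ᵥ f) i • (lam (ee i) - lamL g p rh (ee i) - lam' (p (ee i))) := by
    rw [dotProduct_comm, algebraMap_dot_sum]
    refine Finset.sum_congr rfl fun i _ => ?_
    rw [← hα i]
    rfl
  rw [h3]
  simp only [smul_sub, Finset.sum_sub_distrib]
  rw [← linear_eq_sum lam, ← linear_eq_sum (lamL g p rh)]
  have h4 : ∑ i, (D *ᵥ f) i • lam' (p (ee i)) = lam' (p (D *ᵥ f)) := by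
    have := linear_eq_sum (lam' ∘ₗ p) (D *ᵥ f)
    simpa using this.symm
  rw [h4, hD, map_zero]
  abel

/-- The map `y ↦ Λ (z.1, y) + z.2 · y`. -/
noncomputable def phiZ (z : (n → A) × (n → A)) : (n → A) →ₗ[A] K where
  toFun y := lamL g p z.1 y + algebraMap A K (z.2 ⬝ᵥ y)
  map_add' := by
    intro u v
    simp only [map_add, dotProduct_add]
    abel
  map_smul' := by
    intro c u
    simp only [map_smul, dotProduct_smul, smul_eq_mul, map_mul, RingHom.id_apply, smul_add]
    rw [Algebra.smul_def c (algebraMap A K _)]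

omit [IsDomain A] [IsFractionRing A K] in
lemma phiZ_apply (z : (n → A) × (n → A)) (y : n → A) :
    phiZ g p z y = lamL g p z.1 y + algebraMap A K (z.2 ⬝ᵥ y) := rfl

include hker in
lemma phiZ_vanish (z : LinearMap.ker (bMap (matC g p D hD) D)) (x : n → A) (hx : p x = 0) :
    phiZ g p z.1 x = 0 := by
  have : FaithfulSMul A K := (faithfulSMul_iff_algebraMap_injective A K).2
    (IsFractionRing.injective A K)
  obtain ⟨f, rfl⟩ := hker x hx
  rw [phiZ_apply, ← alg_bMap_dot g p D hD z.1 f]
  have : bMap (matC g p D hD) D z.1 = 0 := z.2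
  rw [this]
  simp

/-- The underlying element of the cone module for `z ∈ ker b`. -/
noncomputable def psiFun (z : LinearMap.ker (bMap (matC g p D hD) D)) : coneM g :=
  ⟨(descendL p hp (phiZ g p z.1) (phiZ_vanish g p D hD hker z), p z.1.1), by
    intro s
    obtain ⟨y, rfl⟩ := hp s
    simp only
    rw [descendL_apply, phiZ_apply, ← mk_lamL g p z.1.1 y, map_add]
    have : (intSub A K).mkQ (algebraMap A K (z.1.2 ⬝ᵥ y)) = 0 := by
      rw [Submodule.mkQ_apply, Submodule.Quotient.mk_eq_zero]
      exact ⟨_, rfl⟩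
    rw [this, add_zero]⟩

lemma psiFun_fst (z : LinearMap.ker (bMap (matC g p D hD) D)) (y : n → A) :
    (psiFun g p D hp hD hker z).1.1 (p y) = phiZ g p z.1 y := by
  exact descendL_apply p hp (phiZ g p z.1) (phiZ_vanish g p D hD hker z) y

/-- The map from `ker b` to the cone module. -/
noncomputable def psi : LinearMap.ker (bMap (matC g p D hD) D) →ₗ[A] coneM g where
  toFun z := psiFun g p D hp hD hker z
  map_add' := by
    intro u v
    apply Subtype.ext
    apply Prod.ext
    · apply LinearMap.ext
      intro s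
      obtain ⟨y, rfl⟩ := hp s
      change (psiFun g p D hp hD hker (u + v)).1.1 (p y) =
        (psiFun g p D hp hD hker u).1.1 (p y) + (psiFun g p D hp hD hker v).1.1 (p y)
      simp only [psiFun_fst, phiZ_apply]
      simp only [Submodule.coe_add, Prod.fst_add, Prod.snd_add, lamL_add_left, add_dotProduct,
        map_add]
      abel
    · change p (u + v).1.1 = p u.1.1 + p v.1.1
      simp
  map_smul' := by
    intro c u
    apply Subtype.ext
    apply Prod.ext
    · apply LinearMap.ext
      intro s
      obtain ⟨y, rfl⟩ := hp s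
      change (psiFun g p D hp hD hker (c • u)).1.1 (p y) =
        c • (psiFun g p D hp hD hker u).1.1 (p y)
      simp only [psiFun_fst, phiZ_apply]
      simp only [Submodule.coe_smul, Prod.smul_fst, Prod.smul_snd, lamL_smul_left, smul_dotProduct,
        smul_eq_mul, map_mul, smul_add]
      rw [Algebra.smul_def c (algebraMap A K _)]
    · change p (c • u).1.1 = c • p u.1.1
      simp

lemma psi_fst (z : LinearMap.ker (bMap (matC g p D hD) D)) (y : n → A) :
    (psi g p D hp hD hker z).1.1 (p y) = phiZ g p z.1 y :=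
  psiFun_fst g p D hp hD hker z y

lemma psi_snd (z : LinearMap.ker (bMap (matC g p D hD) D)) :
    (psi g p D hp hD hker z).1.2 = p z.1.1 := rfl

include hker in
lemma psi_surjective : Function.Surjective (psi g p D hp hD hker) := by
  have : FaithfulSMul A K := (faithfulSMul_iff_algebraMap_injective A K).2
    (IsFractionRing.injective A K)
  rintro ⟨⟨lam, r⟩, hm⟩
  obtain ⟨x, rfl⟩ := hp r
  have hα : ∀ i, lam (p (ee i)) - lamL g p x (ee i) ∈ intSub A K := by
    intro i
    rw [← Submodule.Quotient.mk_eq_zero]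
    change (intSub A K).mkQ _ = 0
    rw [map_sub, hm, mk_lamL]
    exact sub_self _
  choose α hα using hα
  have hphi : ∀ y, lamL g p x y + algebraMap A K (α ⬝ᵥ y) = lam (p y) := by
    intro y
    have h3 : algebraMap A K (α ⬝ᵥ y) = ∑ i, y i • (lam (p (ee i)) - lamL g p x (ee i)) := by
      rw [dotProduct_comm, algebraMap_dot_sum]
      refine Finset.sum_congr rfl fun i _ => ?_
      rw [← hα i]
      rfl
    rw [h3]
    simp only [smul_sub, Finset.sum_sub_distrib]
    rw [← linear_eq_sum (lamL g p x)]
    have h4 : ∑ i, y i • lam (p (ee i)) = lam (p y) := by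
      have := linear_eq_sum (lam ∘ₗ p) y
      simpa using this.symm
    rw [h4]
    abel
  have hb : bMap (matC g p D hD) D (x, α) = 0 := by
    apply eq_of_dot_eq
    intro f
    apply FaithfulSMul.algebraMap_injective A K
    rw [alg_bMap_dot]
    simp only
    rw [hphi, hD]
    simp
  refine ⟨⟨(x, α), hb⟩, ?_⟩
  apply Subtype.ext
  apply Prod.ext
  · apply LinearMap.ext
    intro s
    obtain ⟨y, rfl⟩ := hp s
    rw [psi_fst, phiZ_apply]
    exact hphi y
  · rfl

lemma aMap_mem (f : m → A) : aMap (matC g p D hD) D f ∈ LinearMap.ker (bMap (matC g p D hD) D) := by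
  have : FaithfulSMul A K := (faithfulSMul_iff_algebraMap_injective A K).2
    (IsFractionRing.injective A K)
  exact bMap_aMap _ _ (dot_symm g p D hD) f

lemma psi_aMap (f : m → A) :
    psi g p D hp hD hker ⟨aMap (matC g p D hD) D f, aMap_mem g p D hD f⟩ = 0 := by
  apply Subtype.ext
  apply Prod.ext
  · apply LinearMap.ext
    intro s
    obtain ⟨y, rfl⟩ := hp s
    rw [psi_fst, phiZ_apply]
    simp only [aMap_apply, neg_dotProduct, map_neg]
    rw [dotProduct_comm, alg_dot_matC, lamL_symm]
    simp
  · change p (aMap (matC g p D hD) D f).1 = 0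
    simp [hD]

lemma ker_psi (z : LinearMap.ker (bMap (matC g p D hD) D)) (hz : psi g p D hp hD hker z = 0) :
    ∃ f, z.1 = aMap (matC g p D hD) D f := by
  have : FaithfulSMul A K := (faithfulSMul_iff_algebraMap_injective A K).2
    (IsFractionRing.injective A K)
  have h2 : p z.1.1 = 0 := by
    have := congrArg (fun w : coneM g => w.1.2) hz
    simpa [psi_snd] using this
  obtain ⟨f, hf⟩ := hker _ h2
  refine ⟨f, ?_⟩
  apply Prod.ext
  · rw [aMap_apply]
    exact hf.symm
  · rw [aMap_apply]
    funext i
    simp only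
    have h3 := congrArg (fun w : coneM g => w.1.1 (p (ee i))) hz
    simp only [psi_fst, phiZ_apply] at h3
    rw [← hf, lamL_symm, ← alg_dot_matC g p D hD] at h3
    apply FaithfulSMul.algebraMap_injective A K
    simp only [dotProduct_single, mul_one] at h3
    have h4 : (ee i : n → A) ⬝ᵥ (matC g p D hD *ᵥ f) = (matC g p D hD *ᵥ f) i := by simp [ee]
    rw [h4] at h3
    simp only [Pi.neg_apply, map_neg]
    have h6 : (0 : coneM g).1.1 (p (ee i)) = 0 := rfl
    rw [h6] at h3
    exact eq_neg_of_add_eq_zero_right h3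

include hp hker in
/-- The splitting of `M` off `Y = A^n × A^n`. -/
lemma exists_split
    (s : m → (n → A) × (n → A)) (hs : ∀ j, bMap (matC g p D hD) D (s j) = Pi.single j 1) :
    Module.Projective A (coneM g) ∧ Module.Finite A (coneM g) := by
  have : FaithfulSMul A K := (faithfulSMul_iff_algebraMap_injective A K).2
    (IsFractionRing.injective A K)
  set C := matC g p D hD with hC
  set b := bMap C D with hb
  set a := aMap C D with ha
  set ρ := rhoMap s with hρ
  set σ := sigmaMap s with hσ
  have hbσ : ∀ v, b (σ v) = v := bMap_sigmaMap C D s hs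
  have hρa : ∀ f, ρ (a f) = f := rhoMap_aMap C D s hs
  have hba : ∀ f, b (a f) = 0 := bMap_aMap C D (dot_symm g p D hD)
  -- projection to `ker b`
  let proj : ((n → A) × (n → A)) →ₗ[A] LinearMap.ker b :=
    LinearMap.codRestrict (LinearMap.ker b) (LinearMap.id - σ ∘ₗ b) (by
      intro y
      simp [LinearMap.mem_ker, hbσ])
  have hproj : ∀ z : LinearMap.ker b, proj z.1 = z := by
    intro z
    apply Subtype.ext
    have hz : b z.1 = 0 := z.2
    simp [proj, LinearMap.codRestrict_apply, hz]
  let sec : ((n → A) × (n → A)) →ₗ[A] coneM g := (psi g p D hp hD hker) ∘ₗ proj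
  have hsec : Function.Surjective sec := by
    intro w
    obtain ⟨z, rfl⟩ := psi_surjective g p D hp hD hker w
    exact ⟨z.1, by simp [sec, hproj]⟩
  have hfin : Module.Finite A (coneM g) := Module.Finite.of_surjective sec hsec
  -- the splitting
  let e : LinearMap.ker b →ₗ[A] ((n → A) × (n → A)) :=
    (LinearMap.ker b).subtype - a ∘ₗ ρ ∘ₗ (LinearMap.ker b).subtype
  have he : ∀ z : LinearMap.ker b, psi g p D hp hD hker z = 0 → e z = 0 := by
    intro z hz
    obtain ⟨f, hf⟩ := ker_psi g p D hp hD hker z hz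
    simp only [e, LinearMap.sub_apply, LinearMap.comp_apply, Submodule.subtype_apply]
    rw [hf, hρa, sub_self]
  let i : coneM g →ₗ[A] ((n → A) × (n → A)) :=
    descendL (R := coneM g) (psi g p D hp hD hker) (psi_surjective g p D hp hD hker) e he
  have hi : sec ∘ₗ i = LinearMap.id := by
    apply LinearMap.ext
    intro w
    obtain ⟨z, rfl⟩ := psi_surjective g p D hp hD hker w
    simp only [LinearMap.comp_apply, LinearMap.id_apply, i, descendL_apply, sec]
    have h1 : proj (e z) = z - ⟨a (ρ z.1), aMap_mem g p D hD _⟩ := by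
      have h2 : e z = z.1 - a (ρ z.1) := rfl
      rw [h2, map_sub, hproj]
      congr 1
      exact hproj ⟨a (ρ z.1), aMap_mem g p D hD _⟩
    rw [h1, map_sub, psi_aMap]
    exact sub_zero (psi g p D hp hD hker z)
  exact ⟨Module.Projective.of_split i sec hi, hfin⟩

include hp hD hker hinj hcyc in
/-- The cone module is projective and finite over `A`. -/
theorem cone_projective_finite :
    Module.Projective A (coneM g) ∧ Module.Finite A (coneM g) := by
  have hs : ∀ j : m, ∃ y, bMap (matC g p D hD) D y = Pi.single j 1 :=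
    fun j => bMap_surjective g p D hp hD hker hinj hcyc _
  choose s hs using hs
  exact exists_split g p D hp hD hker s hs

include hp hD hker hinj in
/-- If `A → R` is injective, the cone module is nonzero. -/
theorem cone_nontrivial (hfaith : Function.Injective (algebraMap A R)) :
    Nontrivial (coneM g) := by
  have : FaithfulSMul A K := (faithfulSMul_iff_algebraMap_injective A K).2
    (IsFractionRing.injective A K)
  obtain ⟨y₁, hy₁⟩ := hp 1
  let DK : Matrix n m K := D.map (algebraMap A K)
  have hDK : ∀ f : m → A, DK *ᵥ (fun j => algebraMap A K (f j)) =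
      fun i => algebraMap A K ((D *ᵥ f) i) := by
    intro f
    funext i
    simp [DK, mulVec, dotProduct, map_sum]
  -- the vector `y₁` is not in the range of `D` over `K`
  have hnot : (fun i => algebraMap A K (y₁ i)) ∉ LinearMap.range DK.mulVecLin := by
    rintro ⟨v, hv⟩
    obtain ⟨b, hb⟩ := IsLocalization.exist_integer_multiples_of_finite (nonZeroDivisors A) v
    choose w hw using hb
    have hb0 : (b : A) ≠ 0 := nonZeroDivisors.ne_zero b.2
    have hw' : (fun j => algebraMap A K (w j)) = (b : A) • v := by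
      funext j
      exact hw j
    have h1 : D *ᵥ w = (b : A) • y₁ := by
      funext i
      apply IsFractionRing.injective A K
      have h2 := congrFun (hDK w) i
      rw [← h2, hw', mulVec_smul]
      have hv' : DK *ᵥ v = fun i => algebraMap A K (y₁ i) := hv
      rw [hv']
      simp [Algebra.smul_def]
    have h3 := hD w
    rw [h1, map_smul, hy₁] at h3
    apply hb0
    apply hfaith
    rw [map_zero, Algebra.algebraMap_eq_smul_one]
    exact h3
  -- a functional separating `y₁` from the range
  obtain ⟨F, hF1, hF2⟩ := Submodule.exists_le_ker_of_notMem hnot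
  obtain ⟨b, hb⟩ := IsLocalization.exist_integer_multiples_of_finite (nonZeroDivisors A)
    (fun i : n => F (Pi.single i 1))
  choose α hα using hb
  have hb0 : (b : A) ≠ 0 := nonZeroDivisors.ne_zero b.2
  have hbK : algebraMap A K b ≠ 0 := by
    simp [hb0]
  have hFval : ∀ x : n → A, algebraMap A K (α ⬝ᵥ x) =
      algebraMap A K b * F (fun i => algebraMap A K (x i)) := by
    intro x
    have hx : (fun i => algebraMap A K (x i)) =
        ∑ i, algebraMap A K (x i) • (Pi.single i 1 : n → K) := by
      funext j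
      simp [Finset.sum_apply, Pi.single_apply, Algebra.smul_def]
    rw [hx, map_sum, Finset.mul_sum, dotProduct, map_sum]
    refine Finset.sum_congr rfl fun i _ => ?_
    rw [map_smul, map_mul, smul_eq_mul]
    have := hα i
    rw [Algebra.smul_def] at this
    rw [this]
    ring
  have hαD : ∀ f, α ⬝ᵥ (D *ᵥ f) = 0 := by
    intro f
    apply IsFractionRing.injective A K
    rw [hFval, map_zero]
    have h1 : (fun i => algebraMap A K ((D *ᵥ f) i)) ∈ LinearMap.range DK.mulVecLin :=
      ⟨fun j => algebraMap A K (f j), hDK f⟩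
    have h2 : F _ = 0 := hF2 h1
    rw [h2, mul_zero]
  have hz : bMap (matC g p D hD) D (0, α) = 0 := by
    apply eq_of_dot_eq
    intro f
    rw [bMap_dot]
    simp [hαD]
  let z : LinearMap.ker (bMap (matC g p D hD) D) := ⟨(0, α), hz⟩
  refine ⟨psi g p D hp hD hker z, 0, ?_⟩
  intro h0
  have h1 := congrArg (fun w : coneM g => w.1.1 (p y₁)) h0
  simp only [psi_fst, phiZ_apply] at h1
  have h6 : (0 : coneM g).1.1 (p y₁) = 0 := rfl
  rw [h6] at h1
  have h7 : lamL g p (0 : n → A) y₁ = 0 := by simp [lamL_apply]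
  change lamL g p (0 : n → A) y₁ + algebraMap A K (α ⬝ᵥ y₁) = 0 at h1
  rw [h7, zero_add, hFval] at h1
  exact (mul_ne_zero hbK hF1) h1

end main

end cone

end Vale.Agent.Lib.P190
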