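import Mathlib

/-!
Core linear algebra for the cone construction: matrices `C D` of size `n × m` over a commutative
ring with `Cᵀ D` symmetric, and `b (x, α) = x C + α D` surjective.
-/

namespace Vale.Agent.Lib.P190

open Matrix

section core

variable {A : Type*} [CommRing A] {n m : Type*} [Fintype n] [Fintype m]

/-- The map `b (x, α) = x C + α D`. -/
noncomputable def bMap (C D : Matrix n m A) : ((n → A) × (n → A)) →ₗ[A] (m → A) :=
  (C.vecMulLinear).coprod (D.vecMulLinear)

/-- The map `a f = (D f, - C f)`. -/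
noncomputable def aMap (C D : Matrix n m A) : (m → A) →ₗ[A] ((n → A) × (n → A)) :=
  (D.mulVecLin).prod (-(C.mulVecLin))

omit [Fintype m] in
@[simp] lemma bMap_apply (C D : Matrix n m A) (y : (n → A) × (n → A)) :
    bMap C D y = y.1 ᵥ* C + y.2 ᵥ* D := by
  simp [bMap, LinearMap.coprod_apply]

omit [Fintype n] in
@[simp] lemma aMap_apply (C D : Matrix n m A) (f : m → A) :
    aMap C D f = (D *ᵥ f, -(C *ᵥ f)) := by
  simp [aMap, LinearMap.prod_apply]

lemma bMap_dot (C D : Matrix n m A) (y : (n → A) × (n → A)) (f : m → A) :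
    bMap C D y ⬝ᵥ f = y.1 ⬝ᵥ (C *ᵥ f) + y.2 ⬝ᵥ (D *ᵥ f) := by
  rw [bMap_apply, add_dotProduct, Matrix.dotProduct_mulVec, Matrix.dotProduct_mulVec]

variable [DecidableEq m]

lemma eq_of_dot_eq {u v : m → A} (h : ∀ f : m → A, u ⬝ᵥ f = v ⬝ᵥ f) : u = v := by
  funext j
  simpa using h (Pi.single j 1)

lemma bMap_aMap (C D : Matrix n m A)
    (h : ∀ f f' : m → A, (D *ᵥ f) ⬝ᵥ (C *ᵥ f') = (D *ᵥ f') ⬝ᵥ (C *ᵥ f))
    (f : m → A) : bMap C D (aMap C D f) = 0 := by
  apply eq_of_dot_eq
  intro f'
  rw [bMap_dot, zero_dotProduct, aMap_apply]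
  simp only [neg_dotProduct]
  rw [h f f', dotProduct_comm (C *ᵥ f)]
  ring

/-- The symplectic pairing of `y ∈ Y` with `a f`. -/
def omegaPair (y z : (n → A) × (n → A)) : A := y.2 ⬝ᵥ z.1 - z.2 ⬝ᵥ y.1

omit [DecidableEq m] [Fintype m] in
lemma omegaPair_aMap [Fintype m] (C D : Matrix n m A) (y : (n → A) × (n → A)) (f : m → A) :
    omegaPair y (aMap C D f) = bMap C D y ⬝ᵥ f := by
  rw [bMap_dot, omegaPair, aMap_apply]
  simp only [neg_dotProduct]
  rw [dotProduct_comm (C *ᵥ f)]
  ring

/-- A retraction `ρ` of `a` built from a section of `b`: `ρ y j = ω (σ (e_j), y)`. -/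
noncomputable def rhoMap (s : m → (n → A) × (n → A)) : ((n → A) × (n → A)) →ₗ[A] (m → A) :=
  LinearMap.pi fun j =>
    { toFun := fun z => omegaPair (s j) z
      map_add' := by
        intro u v
        simp [omegaPair, dotProduct_add, add_dotProduct]
        ring
      map_smul' := by
        intro c u
        simp [omegaPair, dotProduct_smul, smul_dotProduct]
        ring }

omit [DecidableEq m] in
@[simp] lemma rhoMap_apply (s : m → (n → A) × (n → A)) (z : (n → A) × (n → A)) (j : m) :
    rhoMap s z j = omegaPair (s j) z := rfl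

lemma rhoMap_aMap (C D : Matrix n m A) (s : m → (n → A) × (n → A))
    (hs : ∀ j, bMap C D (s j) = Pi.single j 1) (f : m → A) :
    rhoMap s (aMap C D f) = f := by
  funext j
  rw [rhoMap_apply, omegaPair_aMap, hs]
  simp

/-- The section of `b` associated with chosen preimages of the basis vectors. -/
noncomputable def sigmaMap (s : m → (n → A) × (n → A)) : (m → A) →ₗ[A] ((n → A) × (n → A)) :=
  LinearMap.lsum A (fun _ : m => A) A (fun j => LinearMap.toSpanSingleton A _ (s j))

omit [DecidableEq m] in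
lemma sigmaMap_apply [DecidableEq m] (s : m → (n → A) × (n → A)) (v : m → A) :
    sigmaMap s v = ∑ j, v j • s j := by
  simp [sigmaMap, LinearMap.lsum_apply]

lemma bMap_sigmaMap (C D : Matrix n m A) (s : m → (n → A) × (n → A))
    (hs : ∀ j, bMap C D (s j) = Pi.single j 1) (v : m → A) :
    bMap C D (sigmaMap s v) = v := by
  rw [sigmaMap_apply, map_sum]
  simp only [map_smul, hs]
  funext j
  simp [Finset.sum_apply, Pi.single_apply]

end core

end Vale.Agent.Lib.P190
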