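import Vale.Agent.Lib.P190.Normal8

/-!
Frobenius splittings extend to module-finite birational normal extensions, via the conductor.
-/

set_option linter.unusedSectionVars false

universe u

open IsLocalRing RingTheory.Sequence Matrix

namespace Vale.Agent.Lib.P190

section extend

variable {R S : Type u} [CommRing R] [CommRing S] [IsDomain S] [Algebra R S]
  [FaithfulSMul R S]

/-- The conductor of `S` in `R`, as an ideal of `S`. -/
def conductorIdeal (R S : Type u) [CommRing R] [CommRing S] [Algebra R S] : Ideal S where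
  carrier := {z | ∀ s, ∃ r : R, z * s = algebraMap R S r}
  add_mem' := by
    intro a b ha hb s
    obtain ⟨r, hr⟩ := ha s
    obtain ⟨r', hr'⟩ := hb s
    exact ⟨r + r', by rw [map_add, ← hr, ← hr']; ring⟩
  zero_mem' := fun s => ⟨0, by simp⟩
  smul_mem' := by
    intro c a ha s
    obtain ⟨r, hr⟩ := ha (c * s)
    exact ⟨r, by rw [← hr, smul_eq_mul]; ring⟩

lemma mem_conductorIdeal (z : S) :
    z ∈ conductorIdeal R S ↔ ∀ s, ∃ r : R, z * s = algebraMap R S r := Iff.rfl

lemma exists_of_mem_conductorIdeal {z : S} (hz : z ∈ conductorIdeal R S) :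
    ∃ r : R, z = algebraMap R S r := by
  obtain ⟨r, hr⟩ := hz 1
  exact ⟨r, by rwa [mul_one] at hr⟩

/-- A common denominator. -/
lemma exists_conductor_element [IsDomain R] [Module.Finite R S]
    (hbir : ∀ s : S, ∃ r d : R, d ≠ 0 ∧ algebraMap R S d * s = algebraMap R S r) :
    ∃ c : R, c ≠ 0 ∧ algebraMap R S c ∈ conductorIdeal R S := by
  classical
  obtain ⟨g, hg⟩ := (Module.Finite.fg_top : (⊤ : Submodule R S).FG)
  choose rr dd hdd hrr using hbir
  let c : R := ∏ x ∈ g, dd x
  have hc : c ≠ 0 := Finset.prod_ne_zero_iff.2 (fun x _ => hdd x)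
  refine ⟨c, hc, ?_⟩
  intro s
  have hs : s ∈ Submodule.span R (g : Set S) := by
    rw [hg]
    trivial
  refine Submodule.span_induction (p := fun s _ => ∃ r : R, algebraMap R S c * s = algebraMap R S r)
    ?_ ?_ ?_ ?_ hs
  · intro x hx
    have h1 : c = (∏ y ∈ g.erase x, dd y) * dd x := (Finset.prod_erase_mul g dd hx).symm
    refine ⟨(∏ y ∈ g.erase x, dd y) * rr x, ?_⟩
    rw [h1, map_mul, map_mul, mul_assoc, hrr x]
  · exact ⟨0, by simp⟩
  · rintro x y _ _ ⟨r, hr⟩ ⟨r', hr'⟩
    exact ⟨r + r', by rw [mul_add, hr, hr', map_add]⟩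
  · rintro a x _ ⟨r, hr⟩
    refine ⟨a * r, ?_⟩
    rw [Algebra.smul_def, map_mul, ← hr]
    ring

variable [IsNoetherianRing S] [IsIntegrallyClosed S] (p : ℕ) (hp : 1 ≤ p)
  (φ : R →+ R) (hφ : ∀ r s, φ (r ^ p * s) = r * φ s) (hφ1 : φ 1 = 1)
  (c : R) (hc : c ≠ 0) (hcc : algebraMap R S c ∈ conductorIdeal R S)

include hφ hc hcc hp in
/-- The splitting preserves the conductor. -/
lemma split_mem_conductor (v : R) (hv : algebraMap R S v ∈ conductorIdeal R S) :
    algebraMap R S (φ v) ∈ conductorIdeal R S := by
  intro s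
  have hι : Function.Injective (algebraMap R S) := FaithfulSMul.algebraMap_injective R S
  have hc' : algebraMap R S c ≠ 0 := by
    intro h
    exact hc (hι (by simpa using h))
  obtain ⟨e, he⟩ := hcc s
  have h1 : s ^ p * algebraMap R S v ∈ conductorIdeal R S := Ideal.mul_mem_left _ _ hv
  obtain ⟨v', hv'⟩ := exists_of_mem_conductorIdeal h1
  have h2 : e ^ p * v = c ^ p * v' := by
    apply hι
    rw [map_mul, map_mul, map_pow, map_pow, ← he, ← hv']
    ring
  have h3 : e * φ v = c * φ v' := by
    rw [← hφ, ← hφ, h2]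
  refine ⟨φ v', ?_⟩
  apply mul_left_cancel₀ hc'
  have h4 := congrArg (algebraMap R S) h3
  rw [map_mul, map_mul, ← he] at h4
  linear_combination h4

include hφ hc hcc hp in
/-- Existence of the extended value. -/
lemma exists_extended_value (v : S) (y : R) (hy : algebraMap R S y = algebraMap R S c ^ p * v) :
    ∃ τ : S, algebraMap R S c * τ = algebraMap R S (φ y) := by
  classical
  have hι : Function.Injective (algebraMap R S) := FaithfulSMul.algebraMap_injective R S
  have hc' : algebraMap R S c ≠ 0 := by
    intro h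
    exact hc (hι (by simpa using h))
  let K := FractionRing S
  have hinj : Function.Injective (algebraMap S K) := IsFractionRing.injective S K
  have hc'' : algebraMap S K (algebraMap R S c) ≠ 0 := by
    simpa using hinj.ne hc'
  let t : K := algebraMap S K (algebraMap R S (φ y)) / algebraMap S K (algebraMap R S c)
  let N : Submodule S K := Submodule.map (Algebra.linearMap S K) (conductorIdeal R S)
  have hN : N ≠ ⊥ := by
    intro h
    have h1 : algebraMap S K (algebraMap R S c) ∈ N :=
      Submodule.mem_map_of_mem (f := Algebra.linearMap S K) hcc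
    rw [h, Submodule.mem_bot] at h1
    exact hc'' h1
  have hNfg : N.FG := Submodule.FG.map _ (IsNoetherian.noetherian (conductorIdeal R S))
  have ht : IsIntegral S t := by
    refine isIntegral_of_smul_mem_submodule (A := K) (M := K) N hN hNfg t ?_
    rintro _ ⟨z, hz, rfl⟩
    obtain ⟨w, rfl⟩ := exists_of_mem_conductorIdeal hz
    have h1 : algebraMap R S w ^ p * v ∈ conductorIdeal R S := by
      obtain ⟨q, rfl⟩ := Nat.exists_eq_add_of_le hp
      rw [pow_add, pow_one, mul_assoc]
      exact Ideal.mul_mem_right _ _ hz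
    obtain ⟨v', hv'⟩ := exists_of_mem_conductorIdeal h1
    have h2 : w ^ p * y = c ^ p * v' := by
      apply hι
      rw [map_mul, map_mul, map_pow, map_pow, hy, ← hv']
      ring
    have h3 : w * φ y = c * φ v' := by
      rw [← hφ, ← hφ, h2]
    refine ⟨algebraMap R S (φ v'), split_mem_conductor p hp φ hφ c hc hcc v' (by rw [← hv']; exact h1), ?_⟩
    change algebraMap S K (algebraMap R S (φ v')) = t • algebraMap S K (algebraMap R S w)
    rw [smul_eq_mul]
    simp only [t]
    have h4 := congrArg (algebraMap R S) h3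
    rw [map_mul, map_mul] at h4
    have h5 : algebraMap R S (φ v') * algebraMap R S c = algebraMap R S (φ y) * algebraMap R S w := by
      linear_combination -h4
    have h6 := congrArg (algebraMap S K) h5
    rw [map_mul, map_mul] at h6
    rw [div_mul_eq_mul_div, eq_div_iff hc'', h6]
  obtain ⟨τ, hτ⟩ := IsIntegrallyClosed.isIntegral_iff.1 ht
  refine ⟨τ, ?_⟩
  apply hinj
  rw [map_mul, hτ]
  simp only [t]
  rw [mul_div_cancel₀ _ hc'']

include hφ hφ1 hc hcc hp in
/-- **Extension of Frobenius splittings along module-finite birational normal extensions.** -/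
theorem exists_extended_split :
    ∃ φ' : S →+ S, (∀ s t, φ' (s ^ p * t) = s * φ' t) ∧ φ' 1 = 1 := by
  classical
  have hι : Function.Injective (algebraMap R S) := FaithfulSMul.algebraMap_injective R S
  have hc' : algebraMap R S c ≠ 0 := by
    intro h
    exact hc (hι (by simpa using h))
  have hcp : ∀ s : S, algebraMap R S c ^ p * s ∈ conductorIdeal R S := by
    intro s
    obtain ⟨q, rfl⟩ := Nat.exists_eq_add_of_le hp
    rw [pow_add, pow_one, mul_assoc]
    exact Ideal.mul_mem_right _ _ hcc
  choose y hy using fun s => exists_of_mem_conductorIdeal (hcp s)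
  choose τ hτ using fun s => exists_extended_value p hp φ hφ c hc hcc s (y s) (hy s).symm
  have hyadd : ∀ s s', y (s + s') = y s + y s' := by
    intro s s'
    apply hι
    rw [map_add, ← hy, ← hy, ← hy]
    ring
  have hadd : ∀ s s', τ (s + s') = τ s + τ s' := by
    intro s s'
    apply mul_left_cancel₀ hc'
    rw [hτ, mul_add, hτ, hτ, hyadd, map_add, map_add]
  refine ⟨AddMonoidHom.mk' τ hadd, ?_, ?_⟩
  · intro s t
    change τ (s ^ p * t) = s * τ t
    obtain ⟨e, he⟩ := hcc s
    have h1 : c ^ p * y (s ^ p * t) = e ^ p * y t := by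
      apply hι
      rw [map_mul, map_mul, map_pow, map_pow, ← he, ← hy, ← hy]
      ring
    have h2 : c * φ (y (s ^ p * t)) = e * φ (y t) := by
      rw [← hφ, ← hφ, h1]
    have h3 := congrArg (algebraMap R S) h2
    rw [map_mul, map_mul, ← he, ← hτ, ← hτ] at h3
    apply mul_left_cancel₀ hc'
    apply mul_left_cancel₀ hc'
    linear_combination h3
  · change τ 1 = 1
    have h1 : y 1 = c ^ p := by
      apply hι
      rw [← hy, map_pow, mul_one]
    have h2 : φ (y 1) = c := by
      have h3 := hφ c 1
      rw [mul_one, hφ1, mul_one] at h3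
      rw [h1, h3]
    apply mul_left_cancel₀ hc'
    rw [hτ, h2, mul_one]

end extend

end Vale.Agent.Lib.P190
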