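import Vale.Agent.Lib.P190.Gm

/-!
Small Cohen-Macaulay modules from a split finite contracting endomorphism `ψ` of a local ring with
`ψ x = x ^ u` on a system of parameters, under a finite length hypothesis on local cohomology.
-/

set_option linter.unusedSectionVars false

universe u

open IsLocalRing RingTheory.Sequence

namespace Vale.Agent.Lib.P190

section stabilize

/-- A counting lemma for the lengths. -/
lemma exists_stable_zero (q : ℕ) (hq : 1 ≤ q) (a c : ℕ → ℕ∞) (C : ℕ) (ha : ∀ e, a e ≤ C)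
    (h : ∀ e, (q : ℕ∞) * a (e + 1) = c e + (q : ℕ∞) * a e) :
    ∃ e₀, ∀ e, e₀ ≤ e → c e = 0 := by
  have hne : ∀ e, a e ≠ ⊤ := fun e => ne_top_of_le_ne_top (ENat.natCast_ne_top C) (ha e)
  let b : ℕ → ℕ := fun e => (a e).toNat
  have hb : ∀ e, a e = (b e : ℕ∞) := fun e => (ENat.natCast_toNat (hne e)).symm
  have hbC : ∀ e, b e ≤ C := by
    intro e
    have := ha e
    rw [hb e] at this
    exact_mod_cast this
  have hq0 : (q : ℕ∞) ≠ 0 := by
    have : q ≠ 0 := by omega
    exact_mod_cast this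
  have hmono : Monotone b := by
    apply monotone_nat_of_le_succ
    intro e
    have h1 : (q : ℕ∞) * (b e : ℕ∞) ≤ (q : ℕ∞) * (b (e + 1) : ℕ∞) := by
      rw [← hb, ← hb, h e]
      exact le_add_self
    have h2 : q * b e ≤ q * b (e + 1) := by exact_mod_cast h1
    exact Nat.le_of_mul_le_mul_left h2 (by omega)
  -- the maximum
  have hS : (Set.range b).Nonempty := ⟨b 0, 0, rfl⟩
  have hbdd : BddAbove (Set.range b) := ⟨C, by rintro _ ⟨e, rfl⟩; exact hbC e⟩
  obtain ⟨e₀, he₀⟩ := Nat.sSup_mem hS hbdd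
  refine ⟨e₀, fun e he => ?_⟩
  have h3 : b (e + 1) ≤ b e₀ := by
    rw [he₀]
    exact le_csSup hbdd ⟨_, rfl⟩
  have h4 : b e₀ ≤ b e := hmono he
  have h5 : b (e + 1) = b e := le_antisymm (h3.trans h4) (hmono (Nat.le_succ e))
  have h6 := h e
  rw [hb (e + 1), hb e, h5] at h6
  have h7 : (0 : ℕ∞) + (q : ℕ∞) * (b e : ℕ∞) = c e + (q : ℕ∞) * (b e : ℕ∞) := by
    rw [zero_add]
    exact h6
  have h8 : ((q : ℕ∞) * (b e : ℕ∞)) ≠ ⊤ := by
    exact_mod_cast ENat.natCast_ne_top (q * b e)
  exact (ENat.add_left_injective_of_ne_top h8 h7).symm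

end stabilize

section main

variable {R : Type u} [CommRing R] [IsLocalRing R] [IsNoetherianRing R] (ψ : R →+* R)

lemma map_ofList_pow (u : ℕ) (ys : List R) (hys : ∀ x ∈ ys, ψ x = x ^ u) (t : ℕ) :
    (Ideal.ofList (ys.map (· ^ t))).map ψ = Ideal.ofList (ys.map (· ^ (t * u))) := by
  rw [Ideal.map_ofList, List.map_map]
  congr 1
  apply List.map_congr_left
  intro x hx
  simp only [Function.comp_apply, map_pow, hys x hx]
  rw [← pow_mul, mul_comm]

/-- The case in which the complement of the free summand vanishes: then `R` is a field. -/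
lemma maximalIdeal_eq_bot_of_subsingleton
    (hψ : ∀ r ∈ maximalIdeal R, ψ r ∈ maximalIdeal R ^ 2)
    (q : ℕ) (hq : (q : ℕ∞) = Module.length R (Tw ψ (R ⧸ maximalIdeal R)))
    (ρ : Tw ψ R →ₗ[R] (Fin q → R)) (ι : (Fin q → R) →ₗ[R] Tw ψ R)
    (hsub : Subsingleton (LinearMap.ker ρ)) (hρι : ρ ∘ₗ ι = LinearMap.id) :
    maximalIdeal R = ⊥ := by
  classical
  have hψ' : ∀ r ∈ maximalIdeal R, ψ r ∈ maximalIdeal R := fun r hr =>
    Ideal.pow_le_self two_ne_zero (hψ r hr)
  have hρι' : ∀ v, ρ (ι v) = v := fun v => LinearMap.congr_fun hρι v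
  have hx : ∀ x, x = ι (ρ x) := by
    intro x
    have h1 : x - ι (ρ x) ∈ LinearMap.ker ρ := by
      simp [LinearMap.mem_ker, hρι']
    have h2 : (⟨_, h1⟩ : LinearMap.ker ρ) = 0 := Subsingleton.elim _ _
    have h3 : x - ι (ρ x) = 0 := congrArg Subtype.val h2
    exact sub_eq_zero.1 h3
  have hsurj : Function.Surjective (piK ψ ∘ₗ ι) := by
    intro w
    obtain ⟨x, rfl⟩ := piK_surjective ψ w
    refine ⟨ρ x, ?_⟩
    simp only [LinearMap.comp_apply]
    rw [← hx]
  have hle : maximalIdeal R ≤ maximalIdeal R • maximalIdeal R := by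
    intro r hr
    have hv : ∀ j, ρ (toTw ψ r) j ∈ maximalIdeal R := by
      intro j
      refine mem_maximalIdeal_of_length_eq (tw_residue_killed ψ hψ') (piK ψ ∘ₗ ι) hsurj ?_
        (ρ (toTw ψ r)) ?_ j
      · simpa using hq.symm
      · simp only [LinearMap.comp_apply]
        rw [← hx]
        have h1 : Submodule.Quotient.mk (p := maximalIdeal R) r = 0 :=
          (Submodule.Quotient.mk_eq_zero _).2 hr
        exact congrArg (toTw ψ) h1
    have h2 := hx (toTw ψ r)
    rw [LinearMap.pi_apply_eq_sum_univ ι (ρ (toTw ψ r))] at h2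
    have h3 : r = ofTw ψ (toTw ψ r) := rfl
    rw [h3, h2, map_sum]
    refine Ideal.sum_mem _ fun j _ => ?_
    rw [ofTw_smul, smul_eq_mul, smul_eq_mul, ← pow_two]
    exact Ideal.mul_mem_right _ _ (hψ _ (hv j))
  exact Submodule.eq_bot_of_le_smul_of_le_jacobson_bot _ _ (IsNoetherian.noetherian _) hle
    (IsLocalRing.maximalIdeal_le_jacobson _)

/-- **Main theorem for endomorphisms**, with the regular sequence made explicit. -/
theorem exists_small_CM_of_endo'
    (hfin : Module.Finite R (Tw ψ R))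
    (φ : R →+ R) (hφ : ∀ r s, φ (ψ r * s) = r * φ s) (hφ1 : φ 1 = 1)
    (hψ : ∀ r ∈ maximalIdeal R, ψ r ∈ maximalIdeal R ^ 2)
    (u : ℕ) (hu : 1 ≤ u) (xs : List R) (hxs : ∀ x ∈ xs, x ∈ maximalIdeal R)
    (hψx : ∀ x ∈ xs, ψ x = x ^ u)
    (hdim : (xs.length : WithBot ℕ∞) = ringKrullDim R)
    (hflc : ∀ (i : ℕ) (hi : i < xs.length), ∃ C : ℕ, ∀ t : ℕ,
      Module.length R (Submodule.torsion' R (R ⧸ Ideal.ofList ((xs.take i).map (· ^ t)))
        (Submonoid.powers xs[i])) ≤ C) :
    ∃ (M : Type u) (_ : AddCommGroup M) (_ : Module R M) (_ : Module.Finite R M)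
      (_ : Nontrivial M) (t : ℕ), t ≠ 0 ∧ IsRegular M (xs.map (· ^ t)) := by
  classical
  have hψ' : ∀ r ∈ maximalIdeal R, ψ r ∈ maximalIdeal R := fun r hr =>
    Ideal.pow_le_self two_ne_zero (hψ r hr)
  -- the rank of the free summand
  obtain ⟨n, g, hg⟩ := Module.Finite.exists_fin' R (Tw ψ R)
  have hqle : Module.length R (Tw ψ (R ⧸ maximalIdeal R)) ≤ n := by
    have h1 := length_le_of_surjective_pi (tw_residue_killed ψ hψ') (piK ψ ∘ₗ g)
      ((piK_surjective ψ).comp hg)
    simpa using h1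
  have hqtop : Module.length R (Tw ψ (R ⧸ maximalIdeal R)) ≠ ⊤ :=
    ne_top_of_le_ne_top (ENat.natCast_ne_top n) hqle
  obtain ⟨q, hq⟩ := ENat.ne_top_iff_exists.1 hqtop
  have hq1 : 1 ≤ q := by
    have : Nontrivial (Tw ψ (R ⧸ maximalIdeal R)) :=
      inferInstanceAs (Nontrivial (R ⧸ maximalIdeal R))
    have h1 : 0 < Module.length R (Tw ψ (R ⧸ maximalIdeal R)) := Module.length_pos
    rw [← hq] at h1
    exact_mod_cast h1
  obtain ⟨ρ, ι, hρι⟩ := exists_retract ψ φ hφ hφ1 hψ' q (le_of_eq hq)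
  by_cases hU : Nontrivial (LinearMap.ker ρ)
  · -- the main case
    have hfinU : Module.Finite R (LinearMap.ker ρ) := by
      have : IsNoetherian R (Tw ψ R) := isNoetherian_of_isNoetherianRing_of_finite R _
      infer_instance
    -- the counting, for each position in the list
    have hstable : ∀ (i : ℕ) (hi : i < xs.length), ∃ e₀, ∀ e, e₀ ≤ e →
        Module.length R (Gm (Ideal.ofList ((xs.take i).map (· ^ (u ^ e)))) xs[i]
          (LinearMap.ker ρ)) = 0 := by
      intro i hi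
      obtain ⟨C, hC⟩ := hflc i hi
      have hy : ψ xs[i] = xs[i] ^ u := hψx _ (List.getElem_mem hi)
      refine exists_stable_zero q hq1
        (fun e => Module.length R (Submodule.torsion' R
          (R ⧸ Ideal.ofList ((xs.take i).map (· ^ (u ^ e)))) (Submonoid.powers xs[i])))
        _ C (fun e => hC _) ?_
      intro e
      set J := Ideal.ofList ((xs.take i).map (· ^ (u ^ e))) with hJ
      have hJmap : J.map ψ = Ideal.ofList ((xs.take i).map (· ^ (u ^ (e + 1)))) := by
        rw [hJ, map_ofList_pow ψ u _ (fun x hx => hψx x (List.mem_of_mem_take hx)), pow_succ]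
      have h1 := length_Gm_retract J xs[i] ρ ι hρι
      rw [length_Gm_pi, length_Gm_self] at h1
      have hfinL : IsFiniteLength R (Submodule.torsion' R (R ⧸ J.map ψ)
          (Submonoid.powers xs[i])) := by
        rw [← Module.length_ne_top_iff, hJmap]
        exact ne_top_of_le_ne_top (ENat.natCast_ne_top C) (hC _)
      have h2 := length_Gm_tw ψ J xs[i] u hu hy hfinL
      rw [← hq] at h2
      rw [h1, hJmap] at h2
      exact h2.symm
    choose e hstable using hstable
    -- a common exponent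
    let E : ℕ := (Finset.univ : Finset (Fin xs.length)).sup (fun i => e i.1 i.2)
    have hE : ∀ (i : ℕ) (hi : i < xs.length), e i hi ≤ E := fun i hi =>
      Finset.le_sup (f := fun i : Fin xs.length => e i.1 i.2) (Finset.mem_univ ⟨i, hi⟩)
    let t : ℕ := u ^ E
    have ht : t ≠ 0 := pow_ne_zero _ (by omega)
    let rs : List R := xs.map (· ^ t)
    have hmem : ∀ x ∈ rs, x ∈ maximalIdeal R := by
      intro x hx
      obtain ⟨y, hy, rfl⟩ := List.mem_map.1 hx
      exact Ideal.pow_mem_of_mem _ (hxs y hy) _ (Nat.pos_of_ne_zero ht)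
    have hreg : IsWeaklyRegular (LinearMap.ker ρ) rs := by
      refine ⟨fun i hi => ?_⟩
      have hi' : i < xs.length := by simpa [rs] using hi
      have h1 := hstable i hi' E (hE i hi')
      have h2 : Subsingleton (Gm (Ideal.ofList ((xs.take i).map (· ^ t))) xs[i]
          (LinearMap.ker ρ)) := Module.length_eq_zero_iff.1 h1
      have h3 : rs.take i = (xs.take i).map (· ^ t) := by
        simp [rs, List.map_take]
      have h4 : rs[i] = xs[i] ^ t := by
        simp [rs]
      rw [h3, h4]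
      rw [isSMulRegular_iff_right_eq_zero_of_smul]
      intro z hz
      have h5 : z ∈ Gm (Ideal.ofList ((xs.take i).map (· ^ t))) xs[i] (LinearMap.ker ρ) :=
        ⟨⟨xs[i] ^ t, ⟨t, rfl⟩⟩, hz⟩
      have h6 : (⟨z, h5⟩ : Gm (Ideal.ofList ((xs.take i).map (· ^ t))) xs[i]
          (LinearMap.ker ρ)) = 0 := Subsingleton.elim _ _
      exact congrArg Subtype.val h6
    exact ⟨LinearMap.ker ρ, inferInstance, inferInstance, hfinU, hU, t, ht,
      IsRegular.of_isWeaklyRegular_of_mem_maximalIdeal _ hmem hreg⟩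
  · -- otherwise `R` is a field
    rw [not_nontrivial_iff_subsingleton] at hU
    have hm := maximalIdeal_eq_bot_of_subsingleton ψ hψ q hq ρ ι hU hρι
    have hfield : IsField R := IsLocalRing.isField_iff_maximalIdeal_eq.2 hm
    have hdim0 : ringKrullDim R = 0 := ringKrullDim_eq_zero_of_isField hfield
    have hxs0 : xs = [] := by
      rw [hdim0] at hdim
      exact List.eq_nil_of_length_eq_zero (by exact_mod_cast hdim)
    subst hxs0
    exact ⟨R, inferInstance, inferInstance, inferInstance, inferInstance, 1, one_ne_zero,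
      IsRegular.nil _ _⟩

/-- **Main theorem for endomorphisms.** -/
theorem exists_small_CM_of_endo
    (hfin : Module.Finite R (Tw ψ R))
    (φ : R →+ R) (hφ : ∀ r s, φ (ψ r * s) = r * φ s) (hφ1 : φ 1 = 1)
    (hψ : ∀ r ∈ maximalIdeal R, ψ r ∈ maximalIdeal R ^ 2)
    (u : ℕ) (hu : 1 ≤ u) (xs : List R) (hxs : ∀ x ∈ xs, x ∈ maximalIdeal R)
    (hψx : ∀ x ∈ xs, ψ x = x ^ u)
    (hdim : (xs.length : WithBot ℕ∞) = ringKrullDim R)
    (hflc : ∀ (i : ℕ) (hi : i < xs.length), ∃ C : ℕ, ∀ t : ℕ,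
      Module.length R (Submodule.torsion' R (R ⧸ Ideal.ofList ((xs.take i).map (· ^ t)))
        (Submonoid.powers xs[i])) ≤ C) :
    ∃ (M : Type u) (_ : AddCommGroup M) (_ : Module R M) (_ : Module.Finite R M)
      (_ : Nontrivial M) (rs : List R), IsRegular M rs ∧ (∀ x ∈ rs, x ∈ maximalIdeal R) ∧
        (rs.length : WithBot ℕ∞) = ringKrullDim R := by
  obtain ⟨M, i1, i2, i3, i4, t, ht, h⟩ :=
    exists_small_CM_of_endo' ψ hfin φ hφ hφ1 hψ u hu xs hxs hψx hdim hflc
  refine ⟨M, i1, i2, i3, i4, xs.map (· ^ t), h, ?_, ?_⟩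
  · intro x hx
    obtain ⟨y, hy, rfl⟩ := List.mem_map.1 hx
    exact Ideal.pow_mem_of_mem _ (hxs y hy) _ (Nat.pos_of_ne_zero ht)
  · rw [List.length_map, hdim]

lemma finite_tw_of_finite (hψ : ψ.Finite) : Module.Finite R (Tw ψ R) := by
  exact hψ

end main

section frobenius

variable {R : Type u} [CommRing R] [IsLocalRing R] [IsNoetherianRing R] (p : ℕ) [Fact p.Prime]
  [CharP R p]

/-- **F-split rings with finite local cohomology have small Cohen-Macaulay modules**, with the
regular sequence made explicit. -/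
theorem exists_small_CM_of_Fsplit'
    (hfin : (frobenius R p).Finite)
    (φ : R →+ R) (hφ : ∀ r s, φ (r ^ p * s) = r * φ s) (hφ1 : φ 1 = 1)
    (xs : List R) (hxs : ∀ x ∈ xs, x ∈ maximalIdeal R)
    (hdim : (xs.length : WithBot ℕ∞) = ringKrullDim R)
    (hflc : ∀ (i : ℕ) (hi : i < xs.length), ∃ C : ℕ, ∀ t : ℕ,
      Module.length R (Submodule.torsion' R (R ⧸ Ideal.ofList ((xs.take i).map (· ^ t)))
        (Submonoid.powers xs[i])) ≤ C) :
    ∃ (M : Type u) (_ : AddCommGroup M) (_ : Module R M) (_ : Module.Finite R M)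
      (_ : Nontrivial M) (t : ℕ), t ≠ 0 ∧ IsRegular M (xs.map (· ^ t)) := by
  have hp : 2 ≤ p := (Fact.out : p.Prime).two_le
  refine exists_small_CM_of_endo' (frobenius R p) (finite_tw_of_finite _ hfin) φ ?_ hφ1 ?_ p
    (by omega) xs hxs ?_ hdim hflc
  · intro r s
    rw [frobenius_def]
    exact hφ r s
  · intro r hr
    rw [frobenius_def]
    exact Ideal.pow_mem_pow hr 2 |> fun h => by
      obtain ⟨c, rfl⟩ := Nat.exists_eq_add_of_le hp
      rw [pow_add]
      exact Ideal.mul_mem_right _ _ h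
  · intro x _
    exact frobenius_def p x

/-- **F-split rings with finite local cohomology have small Cohen-Macaulay modules.** -/
theorem exists_small_CM_of_Fsplit
    (hfin : (frobenius R p).Finite)
    (φ : R →+ R) (hφ : ∀ r s, φ (r ^ p * s) = r * φ s) (hφ1 : φ 1 = 1)
    (xs : List R) (hxs : ∀ x ∈ xs, x ∈ maximalIdeal R)
    (hdim : (xs.length : WithBot ℕ∞) = ringKrullDim R)
    (hflc : ∀ (i : ℕ) (hi : i < xs.length), ∃ C : ℕ, ∀ t : ℕ,
      Module.length R (Submodule.torsion' R (R ⧸ Ideal.ofList ((xs.take i).map (· ^ t)))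
        (Submonoid.powers xs[i])) ≤ C) :
    ∃ (M : Type u) (_ : AddCommGroup M) (_ : Module R M) (_ : Module.Finite R M)
      (_ : Nontrivial M) (rs : List R), IsRegular M rs ∧ (∀ x ∈ rs, x ∈ maximalIdeal R) ∧
        (rs.length : WithBot ℕ∞) = ringKrullDim R := by
  have hp : 2 ≤ p := (Fact.out : p.Prime).two_le
  refine exists_small_CM_of_endo (frobenius R p) (finite_tw_of_finite _ hfin) φ ?_ hφ1 ?_ p
    (by omega) xs hxs ?_ hdim hflc
  · intro r s
    rw [frobenius_def]
    exact hφ r s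
  · intro r hr
    rw [frobenius_def]
    exact Ideal.pow_mem_pow hr 2 |> fun h => by
      obtain ⟨c, rfl⟩ := Nat.exists_eq_add_of_le hp
      rw [pow_add]
      exact Ideal.mul_mem_right _ _ h
  · intro x _
    exact frobenius_def p x

end frobenius

end Vale.Agent.Lib.P190
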