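import Vale.Agent.Lib.P190.Endo

/-!
Small Cohen-Macaulay modules without a Frobenius splitting: if the residue field is perfect, the
local cohomology has finite length and parameter ideals are Frobenius closed, then
`F_* R / R` is a small Cohen-Macaulay module.
-/

set_option linter.unusedSectionVars false

universe u

open IsLocalRing RingTheory.Sequence

namespace Vale.Agent.Lib.P190

section fclosed

variable {R : Type u} [CommRing R] [IsLocalRing R] (ψ : R →+* R)

/-- If `ψ` induces a surjection on the residue field, the restriction of scalars of the residue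
field along `ψ` is simple. -/
lemma length_tw_residue (hψ : ∀ r ∈ maximalIdeal R, ψ r ∈ maximalIdeal R)
    (hperf : ∀ a : R, ∃ b : R, a - ψ b ∈ maximalIdeal R) :
    Module.length R (Tw ψ (R ⧸ maximalIdeal R)) = 1 := by
  have hsimple : IsSimpleModule R (Tw ψ (R ⧸ maximalIdeal R)) := by
    rw [isSimpleModule_iff_toSpanSingleton_surjective]
    refine ⟨inferInstanceAs (Nontrivial (R ⧸ maximalIdeal R)), ?_⟩
    intro x hx y
    obtain ⟨a, ha⟩ := Submodule.Quotient.mk_surjective _ (ofTw ψ x)
    obtain ⟨c, hc⟩ := Submodule.Quotient.mk_surjective _ (ofTw ψ y)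
    have hx' : x = toTw ψ (Submodule.Quotient.mk a) := by
      rw [ha]; rfl
    have hy' : y = toTw ψ (Submodule.Quotient.mk c) := by
      rw [hc]; rfl
    have hane : a ∉ maximalIdeal R := by
      intro hm
      apply hx
      rw [hx']
      have h0 : (Submodule.Quotient.mk a : R ⧸ maximalIdeal R) = 0 :=
        (Submodule.Quotient.mk_eq_zero _).2 hm
      rw [h0]
      rfl
    have hunit : IsUnit a := by
      by_contra hnu
      exact hane hnu
    obtain ⟨a', ha'⟩ := hunit.exists_left_inv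
    obtain ⟨r, hr⟩ := hperf (c * a')
    refine ⟨r, ?_⟩
    rw [LinearMap.toSpanSingleton_apply, hx', hy', toTw_smul, ← Submodule.Quotient.mk_smul]
    congr 1
    rw [Submodule.Quotient.eq, smul_eq_mul]
    have h1 : ψ r * a - c = -((c * a' - ψ r) * a) := by
      have h2 : a' * a = 1 := ha'
      linear_combination c * h2
    rw [h1]
    exact Ideal.neg_mem_iff _ |>.2 (Ideal.mul_mem_right _ _ hr)
  exact Module.length_eq_one R _

/-- An injective map between modules of the same finite length is surjective. -/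
lemma surjective_of_injective_of_length_eq {A B : Type*} [AddCommGroup A] [Module R A]
    [AddCommGroup B] [Module R B] (f : A →ₗ[R] B) (hf : Function.Injective f)
    (hl : Module.length R A = Module.length R B) (htop : Module.length R B ≠ ⊤) :
    Function.Surjective f := by
  have h1 : Module.length R B = Module.length R A + Module.length R (B ⧸ LinearMap.range f) :=
    Module.length_eq_add_of_exact f (LinearMap.range f).mkQ hf (Submodule.mkQ_surjective _)
      (LinearMap.exact_map_mkQ_range f)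
  have h2 : Module.length R (B ⧸ LinearMap.range f) = 0 := by
    rw [hl] at h1
    have h3 : Module.length R B + 0 = Module.length R B + Module.length R (B ⧸ LinearMap.range f) := by
      rw [add_zero]
      exact h1
    exact (ENat.add_right_injective_of_ne_top htop h3).symm
  have h4 : Subsingleton (B ⧸ LinearMap.range f) := Module.length_eq_zero_iff.1 h2
  intro b
  have h5 : (Submodule.Quotient.mk b : B ⧸ LinearMap.range f) = 0 := Subsingleton.elim _ _
  rw [Submodule.Quotient.mk_eq_zero] at h5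
  exact h5

variable (J : Ideal R) (y : R)

/-- The Frobenius type map `R / J → R / ψ(J)R`, linear into the restriction of scalars. -/
noncomputable def powMap : (R ⧸ J) →ₗ[R] Tw ψ (R ⧸ J.map ψ) :=
  Submodule.liftQ J
    { toFun := fun r => toTw ψ (Submodule.Quotient.mk (ψ r))
      map_add' := by
        intro a b
        simp only [map_add, Submodule.Quotient.mk_add]
      map_smul' := by
        intro s a
        simp only [smul_eq_mul, map_mul, RingHom.id_apply]
        rw [toTw_smul, ← Submodule.Quotient.mk_smul, smul_eq_mul] } (by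
    intro r hr
    rw [LinearMap.mem_ker]
    change toTw ψ (Submodule.Quotient.mk (ψ r)) = 0
    have h0 : (Submodule.Quotient.mk (ψ r) : R ⧸ J.map ψ) = 0 :=
      (Submodule.Quotient.mk_eq_zero _).2 (Ideal.mem_map_of_mem _ hr)
    rw [h0]
    rfl)

@[simp] lemma powMap_mk (r : R) :
    powMap ψ J (Submodule.Quotient.mk r) = toTw ψ (Submodule.Quotient.mk (ψ r)) := rfl

/-- The map induced on the torsion. -/
noncomputable def powTorsion :
    Submodule.torsion' R (R ⧸ J) (Submonoid.powers y) →ₗ[R]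
      Submodule.torsion' R (Tw ψ (R ⧸ J.map ψ)) (Submonoid.powers y) :=
  (powMap ψ J).restrict (fun z hz => by
    obtain ⟨a, ha⟩ := hz
    refine ⟨a, ?_⟩
    have h1 : (a : R) • z = 0 := ha
    change (a : R) • powMap ψ J z = 0
    rw [← map_smul, h1, map_zero])

lemma powTorsion_injective (hcl : ∀ r, ψ r ∈ J.map ψ → r ∈ J) :
    Function.Injective (powTorsion ψ J y) := by
  rw [← LinearMap.ker_eq_bot, LinearMap.ker_eq_bot']
  rintro ⟨z, hz⟩ h
  have h1 : powMap ψ J z = 0 := congrArg Subtype.val h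
  obtain ⟨r, rfl⟩ := Submodule.Quotient.mk_surjective _ z
  have h2 : (Submodule.Quotient.mk (ψ r) : R ⧸ J.map ψ) = 0 :=
    (toTw ψ).injective (by rw [map_zero]; exact h1)
  have h3 : r ∈ J := hcl r ((Submodule.Quotient.mk_eq_zero _).1 h2)
  apply Subtype.ext
  exact (Submodule.Quotient.mk_eq_zero _).2 h3

/-- The comparison of lengths of torsion modules: the length does not decrease. -/
lemma length_torsion_le (hψ : ∀ r ∈ maximalIdeal R, ψ r ∈ maximalIdeal R)
    (hperf : ∀ a : R, ∃ b : R, a - ψ b ∈ maximalIdeal R)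
    (u : ℕ) (hu : 1 ≤ u) (hy : ψ y = y ^ u)
    (hfin : IsFiniteLength R (Submodule.torsion' R (R ⧸ J.map ψ) (Submonoid.powers y)))
    (hcl : ∀ r, ψ r ∈ J.map ψ → r ∈ J) :
    Module.length R (Submodule.torsion' R (R ⧸ J) (Submonoid.powers y)) ≤
      Module.length R (Submodule.torsion' R (R ⧸ J.map ψ) (Submonoid.powers y)) := by
  have h1 := Module.length_le_of_injective (powTorsion ψ J y) (powTorsion_injective ψ J y hcl)
  rw [length_torsion_tw ψ y u hu hy, length_tw ψ hfin, length_tw_residue ψ hψ hperf, one_mul] at h1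
  exact h1

/-- At a stable level the Frobenius type map on torsion is onto. -/
lemma exists_pow_of_torsion (hψ : ∀ r ∈ maximalIdeal R, ψ r ∈ maximalIdeal R)
    (hperf : ∀ a : R, ∃ b : R, a - ψ b ∈ maximalIdeal R)
    (u : ℕ) (hu : 1 ≤ u) (hy : ψ y = y ^ u)
    (hfin : IsFiniteLength R (Submodule.torsion' R (R ⧸ J.map ψ) (Submonoid.powers y)))
    (hcl : ∀ r, ψ r ∈ J.map ψ → r ∈ J)
    (hl : Module.length R (Submodule.torsion' R (R ⧸ J.map ψ) (Submonoid.powers y)) =
      Module.length R (Submodule.torsion' R (R ⧸ J) (Submonoid.powers y)))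
    (v : R) (N : ℕ) (hv : y ^ N * v ∈ J.map ψ) : ∃ w, v - ψ w ∈ J.map ψ := by
  have htop : Module.length R (Submodule.torsion' R (Tw ψ (R ⧸ J.map ψ)) (Submonoid.powers y)) ≠ ⊤ := by
    rw [length_torsion_tw ψ y u hu hy, length_tw ψ hfin, length_tw_residue ψ hψ hperf, one_mul]
    exact Module.length_ne_top_iff.2 hfin
  have hlen : Module.length R (Submodule.torsion' R (R ⧸ J) (Submonoid.powers y)) =
      Module.length R (Submodule.torsion' R (Tw ψ (R ⧸ J.map ψ)) (Submonoid.powers y)) := by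
    rw [length_torsion_tw ψ y u hu hy, length_tw ψ hfin, length_tw_residue ψ hψ hperf, one_mul, hl]
  have hsurj := surjective_of_injective_of_length_eq (powTorsion ψ J y)
    (powTorsion_injective ψ J y hcl) hlen htop
  have hmem : toTw ψ (Submodule.Quotient.mk v : R ⧸ J.map ψ) ∈
      Submodule.torsion' R (Tw ψ (R ⧸ J.map ψ)) (Submonoid.powers y) := by
    refine ⟨⟨y ^ N, ⟨N, rfl⟩⟩, ?_⟩
    change (y ^ N) • toTw ψ (Submodule.Quotient.mk v : R ⧸ J.map ψ) = 0
    rw [toTw_smul, ← Submodule.Quotient.mk_smul, smul_eq_mul, map_pow, hy, ← pow_mul]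
    have h2 : N ≤ u * N := Nat.le_mul_of_pos_left N hu
    obtain ⟨c, hc⟩ := Nat.exists_eq_add_of_le h2
    have h3 : (Submodule.Quotient.mk (y ^ (u * N) * v) : R ⧸ J.map ψ) = 0 := by
      rw [Submodule.Quotient.mk_eq_zero, hc, pow_add, mul_comm (y ^ N), mul_assoc]
      exact Ideal.mul_mem_left _ _ hv
    rw [h3]
    rfl
  obtain ⟨⟨z, hz⟩, hzv⟩ := hsurj ⟨_, hmem⟩
  obtain ⟨w, rfl⟩ := Submodule.Quotient.mk_surjective _ z
  refine ⟨w, ?_⟩
  have h4 : toTw ψ (Submodule.Quotient.mk (ψ w) : R ⧸ J.map ψ) =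
      toTw ψ (Submodule.Quotient.mk v : R ⧸ J.map ψ) := congrArg Subtype.val hzv
  have h5 : (Submodule.Quotient.mk (ψ w) : R ⧸ J.map ψ) = Submodule.Quotient.mk v :=
    (toTw ψ).injective h4
  have h6 := (Submodule.Quotient.eq _).1 h5
  have h7 : v - ψ w = -(ψ w - v) := by ring
  rw [h7]
  exact (Ideal.neg_mem_iff _).2 h6

/-- A monotone bounded sequence of extended naturals stabilizes. -/
lemma exists_stable_eq (a : ℕ → ℕ∞) (C : ℕ) (ha : ∀ e, a e ≤ C) (hm : ∀ e, a e ≤ a (e + 1)) :
    ∃ e₀, ∀ e, e₀ ≤ e → a (e + 1) = a e := by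
  have hne : ∀ e, a e ≠ ⊤ := fun e => ne_top_of_le_ne_top (ENat.natCast_ne_top C) (ha e)
  let b : ℕ → ℕ := fun e => (a e).toNat
  have hb : ∀ e, a e = (b e : ℕ∞) := fun e => (ENat.natCast_toNat (hne e)).symm
  have hbC : ∀ e, b e ≤ C := by
    intro e
    have := ha e
    rw [hb e] at this
    exact_mod_cast this
  have hmono : Monotone b := by
    apply monotone_nat_of_le_succ
    intro e
    have h1 := hm e
    rw [hb e, hb (e + 1)] at h1
    exact_mod_cast h1
  have hS : (Set.range b).Nonempty := ⟨b 0, 0, rfl⟩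
  have hbdd : BddAbove (Set.range b) := ⟨C, by rintro _ ⟨e, rfl⟩; exact hbC e⟩
  obtain ⟨e₀, he₀⟩ := Nat.sSup_mem hS hbdd
  refine ⟨e₀, fun e he => ?_⟩
  have h3 : b (e + 1) ≤ b e₀ := by
    rw [he₀]
    exact le_csSup hbdd ⟨_, rfl⟩
  have h4 : b e₀ ≤ b e := hmono he
  have h5 : b (e + 1) = b e := le_antisymm (h3.trans h4) (hmono (Nat.le_succ e))
  rw [hb (e + 1), hb e, h5]

/-- The quotient of the restriction of scalars of `R` by the image of `ψ`. -/
noncomputable abbrev imψ : Submodule R (Tw ψ R) :=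
  LinearMap.range (LinearMap.toSpanSingleton R (Tw ψ R) (toTw ψ (1 : R)))

lemma mem_imψ (x : Tw ψ R) : x ∈ imψ ψ ↔ ∃ r, ofTw ψ x = ψ r := by
  constructor
  · rintro ⟨r, rfl⟩
    refine ⟨r, ?_⟩
    rw [LinearMap.toSpanSingleton_apply, ofTw_smul, ofTw_toTw, smul_eq_mul, mul_one]
  · rintro ⟨r, hr⟩
    refine ⟨r, ?_⟩
    rw [LinearMap.toSpanSingleton_apply, toTw_smul, smul_eq_mul, mul_one, ← hr, toTw_ofTw]

/-- Regularity on the quotient `(Tw R / im ψ) / I (Tw R / im ψ)` from an elementwise statement. -/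
lemma isSMulRegular_quot (I : Ideal R) (y : R)
    (hP : ∀ z r b : R, b ∈ I.map ψ → ψ y * z = ψ r + b → ∃ r' b' : R, b' ∈ I.map ψ ∧ z = ψ r' + b') :
    IsSMulRegular ((Tw ψ R ⧸ imψ ψ) ⧸ (I • ⊤ : Submodule R (Tw ψ R ⧸ imψ ψ))) y := by
  have hmap : (I • ⊤ : Submodule R (Tw ψ R ⧸ imψ ψ)) =
      Submodule.map (imψ ψ).mkQ (I • ⊤ : Submodule R (Tw ψ R)) := by
    rw [Submodule.map_smul'', Submodule.map_top, Submodule.range_mkQ]
  rw [isSMulRegular_iff_right_eq_zero_of_smul]
  intro z hz
  obtain ⟨z1, rfl⟩ := Submodule.Quotient.mk_surjective _ z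
  obtain ⟨z0, rfl⟩ := Submodule.Quotient.mk_surjective _ z1
  rw [← Submodule.Quotient.mk_smul, Submodule.Quotient.mk_eq_zero, hmap, ← Submodule.Quotient.mk_smul] at hz
  obtain ⟨k, hk, hk2⟩ := hz
  have hk3 : (imψ ψ).mkQ k = Submodule.Quotient.mk (y • z0) := hk2
  have hk4 : y • z0 - k ∈ imψ ψ := by
    have h := (Submodule.Quotient.eq (imψ ψ)).1 hk3.symm
    exact h
  obtain ⟨r, hr⟩ := (mem_imψ ψ _).1 hk4
  have hb : ofTw ψ k ∈ I.map ψ := (mem_smul_top_tw ψ I k).1 hk
  have hrel : ψ y * ofTw ψ z0 = ψ r + ofTw ψ k := by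
    have h1 : ofTw ψ (y • z0 - k) = ψ y * ofTw ψ z0 - ofTw ψ k := by
      rw [map_sub, ofTw_smul, smul_eq_mul]
    rw [h1] at hr
    linear_combination hr
  obtain ⟨r', b', hb', hz'⟩ := hP _ _ _ hb hrel
  rw [Submodule.Quotient.mk_eq_zero, hmap]
  refine ⟨toTw ψ b', (mem_smul_top_tw ψ I _).2 (by simpa using hb'), ?_⟩
  have h2 : (imψ ψ).mkQ (toTw ψ b') = Submodule.Quotient.mk z0 := by
    change Submodule.Quotient.mk (toTw ψ b') = Submodule.Quotient.mk z0
    rw [Submodule.Quotient.eq]
    refine (mem_imψ ψ _).2 ⟨-r', ?_⟩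
    have h3 : ofTw ψ (toTw ψ b' - z0) = b' - ofTw ψ z0 := by
      rw [map_sub, ofTw_toTw]
    rw [h3, hz', map_neg]
    ring
  exact h2

variable [IsNoetherianRing R]

/-- **Small Cohen-Macaulay modules from Frobenius closed parameter ideals**, for an endomorphism
`ψ` with `ψ x = x ^ u` on the parameters, with the regular sequence made explicit. -/
theorem exists_small_CM_of_closed'
    (hfin : Module.Finite R (Tw ψ R))
    (hψ : ∀ r ∈ maximalIdeal R, ψ r ∈ maximalIdeal R ^ 2)
    (hperf : ∀ a : R, ∃ b : R, a - ψ b ∈ maximalIdeal R)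
    (u : ℕ) (hu : 1 ≤ u) (xs : List R) (hxs : ∀ x ∈ xs, x ∈ maximalIdeal R)
    (hψx : ∀ x ∈ xs, ψ x = x ^ u)
    (hdim : (xs.length : WithBot ℕ∞) = ringKrullDim R)
    (hcl : ∀ (t i : ℕ) (r : R), 1 ≤ t →
      ψ r ∈ Ideal.ofList ((xs.take i).map (· ^ (t * u))) →
        r ∈ Ideal.ofList ((xs.take i).map (· ^ t)))
    (hflc : ∀ (i : ℕ) (hi : i < xs.length), ∃ C : ℕ, ∀ t : ℕ,
      Module.length R (Submodule.torsion' R (R ⧸ Ideal.ofList ((xs.take i).map (· ^ t)))
        (Submonoid.powers xs[i])) ≤ C) :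
    ∃ (M : Type u) (_ : AddCommGroup M) (_ : Module R M) (_ : Module.Finite R M)
      (_ : Nontrivial M) (t : ℕ), t ≠ 0 ∧ IsRegular M (xs.map (· ^ t)) := by
  classical
  have hψ' : ∀ r ∈ maximalIdeal R, ψ r ∈ maximalIdeal R := fun r hr =>
    Ideal.pow_le_self two_ne_zero (hψ r hr)
  by_cases hnil : xs = []
  · subst hnil
    exact ⟨R, inferInstance, inferInstance, inferInstance, inferInstance, 1, one_ne_zero,
      IsRegular.nil _ _⟩
  -- the stable level
  have hstable : ∀ (i : ℕ) (hi : i < xs.length), ∃ e₀, ∀ e, e₀ ≤ e →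
      Module.length R (Submodule.torsion' R (R ⧸ Ideal.ofList ((xs.take i).map (· ^ (u ^ (e + 1)))))
        (Submonoid.powers xs[i])) =
      Module.length R (Submodule.torsion' R (R ⧸ Ideal.ofList ((xs.take i).map (· ^ (u ^ e))))
        (Submonoid.powers xs[i])) := by
    intro i hi
    obtain ⟨C, hC⟩ := hflc i hi
    refine exists_stable_eq _ C (fun e => hC _) ?_
    intro e
    have hy : ψ xs[i] = xs[i] ^ u := hψx _ (List.getElem_mem hi)
    set J := Ideal.ofList ((xs.take i).map (· ^ (u ^ e))) with hJ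
    have hJmap : J.map ψ = Ideal.ofList ((xs.take i).map (· ^ (u ^ (e + 1)))) := by
      rw [hJ, map_ofList_pow ψ u _ (fun x hx => hψx x (List.mem_of_mem_take hx)), pow_succ]
    have hfinL : IsFiniteLength R (Submodule.torsion' R (R ⧸ J.map ψ)
        (Submonoid.powers xs[i])) := by
      rw [← Module.length_ne_top_iff, hJmap]
      exact ne_top_of_le_ne_top (ENat.natCast_ne_top C) (hC _)
    have hclJ : ∀ r, ψ r ∈ J.map ψ → r ∈ J := by
      intro r hr
      rw [hJmap, pow_succ] at hr
      exact hcl (u ^ e) i r (Nat.one_le_pow _ _ hu) hr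
    have h1 := length_torsion_le ψ J xs[i] hψ' hperf u hu hy hfinL hclJ
    rw [hJmap] at h1
    exact h1
  choose e hstable using hstable
  let E : ℕ := (Finset.univ : Finset (Fin xs.length)).sup (fun i => e i.1 i.2)
  have hE : ∀ (i : ℕ) (hi : i < xs.length), e i hi ≤ E := fun i hi =>
    Finset.le_sup (f := fun i : Fin xs.length => e i.1 i.2) (Finset.mem_univ ⟨i, hi⟩)
  let t : ℕ := u ^ E
  have ht1 : 1 ≤ t := Nat.one_le_pow _ _ hu
  have ht : t ≠ 0 := by omega
  let rs : List R := xs.map (· ^ t)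
  have hmem : ∀ x ∈ rs, x ∈ maximalIdeal R := by
    intro x hx
    obtain ⟨y, hy, rfl⟩ := List.mem_map.1 hx
    exact Ideal.pow_mem_of_mem _ (hxs y hy) _ (Nat.pos_of_ne_zero ht)
  have hfinM : Module.Finite R (Tw ψ R ⧸ imψ ψ) := inferInstance
  -- nontriviality
  have hntM : Nontrivial (Tw ψ R ⧸ imψ ψ) := by
    by_contra hnt
    rw [not_nontrivial_iff_subsingleton] at hnt
    have hall : ∀ x : R, ∃ r, x = ψ r := by
      intro x
      have h0 : (Submodule.Quotient.mk (toTw ψ x) : Tw ψ R ⧸ imψ ψ) = 0 := Subsingleton.elim _ _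
      rw [Submodule.Quotient.mk_eq_zero] at h0
      obtain ⟨r, hr⟩ := (mem_imψ ψ _).1 h0
      exact ⟨r, hr⟩
    have hle : maximalIdeal R ≤ maximalIdeal R • maximalIdeal R := by
      intro x hx
      obtain ⟨r, rfl⟩ := hall x
      have hr : r ∈ maximalIdeal R := by
        by_contra hr
        have hunit : IsUnit r := by
          by_contra hnu
          exact hr hnu
        have : IsUnit (ψ r) := hunit.map ψ
        exact (mem_maximalIdeal _).1 hx this
      rw [smul_eq_mul, ← pow_two]
      exact hψ r hr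
    have hm : maximalIdeal R = ⊥ :=
      Submodule.eq_bot_of_le_smul_of_le_jacobson_bot _ _ (IsNoetherian.noetherian _) hle
        (IsLocalRing.maximalIdeal_le_jacobson _)
    have hfield : IsField R := IsLocalRing.isField_iff_maximalIdeal_eq.2 hm
    have hdim0 : ringKrullDim R = 0 := ringKrullDim_eq_zero_of_isField hfield
    rw [hdim0] at hdim
    exact hnil (List.eq_nil_of_length_eq_zero (by exact_mod_cast hdim))
  have hreg : IsWeaklyRegular (Tw ψ R ⧸ imψ ψ) rs := by
    refine ⟨fun i hi => ?_⟩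
    have hi' : i < xs.length := by simpa [rs] using hi
    have h3 : rs.take i = (xs.take i).map (· ^ t) := by
      simp [rs, List.map_take]
    have h4 : rs[i] = xs[i] ^ t := by
      simp [rs]
    rw [h3, h4]
    have hyx : ψ xs[i] = xs[i] ^ u := hψx _ (List.getElem_mem hi')
    set J := Ideal.ofList ((xs.take i).map (· ^ t)) with hJ
    have hJmap : J.map ψ = Ideal.ofList ((xs.take i).map (· ^ (t * u))) := by
      rw [hJ, map_ofList_pow ψ u _ (fun x hx => hψx x (List.mem_of_mem_take hx))]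
    apply isSMulRegular_quot
    intro z r b hb hrel
    -- the step with the closure hypothesis
    have htake : xs.take (i + 1) = xs.take i ++ [xs[i]] := by
      rw [List.take_succ_eq_append_getElem hi']
    have hJ1 : Ideal.ofList ((xs.take (i + 1)).map (· ^ t)) =
        J ⊔ Ideal.span {xs[i] ^ t} := by
      rw [htake, List.map_append, Ideal.ofList_append, hJ]
      simp [Ideal.ofList]
    have hJ2 : Ideal.ofList ((xs.take (i + 1)).map (· ^ (t * u))) =
        J.map ψ ⊔ Ideal.span {xs[i] ^ (t * u)} := by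
      rw [htake, List.map_append, Ideal.ofList_append, hJmap]
      simp [Ideal.ofList]
    have hψy : ψ (xs[i] ^ t) = xs[i] ^ (t * u) := by
      rw [map_pow, hyx, ← pow_mul, mul_comm u t]
    have hψr : ψ r ∈ Ideal.ofList ((xs.take (i + 1)).map (· ^ (t * u))) := by
      rw [hJ2]
      have h5 : ψ r = ψ (xs[i] ^ t) * z - b := by
        rw [hrel]; ring
      rw [h5, hψy]
      refine Ideal.sub_mem _ ?_ (Ideal.mem_sup_left hb)
      exact Ideal.mem_sup_right (Ideal.mul_mem_right _ _ (Ideal.mem_span_singleton_self _))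
    have hr1 := hcl t (i + 1) r ht1 hψr
    rw [hJ1, Submodule.mem_sup] at hr1
    obtain ⟨c, hc, d, hd, hcd⟩ := hr1
    obtain ⟨s, rfl⟩ := Ideal.mem_span_singleton'.1 hd
    -- the torsion element
    have hψc : ψ c ∈ J.map ψ := Ideal.mem_map_of_mem _ hc
    have hv : xs[i] ^ (t * u) * (z - ψ s) ∈ J.map ψ := by
      have h6 : xs[i] ^ (t * u) * (z - ψ s) = ψ c + b := by
        have h7 : ψ r = ψ s * ψ (xs[i] ^ t) + ψ c := by
          rw [← hcd, map_add, map_mul]; ring
        rw [← hψy]
        rw [hψy] at h7 ⊢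
        rw [hψy] at hrel
        rw [h7] at hrel
        linear_combination hrel
      rw [h6]
      exact Ideal.add_mem _ hψc hb
    have hfinL : IsFiniteLength R (Submodule.torsion' R (R ⧸ J.map ψ)
        (Submonoid.powers xs[i])) := by
      obtain ⟨C, hC⟩ := hflc i hi'
      rw [← Module.length_ne_top_iff, hJmap]
      exact ne_top_of_le_ne_top (ENat.natCast_ne_top C) (hC _)
    have hclJ : ∀ r, ψ r ∈ J.map ψ → r ∈ J := by
      intro r hr
      rw [hJmap] at hr
      exact hcl t i r ht1 hr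
    have hl : Module.length R (Submodule.torsion' R (R ⧸ J.map ψ) (Submonoid.powers xs[i])) =
        Module.length R (Submodule.torsion' R (R ⧸ J) (Submonoid.powers xs[i])) := by
      have h8 := hstable i hi' E (hE i hi')
      rw [hJmap, hJ]
      have h9 : t * u = u ^ (E + 1) := by
        simp only [t]
        rw [pow_succ]
      rw [h9]
      exact h8
    obtain ⟨w, hw⟩ := exists_pow_of_torsion ψ J xs[i] hψ' hperf u hu hyx hfinL hclJ hl
      (z - ψ s) (t * u) hv
    refine ⟨s + w, z - ψ s - ψ w, hw, ?_⟩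
    rw [map_add]
    ring
  exact ⟨Tw ψ R ⧸ imψ ψ, inferInstance, inferInstance, hfinM, hntM, t, ht,
    IsRegular.of_isWeaklyRegular_of_mem_maximalIdeal _ hmem hreg⟩

end fclosed

section frobenius

variable {R : Type u} [CommRing R] [IsLocalRing R] [IsNoetherianRing R] (p : ℕ) [Fact p.Prime]
  [CharP R p]

/-- **Frobenius closed parameter ideals, perfect residue field, finite local cohomology: small
Cohen-Macaulay modules**, with the regular sequence made explicit. The module is `F_* R / R`. -/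
theorem exists_small_CM_of_closed_frobenius'
    (hfin : (frobenius R p).Finite)
    (hperf : ∀ a : R, ∃ b : R, a - b ^ p ∈ maximalIdeal R)
    (xs : List R) (hxs : ∀ x ∈ xs, x ∈ maximalIdeal R)
    (hdim : (xs.length : WithBot ℕ∞) = ringKrullDim R)
    (hcl : ∀ (t i : ℕ) (r : R), 1 ≤ t →
      r ^ p ∈ Ideal.ofList ((xs.take i).map (· ^ (t * p))) →
        r ∈ Ideal.ofList ((xs.take i).map (· ^ t)))
    (hflc : ∀ (i : ℕ) (hi : i < xs.length), ∃ C : ℕ, ∀ t : ℕ,
      Module.length R (Submodule.torsion' R (R ⧸ Ideal.ofList ((xs.take i).map (· ^ t)))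
        (Submonoid.powers xs[i])) ≤ C) :
    ∃ (M : Type u) (_ : AddCommGroup M) (_ : Module R M) (_ : Module.Finite R M)
      (_ : Nontrivial M) (t : ℕ), t ≠ 0 ∧ IsRegular M (xs.map (· ^ t)) := by
  have hp : 2 ≤ p := (Fact.out : p.Prime).two_le
  refine exists_small_CM_of_closed' (frobenius R p) (finite_tw_of_finite _ hfin) ?_ ?_ p
    (by omega) xs hxs ?_ hdim ?_ hflc
  · intro r hr
    rw [frobenius_def]
    exact Ideal.pow_mem_pow hr 2 |> fun h => by
      obtain ⟨c, rfl⟩ := Nat.exists_eq_add_of_le hp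
      rw [pow_add]
      exact Ideal.mul_mem_right _ _ h
  · intro a
    obtain ⟨b, hb⟩ := hperf a
    exact ⟨b, by rwa [frobenius_def]⟩
  · intro x _
    exact frobenius_def p x
  · intro t i r ht hr
    rw [frobenius_def] at hr
    exact hcl t i r ht hr

end frobenius

end Vale.Agent.Lib.P190
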