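import Vale.Agent.Lib.P190.FClosed
import Vale.Agent.Lib.P190.CompleteZ

/-!
Complete normal domains of dimension three with perfect residue field whose parameter ideals are
Frobenius closed have small Cohen-Macaulay modules.  No hypothesis on local cohomology is needed.
-/

set_option linter.unusedSectionVars false

universe u

open IsLocalRing RingTheory.Sequence

namespace Vale.Agent.Lib.P190

section normal

variable {A R : Type u} [CommRing A] [IsDomain A] [IsLocalRing A] [IsNoetherianRing A]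
  [IsIntegrallyClosed A] [CommRing R] [IsDomain R] [IsLocalRing R] [IsNoetherianRing R]
  [IsIntegrallyClosed R] [Algebra A R] [Module.Finite A R] [FaithfulSMul A R]

/-- The closure hypothesis for all initial segments of the parameters, from the ideals of two and
three generators. -/
lemma closed_of_closed_two_three (x y z : R) (p : ℕ) [Fact p.Prime]
    (hcl2 : ∀ t : ℕ, 1 ≤ t → ∀ r : R, r ^ p ∈ Ideal.span {(x ^ t) ^ p, (y ^ t) ^ p} →
      r ∈ Ideal.span {x ^ t, y ^ t})
    (hcl3 : ∀ t : ℕ, 1 ≤ t → ∀ r : R, r ^ p ∈ Ideal.span {(x ^ t) ^ p, (y ^ t) ^ p, (z ^ t) ^ p} →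
      r ∈ Ideal.span {x ^ t, y ^ t, z ^ t})
    (t i : ℕ) (r : R) (ht : 1 ≤ t)
    (hr : r ^ p ∈ Ideal.ofList (([x, y, z].take i).map (· ^ (t * p)))) :
    r ∈ Ideal.ofList (([x, y, z].take i).map (· ^ t)) := by
  have hp0 : p ≠ 0 := (Fact.out : p.Prime).ne_zero
  obtain h0 | h1 | h2 | h3 : i = 0 ∨ i = 1 ∨ i = 2 ∨ 3 ≤ i := by omega
  · subst h0
    have h4 : r ^ p = 0 := by simpa using hr
    have h5 : r = 0 := pow_eq_zero_iff hp0 |>.1 h4
    simp [h5]
  · subst h1
    have e1 : Ideal.ofList (([x, y, z].take 1).map (· ^ (t * p))) =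
        Ideal.span {(x ^ t) ^ p} := by
      simp [← pow_mul]
    have e2 : Ideal.ofList (([x, y, z].take 1).map (· ^ t)) = Ideal.span {x ^ t} := by
      simp
    rw [e1, Ideal.mem_span_singleton] at hr
    rw [e2, Ideal.mem_span_singleton]
    exact (IsIntegrallyClosed.pow_dvd_pow_iff hp0).1 hr
  · subst h2
    have e1 : Ideal.ofList (([x, y, z].take 2).map (· ^ (t * p))) =
        Ideal.span {(x ^ t) ^ p, (y ^ t) ^ p} := by
      simp only [List.take_succ_cons, List.take_zero, List.map_cons, List.map_nil,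
        Ideal.ofList_cons, Ideal.ofList_nil, sup_bot_eq, ← pow_mul]
      rw [Ideal.span_insert]
    have e2 : Ideal.ofList (([x, y, z].take 2).map (· ^ t)) = Ideal.span {x ^ t, y ^ t} := by
      simp only [List.take_succ_cons, List.take_zero, List.map_cons, List.map_nil,
        Ideal.ofList_cons, Ideal.ofList_nil, sup_bot_eq]
      rw [Ideal.span_insert]
    rw [e1] at hr
    rw [e2]
    exact hcl2 t ht r hr
  · have e0 : [x, y, z].take i = [x, y, z] := List.take_of_length_le (by simpa using h3)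
    rw [e0] at hr ⊢
    have e1 : Ideal.ofList (([x, y, z]).map (· ^ (t * p))) =
        Ideal.span {(x ^ t) ^ p, (y ^ t) ^ p, (z ^ t) ^ p} := by
      simp only [List.map_cons, List.map_nil, Ideal.ofList_cons, Ideal.ofList_nil, sup_bot_eq,
        ← pow_mul]
      rw [Ideal.span_insert, Ideal.span_insert]
    have e2 : Ideal.ofList (([x, y, z]).map (· ^ t)) = Ideal.span {x ^ t, y ^ t, z ^ t} := by
      simp only [List.map_cons, List.map_nil, Ideal.ofList_cons, Ideal.ofList_nil, sup_bot_eq]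
      rw [Ideal.span_insert, Ideal.span_insert]
    rw [e1] at hr
    rw [e2]
    exact hcl3 t ht r hr

/-- **Small Cohen-Macaulay modules**: `R` normal, module-finite over a regular local ring of
dimension three, perfect residue field, Frobenius closure for the ideals of two and three powers
of the parameters. -/
theorem exists_small_CM_normal3_closed (a₁ a₂ a₃ : A) (hreg : IsRegular A [a₁, a₂, a₃])
    (hm : maximalIdeal A = Ideal.span {a₁, a₂, a₃}) (p : ℕ) [Fact p.Prime] [CharP R p]
    (hfin : (frobenius R p).Finite)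
    (hperf : ∀ a : R, ∃ b : R, a - b ^ p ∈ maximalIdeal R)
    (hcl2 : ∀ t : ℕ, 1 ≤ t → ∀ r : R,
      r ^ p ∈ Ideal.span {(algebraMap A R a₁ ^ t) ^ p, (algebraMap A R a₂ ^ t) ^ p} →
      r ∈ Ideal.span {algebraMap A R a₁ ^ t, algebraMap A R a₂ ^ t})
    (hcl3 : ∀ t : ℕ, 1 ≤ t → ∀ r : R,
      r ^ p ∈ Ideal.span {(algebraMap A R a₁ ^ t) ^ p, (algebraMap A R a₂ ^ t) ^ p,
        (algebraMap A R a₃ ^ t) ^ p} →
      r ∈ Ideal.span {algebraMap A R a₁ ^ t, algebraMap A R a₂ ^ t, algebraMap A R a₃ ^ t}) :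
    ∃ (M : Type u) (_ : AddCommGroup M) (_ : Module R M) (_ : Module.Finite R M)
      (_ : Nontrivial M) (t : ℕ), t ≠ 0 ∧
        IsRegular M ([algebraMap A R a₁, algebraMap A R a₂, algebraMap A R a₃].map (· ^ t)) := by
  obtain ⟨h1, hb, h2, h3⟩ := regular_elementwise a₁ a₂ a₃ hreg
  obtain ⟨hm1, hm2, hm3⟩ := mem_maximalIdeal_of_eq a₁ a₂ a₃ hm
  refine exists_small_CM_of_closed_frobenius' p hfin hperf
    [algebraMap A R a₁, algebraMap A R a₂, algebraMap A R a₃] ?_ ?_
    (closed_of_closed_two_three _ _ _ p hcl2 hcl3)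
    (hflc_normal3 a₁ a₂ a₃ hreg hm)
  · intro x hx
    simp only [List.mem_cons, List.not_mem_nil, or_false] at hx
    rcases hx with rfl | rfl | rfl
    · exact algebraMap_mem_maximalIdeal _ hm1
    · exact algebraMap_mem_maximalIdeal _ hm2
    · exact algebraMap_mem_maximalIdeal _ hm3
  · rw [ringKrullDim_eq_of_integral (A := A) (R := R), ringKrullDim_eq_three a₁ a₂ a₃ hm h1 h2 h3]
    rfl

/-- Powers of the parameters coming from `A` still form a system of parameters of `R`. -/
lemma le_radical_span_pow (a₁ a₂ a₃ : A) (hm : maximalIdeal A = Ideal.span {a₁, a₂, a₃}) (t : ℕ)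
    (ht : 1 ≤ t) :
    maximalIdeal R ≤ (Ideal.span {algebraMap A R a₁ ^ t, algebraMap A R a₂ ^ t,
      algebraMap A R a₃ ^ t}).radical := by
  intro x hx
  rw [Ideal.radical_eq_sInf, Submodule.mem_sInf]
  rintro P ⟨hJP, hP⟩
  have hP' : Ideal.IsPrime (P : Ideal R) := hP
  have hmem : ∀ a : A, (algebraMap A R a ^ t) ∈ Ideal.span {algebraMap A R a₁ ^ t,
      algebraMap A R a₂ ^ t, algebraMap A R a₃ ^ t} → a ∈ Ideal.comap (algebraMap A R) (P : Ideal R) := by
    intro a ha
    exact hP'.mem_of_pow_mem t (hJP ha)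
  have h1 := hmem a₁ (Ideal.subset_span (by simp))
  have h2 := hmem a₂ (Ideal.subset_span (by simp))
  have h3 := hmem a₃ (Ideal.subset_span (by simp))
  have hle : maximalIdeal A ≤ Ideal.comap (algebraMap A R) (P : Ideal R) := by
    rw [hm, Ideal.span_le]
    rintro y (rfl | rfl | rfl)
    · exact h1
    · exact h2
    · exact h3
  have hcomap : Ideal.comap (algebraMap A R) (P : Ideal R) = maximalIdeal A := by
    refine ((IsLocalRing.maximalIdeal.isMaximal A).eq_of_le ?_ hle).symm
    exact Ideal.IsPrime.ne_top (Ideal.comap_isPrime _ _)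
  have hmax : Ideal.IsMaximal (P : Ideal R) := by
    have hcm : (Ideal.comap (algebraMap A R) (P : Ideal R)).IsMaximal := by
      rw [hcomap]
      exact IsLocalRing.maximalIdeal.isMaximal A
    exact Ideal.isMaximal_of_isIntegral_of_isMaximal_comap (R := A) (S := R) _ hcm
  rw [IsLocalRing.eq_maximalIdeal hmax]
  exact hx

end normal

section complete

/-- **Complete normal local domains of dimension three with perfect residue field and Frobenius
closed parameter ideals have small Cohen-Macaulay modules.** -/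
theorem exists_small_CM_complete_normal3_closed {R : Type u} [CommRing R] [IsDomain R]
    [IsLocalRing R] [IsNoetherianRing R] [IsAdicComplete (maximalIdeal R) R] [IsIntegrallyClosed R]
    (hdim : ringKrullDim R = 3) (p : ℕ) [Fact p.Prime] [CharP R p] (hfin : (frobenius R p).Finite)
    (hperf : ∀ a : R, ∃ b : R, a - b ^ p ∈ maximalIdeal R)
    (hcl2 : ∀ x y z : R, x ∈ maximalIdeal R → y ∈ maximalIdeal R → z ∈ maximalIdeal R →
      maximalIdeal R ≤ (Ideal.span {x, y, z}).radical →
      ∀ r : R, r ^ p ∈ Ideal.span {x ^ p, y ^ p} → r ∈ Ideal.span {x, y})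
    (hcl3 : ∀ x y z : R, x ∈ maximalIdeal R → y ∈ maximalIdeal R → z ∈ maximalIdeal R →
      maximalIdeal R ≤ (Ideal.span {x, y, z}).radical →
      ∀ r : R, r ^ p ∈ Ideal.span {x ^ p, y ^ p, z ^ p} → r ∈ Ideal.span {x, y, z}) :
    ∃ (M : Type u) (_ : AddCommGroup M) (_ : Module R M) (_ : Module.Finite R M)
      (_ : Nontrivial M) (rs : List R), IsRegular M rs ∧ (∀ x ∈ rs, x ∈ maximalIdeal R) ∧
        (rs.length : WithBot ℕ∞) = ringKrullDim R := by
  classical
  obtain ⟨Φ, hinj, hfinΦ⟩ := exists_structure hdim p hfin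
  let A := PS3 (ResidueField R)
  let _ : Algebra A R := Φ.toAlgebra
  have : Module.Finite A R := hfinΦ
  have : FaithfulSMul A R := (faithfulSMul_iff_algebraMap_injective A R).2 hinj
  let a₁ : A := MvPowerSeries.X 0
  let a₂ : A := MvPowerSeries.X 1
  let a₃ : A := MvPowerSeries.X 2
  have hreg : IsRegular A [a₁, a₂, a₃] := isRegular_PS3 _
  have hm : maximalIdeal A = Ideal.span {a₁, a₂, a₃} := maximalIdeal_PS3 _
  obtain ⟨hm1, hm2, hm3⟩ := mem_maximalIdeal_of_eq a₁ a₂ a₃ hm
  have hm1' := algebraMap_mem_maximalIdeal (R := R) a₁ hm1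
  have hm2' := algebraMap_mem_maximalIdeal (R := R) a₂ hm2
  have hm3' := algebraMap_mem_maximalIdeal (R := R) a₃ hm3
  obtain ⟨M, i1, i2, i3, i4, t, ht, hM⟩ :=
    exists_small_CM_normal3_closed (A := A) (R := R) a₁ a₂ a₃ hreg hm p hfin hperf
      (fun t ht r hr => hcl2 _ _ _ (Ideal.pow_mem_of_mem _ hm1' _ (by omega))
        (Ideal.pow_mem_of_mem _ hm2' _ (by omega)) (Ideal.pow_mem_of_mem _ hm3' _ (by omega))
        (le_radical_span_pow a₁ a₂ a₃ hm t ht) r hr)
      (fun t ht r hr => hcl3 _ _ _ (Ideal.pow_mem_of_mem _ hm1' _ (by omega))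
        (Ideal.pow_mem_of_mem _ hm2' _ (by omega)) (Ideal.pow_mem_of_mem _ hm3' _ (by omega))
        (le_radical_span_pow a₁ a₂ a₃ hm t ht) r hr)
  refine ⟨M, i1, i2, i3, i4, _, hM, ?_, ?_⟩
  · intro x hx
    obtain ⟨y, hy, rfl⟩ := List.mem_map.1 hx
    refine Ideal.pow_mem_of_mem _ ?_ _ (Nat.pos_of_ne_zero ht)
    simp only [List.mem_cons, List.not_mem_nil, or_false] at hy
    rcases hy with rfl | rfl | rfl
    · exact hm1'
    · exact hm2'
    · exact hm3'
  · rw [hdim]
    simp

end complete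

end Vale.Agent.Lib.P190
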