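import Vale.Agent.Lib.P190.Split

/-!
The functor `W ↦` (`y`-power torsion of `W / J W`), additivity of its length, and its behaviour
under restriction of scalars.
-/

set_option linter.unusedSectionVars false

universe u v

open IsLocalRing

namespace Vale.Agent.Lib.P190

section G

variable {R : Type u} [CommRing R] (J : Ideal R) (y : R)
variable {A : Type*} {B : Type*} {C : Type*} [AddCommGroup A] [Module R A] [AddCommGroup B]
  [Module R B] [AddCommGroup C] [Module R C]

/-- The quotient `W / J W`. -/
abbrev QJ (W : Type*) [AddCommGroup W] [Module R W] : Type _ := W ⧸ (J • ⊤ : Submodule R W)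

/-- The `y`-power torsion of `W / J W`. -/
abbrev Gm (W : Type*) [AddCommGroup W] [Module R W] : Submodule R (QJ J W) :=
  Submodule.torsion' R (QJ J W) (Submonoid.powers y)

/-- The map induced on `W / J W`. -/
noncomputable def qMap (f : A →ₗ[R] B) : QJ J A →ₗ[R] QJ J B :=
  Submodule.mapQ _ _ f (by
    rw [← Submodule.map_le_iff_le_comap, Submodule.map_smul'']
    exact Submodule.smul_mono le_rfl le_top)

@[simp] lemma qMap_mk (f : A →ₗ[R] B) (a : A) :
    qMap J f (Submodule.Quotient.mk a) = Submodule.Quotient.mk (f a) := rfl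

lemma qMap_comp (f : A →ₗ[R] B) (g : B →ₗ[R] C) (z : QJ J A) :
    qMap J (g ∘ₗ f) z = qMap J g (qMap J f z) := by
  induction z using Submodule.Quotient.induction_on with
  | H a => rfl

lemma qMap_id (z : QJ J A) : qMap J (LinearMap.id : A →ₗ[R] A) z = z := by
  induction z using Submodule.Quotient.induction_on with
  | H a => rfl

lemma qMap_add (f g : A →ₗ[R] B) (z : QJ J A) :
    qMap J (f + g) z = qMap J f z + qMap J g z := by
  induction z using Submodule.Quotient.induction_on with
  | H a => rfl

lemma qMap_zero (z : QJ J A) : qMap J (0 : A →ₗ[R] B) z = 0 := by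
  induction z using Submodule.Quotient.induction_on with
  | H a => simp

lemma qMap_mem_torsion (f : A →ₗ[R] B) (z : QJ J A) (hz : z ∈ Gm J y A) :
    qMap J f z ∈ Gm J y B := by
  obtain ⟨a, ha⟩ := hz
  refine ⟨a, ?_⟩
  have h1 : (a : R) • z = 0 := ha
  change (a : R) • qMap J f z = 0
  rw [← map_smul, h1, map_zero]

/-- The map induced on the torsion. -/
noncomputable def gMap (f : A →ₗ[R] B) : Gm J y A →ₗ[R] Gm J y B :=
  (qMap J f).restrict (fun z hz => qMap_mem_torsion J y f z hz)

@[simp] lemma gMap_coe (f : A →ₗ[R] B) (z : Gm J y A) :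
    (gMap J y f z : QJ J B) = qMap J f z := rfl

lemma gMap_comp (f : A →ₗ[R] B) (g : B →ₗ[R] C) (z : Gm J y A) :
    gMap J y (g ∘ₗ f) z = gMap J y g (gMap J y f z) :=
  Subtype.ext (qMap_comp J f g z)

lemma gMap_id (z : Gm J y A) : gMap J y (LinearMap.id : A →ₗ[R] A) z = z :=
  Subtype.ext (qMap_id J z.1)

lemma gMap_add (f g : A →ₗ[R] B) (z : Gm J y A) :
    gMap J y (f + g) z = gMap J y f z + gMap J y g z :=
  Subtype.ext (qMap_add J f g z)

lemma gMap_zero (z : Gm J y A) : gMap J y (0 : A →ₗ[R] B) z = 0 :=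
  Subtype.ext (qMap_zero J z.1)

/-- Length is additive along split decompositions. -/
theorem length_Gm_decomp {W : Type*} [AddCommGroup W] [Module R W]
    (f : A →ₗ[R] W) (g : W →ₗ[R] B) (f' : W →ₗ[R] A) (g' : B →ₗ[R] W)
    (h1 : f' ∘ₗ f = LinearMap.id) (h2 : g ∘ₗ g' = LinearMap.id) (h3 : g ∘ₗ f = 0)
    (h4 : f ∘ₗ f' + g' ∘ₗ g = LinearMap.id) :
    Module.length R (Gm J y W) = Module.length R (Gm J y A) + Module.length R (Gm J y B) := by
  apply Module.length_eq_add_of_exact (gMap J y f) (gMap J y g)
  · intro a b hab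
    have h5 : ∀ z : Gm J y A, gMap J y f' (gMap J y f z) = z := by
      intro z
      rw [← gMap_comp, h1, gMap_id]
    rw [← h5 a, ← h5 b, hab]
  · intro b
    refine ⟨gMap J y g' b, ?_⟩
    rw [← gMap_comp, h2, gMap_id]
  · intro z
    constructor
    · intro hz
      refine ⟨gMap J y f' z, ?_⟩
      have h6 : z = gMap J y (f ∘ₗ f' + g' ∘ₗ g) z := by
        rw [h4, gMap_id]
      rw [gMap_add, gMap_comp, gMap_comp, hz, map_zero, add_zero] at h6
      exact h6.symm
    · rintro ⟨a, rfl⟩
      rw [← gMap_comp, h3, gMap_zero]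

/-- Length of the torsion on a retract. -/
theorem length_Gm_retract {W V : Type*} [AddCommGroup W] [Module R W] [AddCommGroup V] [Module R V]
    (ρ : W →ₗ[R] V) (ι : V →ₗ[R] W) (h : ρ ∘ₗ ι = LinearMap.id) :
    Module.length R (Gm J y W) =
      Module.length R (Gm J y (LinearMap.ker ρ)) + Module.length R (Gm J y V) := by
  have hρι : ∀ v, ρ (ι v) = v := fun v => LinearMap.congr_fun h v
  let e : W →ₗ[R] LinearMap.ker ρ :=
    LinearMap.codRestrict _ (LinearMap.id - ι ∘ₗ ρ) (by
      intro x
      simp [LinearMap.mem_ker, hρι])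
  refine length_Gm_decomp J y (LinearMap.ker ρ).subtype ρ e ι ?_ h ?_ ?_
  · apply LinearMap.ext
    intro x
    apply Subtype.ext
    have hx : ρ x.1 = 0 := x.2
    simp [e, hx]
  · apply LinearMap.ext
    intro x
    exact x.2
  · apply LinearMap.ext
    intro x
    simp [e]

/-- Length of the torsion is invariant under isomorphism. -/
theorem length_Gm_congr (e : A ≃ₗ[R] B) :
    Module.length R (Gm J y A) = Module.length R (Gm J y B) := by
  refine (LinearEquiv.ofLinearMap (gMap J y e.toLinearMap) (gMap J y e.symm.toLinearMap) ?_ ?_).length_eq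
  · apply LinearMap.ext
    intro z
    simp only [LinearMap.comp_apply, LinearMap.id_apply]
    rw [← gMap_comp]
    convert gMap_id J y z
    ext
    simp
  · apply LinearMap.ext
    intro z
    simp only [LinearMap.comp_apply, LinearMap.id_apply]
    rw [← gMap_comp]
    convert gMap_id J y z
    ext
    simp

/-- Length of the torsion on a free module. -/
theorem length_Gm_pi (n : ℕ) :
    Module.length R (Gm J y (Fin n → R)) = n * Module.length R (Gm J y R) := by
  induction n with
  | zero =>
    have : Subsingleton (Gm J y (Fin 0 → R)) := inferInstance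
    simp
  | succ n ih =>
    let f : R →ₗ[R] (Fin (n + 1) → R) := LinearMap.pi (Fin.cases LinearMap.id (fun _ => 0))
    let g : (Fin (n + 1) → R) →ₗ[R] (Fin n → R) := LinearMap.funLeft R R Fin.succ
    let f' : (Fin (n + 1) → R) →ₗ[R] R := LinearMap.proj 0
    let g' : (Fin n → R) →ₗ[R] (Fin (n + 1) → R) :=
      LinearMap.pi (Fin.cases 0 (fun j => LinearMap.proj j))
    have h := length_Gm_decomp J y f g f' g' ?_ ?_ ?_ ?_
    · rw [h, ih]
      push_cast
      rw [add_mul, one_mul, add_comm]
    · apply LinearMap.ext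
      intro x
      simp [f, f']
    · apply LinearMap.ext
      intro v
      funext j
      simp [g, g', LinearMap.funLeft_apply]
    · apply LinearMap.ext
      intro x
      funext j
      simp [f, g, LinearMap.funLeft_apply]
    · apply LinearMap.ext
      intro v
      funext j
      refine Fin.cases ?_ (fun j => ?_) j
      · simp [f, f', g, g']
      · simp [f, f', g, g', LinearMap.funLeft_apply]

/-- Torsion lengths agree along an isomorphism. -/
theorem length_torsion_congr {S : Type*} [CommMonoid S] [DistribMulAction S A] [DistribMulAction S B]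
    [SMulCommClass S R A] [SMulCommClass S R B]
    (e : A ≃ₗ[R] B) (he : ∀ (s : S) (a : A), e (s • a) = s • e a) :
    Module.length R (Submodule.torsion' R A S) = Module.length R (Submodule.torsion' R B S) := by
  have h : Submodule.map (e : A →ₗ[R] B) (Submodule.torsion' R A S) = Submodule.torsion' R B S := by
    ext b
    constructor
    · rintro ⟨a, ⟨s, hs⟩, rfl⟩
      refine ⟨s, ?_⟩
      change s • e a = 0
      rw [← he, hs, map_zero]
    · rintro ⟨s, hs⟩
      refine ⟨e.symm b, ⟨s, ?_⟩, by simp⟩
      apply e.injective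
      rw [he, map_zero]
      simpa using hs
  rw [← h]
  exact (e.submoduleMap _).length_eq

/-- `R / J R` is `R / J`. -/
theorem length_Gm_self :
    Module.length R (Gm J y R) =
      Module.length R (Submodule.torsion' R (R ⧸ J) (Submonoid.powers y)) := by
  have h : (J • ⊤ : Submodule R R) = J := by
    rw [smul_eq_mul, Ideal.mul_top]
  exact length_torsion_congr (Submodule.quotEquivOfEq _ _ h) (fun s a => by
    induction a using Submodule.Quotient.induction_on with
    | H a => rfl)

end G

section twist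

variable {R : Type u} [CommRing R] (ψ : R →+* R) (J : Ideal R) (y : R)

lemma mem_smul_top_tw (x : Tw ψ R) :
    x ∈ (J • ⊤ : Submodule R (Tw ψ R)) ↔ ofTw ψ x ∈ J.map ψ := by
  constructor
  · intro hx
    refine Submodule.smul_induction_on hx ?_ ?_
    · intro j hj s _
      rw [ofTw_smul, smul_eq_mul]
      exact Ideal.mul_mem_right _ _ (Ideal.mem_map_of_mem _ hj)
    · intro a b ha hb
      rw [map_add]
      exact Ideal.add_mem _ ha hb
  · intro hx
    have key : ∀ z ∈ J.map ψ, toTw ψ z ∈ (J • ⊤ : Submodule R (Tw ψ R)) := by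
      intro z hz
      induction hz using Submodule.span_induction with
      | mem z hz =>
        obtain ⟨j, hj, rfl⟩ := hz
        have : toTw ψ (ψ j) = j • toTw ψ (1 : R) := by
          rw [toTw_smul, smul_eq_mul, mul_one]
        rw [this]
        exact Submodule.smul_mem_smul hj Submodule.mem_top
      | zero => simp
      | add a b _ _ ha hb =>
        rw [map_add]
        exact Submodule.add_mem _ ha hb
      | smul a z _ hz =>
        have h1 : toTw ψ (a • z) = twMap ψ (LinearMap.mulLeft R a) (toTw ψ z) := rfl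
        rw [h1]
        have h2 : Submodule.map (twMap ψ (LinearMap.mulLeft R a))
            (J • ⊤ : Submodule R (Tw ψ R)) ≤ (J • ⊤ : Submodule R (Tw ψ R)) := by
          rw [Submodule.map_smul'']
          exact Submodule.smul_mono le_rfl le_top
        exact h2 (Submodule.mem_map_of_mem hz)
    exact key _ hx

/-- The projection from the restriction of scalars of `R`. -/
noncomputable abbrev twQ : Tw ψ R →ₗ[R] Tw ψ (R ⧸ J.map ψ) :=
  twMap ψ (Submodule.mkQ (J.map ψ))

lemma ker_twQ : LinearMap.ker (twQ ψ J) = (J • ⊤ : Submodule R (Tw ψ R)) := by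
  ext x
  rw [mem_smul_top_tw, LinearMap.mem_ker]
  constructor
  · intro h
    have h1 : Submodule.Quotient.mk (p := J.map ψ) (ofTw ψ x) = 0 := h
    exact (Submodule.Quotient.mk_eq_zero _).1 h1
  · intro h
    have h1 : Submodule.Quotient.mk (p := J.map ψ) (ofTw ψ x) = 0 :=
      (Submodule.Quotient.mk_eq_zero _).2 h
    exact congrArg (toTw ψ) h1

/-- The isomorphism `(Tw R) / J (Tw R) = Tw (R / ψ(J) R)`. -/
noncomputable def twQEquiv : QJ J (Tw ψ R) ≃ₗ[R] Tw ψ (R ⧸ J.map ψ) :=
  (Submodule.quotEquivOfEq _ _ (ker_twQ ψ J).symm).trans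
    ((twQ ψ J).quotKerEquivOfSurjective (twMap_surjective ψ (Submodule.mkQ_surjective _)))

lemma twQEquiv_mk (x : Tw ψ R) :
    twQEquiv ψ J (Submodule.Quotient.mk x) = twQ ψ J x := rfl

variable {X : Type*} [AddCommGroup X] [Module R X]

/-- The torsion of a restriction of scalars is the restriction of scalars of the torsion. -/
lemma range_twMap_torsion (u : ℕ) (hu : 1 ≤ u) (hy : ψ y = y ^ u) :
    LinearMap.range (twMap ψ (Submodule.torsion' R X (Submonoid.powers y)).subtype) =
      Submodule.torsion' R (Tw ψ X) (Submonoid.powers y) := by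
  ext x
  constructor
  · rintro ⟨⟨z, ⟨a, ha⟩⟩, rfl⟩
    obtain ⟨k, hk⟩ := a.2
    have h1 : (y ^ k) • z = 0 := by
      have : (a : R) • z = 0 := ha
      rwa [← hk] at this
    refine ⟨⟨y ^ k, ⟨k, rfl⟩⟩, ?_⟩
    change (y ^ k) • (toTw ψ z) = 0
    rw [toTw_smul, map_pow, hy, ← pow_mul]
    have h2 : k ≤ u * k := Nat.le_mul_of_pos_left k hu
    obtain ⟨c, hc⟩ := Nat.exists_eq_add_of_le h2
    rw [hc, add_comm, pow_add, mul_smul, h1, smul_zero]
    rfl
  · rintro ⟨⟨a, ⟨k, hk⟩⟩, ha⟩
    have h1 : (a : R) • x = 0 := ha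
    have h2 : (y ^ k) • x = 0 := by
      have h3 : a = y ^ k := hk.symm
      rwa [h3] at h1
    have h3 : (y ^ (u * k)) • ofTw ψ x = 0 := by
      have h4 := congrArg (ofTw ψ) h2
      rw [ofTw_smul, map_pow, hy, ← pow_mul] at h4
      exact h4
    refine ⟨⟨ofTw ψ x, ⟨⟨y ^ (u * k), ⟨u * k, rfl⟩⟩, h3⟩⟩, rfl⟩

/-- Length of the torsion of a restriction of scalars. -/
theorem length_torsion_tw (u : ℕ) (hu : 1 ≤ u) (hy : ψ y = y ^ u) :
    Module.length R (Submodule.torsion' R (Tw ψ X) (Submonoid.powers y)) =
      Module.length R (Tw ψ (Submodule.torsion' R X (Submonoid.powers y))) := by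
  rw [← range_twMap_torsion ψ y u hu hy]
  exact (LinearEquiv.ofInjective _
    (twMap_injective ψ (Submodule.injective_subtype _))).length_eq.symm

/-- The key formula for the length of the torsion on the restriction of scalars of `R`. -/
theorem length_Gm_tw [IsLocalRing R] (u : ℕ) (hu : 1 ≤ u) (hy : ψ y = y ^ u)
    (hfin : IsFiniteLength R (Submodule.torsion' R (R ⧸ J.map ψ) (Submonoid.powers y))) :
    Module.length R (Gm J y (Tw ψ R)) =
      Module.length R (Tw ψ (R ⧸ maximalIdeal R)) *
        Module.length R (Submodule.torsion' R (R ⧸ J.map ψ) (Submonoid.powers y)) := by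
  rw [← length_tw ψ hfin, ← length_torsion_tw ψ y u hu hy]
  refine length_torsion_congr (twQEquiv ψ J) ?_
  intro s a
  exact map_smul (twQEquiv ψ J) (s : R) a

end twist

end Vale.Agent.Lib.P190
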