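import Vale.Agent.Lib.P190.Bridge

/-!
Main consequence of the cone construction: a small Cohen-Macaulay module over `R`.
-/

set_option linter.unusedSectionVars false

universe u

open CategoryTheory Abelian Matrix RingTheory.Sequence IsLocalRing
open scoped TensorProduct

namespace Vale.Agent.Lib.P190

section dim

variable {A R : Type u} [CommRing A] [CommRing R] [Algebra A R]

/-- Krull dimension is preserved by injective integral extensions. -/
theorem ringKrullDim_eq_of_integral [Algebra.IsIntegral A R] [FaithfulSMul A R] :
    ringKrullDim R = ringKrullDim A := by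
  apply le_antisymm
  · refine Order.krullDim_le_of_strictMono (PrimeSpectrum.comap (algebraMap A R)) ?_
    intro P Q hPQ
    exact Ideal.IsIntegral.comap_lt_comap (R := A) (A := R) hPQ
  · refine iSup_le fun l => ?_
    have hker : (⊥ : Ideal R).comap (algebraMap A R) ≤ (RelSeries.head l).asIdeal := by
      intro x hx
      have : algebraMap A R x = 0 := by simpa using hx
      have hx0 : x = 0 := FaithfulSMul.algebraMap_injective A R (by simpa using this)
      rw [hx0]
      exact Ideal.zero_mem _
    obtain ⟨P, -, hP, hover⟩ := Ideal.exists_ideal_over_prime_of_isIntegral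
      (RelSeries.head l).asIdeal (⊥ : Ideal R) hker
    have lo : P.LiesOver (RelSeries.head l).asIdeal := ⟨hover.symm⟩
    obtain ⟨L, hL, -, -⟩ := Ideal.exists_ltSeries_of_hasGoingUp l P
    rw [← hL]
    exact Order.LTSeries.length_le_krullDim L

end dim

section main

variable {A R : Type u} [CommRing A] [IsDomain A] [IsLocalRing A] [IsNoetherianRing A]
  [CommRing R] [IsLocalRing R] [Algebra A R] [Module.Finite A R] [FaithfulSMul A R]

/-- A nonzero module which is finite projective over `A` inherits a regular sequence of length
`dim R` from a maximal regular sequence of `A`. -/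
theorem regular_of_projective (as : List A) (has : IsRegular A as)
    (hlen : (as.length : WithBot ℕ∞) = ringKrullDim A)
    (M : Type u) [AddCommGroup M] [Module A M] [Module R M] [IsScalarTower A R M]
    [Module.Projective A M] [Module.Finite A M] [Nontrivial M] :
    ∃ rs : List R, IsRegular M rs ∧ (∀ x ∈ rs, x ∈ maximalIdeal R) ∧
        (rs.length : WithBot ℕ∞) = ringKrullDim R := by
  have hfinR : Module.Finite R M := Module.Finite.of_restrictScalars_finite A R M
  have hmem : ∀ x ∈ as, x ∈ maximalIdeal A := by
    intro x hx
    have h1 : Ideal.ofList as ≠ ⊤ := by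
      intro h
      apply has.top_ne_smul
      rw [h, Submodule.top_smul]
    exact le_maximalIdeal h1 (Ideal.subset_span hx)
  have hmem' : ∀ x ∈ as.map (algebraMap A R), x ∈ maximalIdeal R := by
    intro x hx
    obtain ⟨y, hy, rfl⟩ := List.mem_map.1 hx
    have h2 : y ∈ maximalIdeal A := hmem y hy
    rw [mem_maximalIdeal, mem_nonunits_iff] at h2 ⊢
    intro h3
    exact h2 (isUnit_of_map_unit (algebraMap A R) y h3)
  have hweak : IsWeaklyRegular M as := by
    have h1 : IsWeaklyRegular (M ⊗[A] A) as := has.toIsWeaklyRegular.isWeaklyRegular_lTensor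
    exact ((TensorProduct.rid A M).isWeaklyRegular_congr as).1 h1
  have hweak' : IsWeaklyRegular M (as.map (algebraMap A R)) :=
    (isWeaklyRegular_map_algebraMap_iff R M as).2 hweak
  refine ⟨as.map (algebraMap A R),
    IsRegular.of_isWeaklyRegular_of_mem_maximalIdeal M hmem' hweak', hmem', ?_⟩
  rw [List.length_map, hlen, ringKrullDim_eq_of_integral (A := A) (R := R)]

/-- **Cone theorem.** Let `R` be a local ring, module-finite over a subring `A` which is a
Cohen-Macaulay Noetherian local domain, with `pd_A R ≤ 1`, and assume `Ext¹_A(R, A)` is a cyclic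
`R`-module. Then `R` has a small Cohen-Macaulay module. -/
theorem exists_small_CM (as : List A) (has : IsRegular A as)
    (hlen : (as.length : WithBot ℕ∞) = ringKrullDim A)
    (hpd : HasProjectiveDimensionLT (ModuleCat.of A R) 2)
    (e : Ext (ModuleCat.of A R) (ModuleCat.of A A) 1)
    (hcyc : ∀ t : Ext (ModuleCat.of A R) (ModuleCat.of A A) 1, ∃ r : R,
      t = (Ext.mk₀ (mulHom r)).comp e (zero_add 1)) :
    ∃ (M : Type u) (_ : AddCommGroup M) (_ : Module R M) (_ : Module.Finite R M) (_ : Nontrivial M)
      (rs : List R), IsRegular M rs ∧ (∀ x ∈ rs, x ∈ maximalIdeal R) ∧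
        (rs.length : WithBot ℕ∞) = ringKrullDim R := by
  classical
  let K := FractionRing A
  obtain ⟨n, m, p, D, hp, hD, hker, hinj⟩ := exists_presentation (A := A) (R := R) hpd
  obtain ⟨g, hg⟩ := exists_g_of_ext_cyclic (R := R) K e hcyc
  obtain ⟨hproj, hfin⟩ := cone_projective_finite g p D hp hD hker hinj hg
  have hnt : Nontrivial (coneM g) :=
    cone_nontrivial g p D hp hD hker hinj (FaithfulSMul.algebraMap_injective A R)
  have hfinR : Module.Finite R (coneM g) := Module.Finite.of_restrictScalars_finite A R (coneM g)
  obtain ⟨rs, h1, h2, h3⟩ := regular_of_projective (R := R) as has hlen (coneM g)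
  exact ⟨coneM g, inferInstance, coneModule g, hfinR, hnt, rs, h1, h2, h3⟩

end main

end Vale.Agent.Lib.P190
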