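import Vale.Agent.Lib.P190.Main

/-!
Consequences of normality: associated primes of principal ideals have height at most one, going
down, and the resulting regular sequences.
-/

set_option linter.unusedSectionVars false

universe u

open IsLocalRing Submodule

namespace Vale.Agent.Lib.P190

section normal

variable {R : Type u} [CommRing R] [IsDomain R] [IsNoetherianRing R] [IsIntegrallyClosed R]

/-- In a normal domain, associated primes of a principal ideal are minimal over a principal ideal.
-/
lemma height_le_one_of_mem_associatedPrimes (u : R) (hu : u ≠ 0) (Q : Ideal R)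
    (hQ : Q ∈ associatedPrimes R (R ⧸ Ideal.span {u})) : Q.height ≤ 1 := by
  obtain ⟨hQp, z, hz⟩ := isAssociatedPrime_iff.1 hQ
  obtain ⟨b, rfl⟩ := Submodule.Quotient.mk_surjective _ z
  -- description of `Q`
  have hmem : ∀ q, q ∈ Q ↔ ∃ c, q * b = u * c := by
    intro q
    rw [hz, Submodule.mem_colon_singleton, Submodule.mem_bot]
    change Submodule.Quotient.mk (p := Ideal.span {u}) (q * b) = 0 ↔ _
    rw [Submodule.Quotient.mk_eq_zero, Ideal.mem_span_singleton']
    constructor
    · rintro ⟨c, hc⟩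
      exact ⟨c, by rw [← hc, mul_comm]⟩
    · rintro ⟨c, hc⟩
      exact ⟨c, by rw [hc, mul_comm]⟩
  have hbu : ¬ ∃ c, b = u * c := by
    rintro ⟨c, hc⟩
    have h1 : (1 : R) ∈ Q := (hmem 1).2 ⟨c, by rw [one_mul, hc]⟩
    exact hQp.ne_top ((Ideal.eq_top_iff_one _).2 h1)
  -- the key element
  obtain ⟨q, hq, c, hc, hcQ⟩ : ∃ q ∈ Q, ∃ c, q * b = u * c ∧ c ∉ Q := by
    by_contra hcon
    push Not at hcon
    let K := FractionRing R
    have hu' : algebraMap R K u ≠ 0 := by
      simpa using (IsFractionRing.injective R K).ne hu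
    let y : K := algebraMap R K b / algebraMap R K u
    let N : Submodule R K := Submodule.map (Algebra.linearMap R K) Q
    have hN : N ≠ ⊥ := by
      intro h
      have h1 : algebraMap R K u ∈ N :=
        Submodule.mem_map_of_mem (f := Algebra.linearMap R K) ((hmem u).2 ⟨b, rfl⟩)
      rw [h, Submodule.mem_bot] at h1
      exact hu' h1
    have hNfg : N.FG := Submodule.FG.map _ (IsNoetherian.noetherian Q)
    have hy : IsIntegral R y := by
      refine isIntegral_of_smul_mem_submodule (A := K) (M := K) N hN hNfg y ?_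
      rintro _ ⟨q', hq'', rfl⟩
      obtain ⟨c', hc'⟩ := (hmem q').1 hq''
      have hc'Q : c' ∈ Q := hcon q' hq'' c' hc'
      refine ⟨c', hc'Q, ?_⟩
      change algebraMap R K c' = y • algebraMap R K q'
      rw [smul_eq_mul]
      simp only [y]
      rw [div_mul_eq_mul_div, eq_div_iff hu', ← map_mul, ← map_mul, mul_comm c' u, ← hc', mul_comm]
    obtain ⟨r, hr⟩ := IsIntegrallyClosed.isIntegral_iff.1 hy
    apply hbu
    refine ⟨r, ?_⟩
    apply IsFractionRing.injective R K
    rw [map_mul, hr]
    simp only [y]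
    rw [mul_div_cancel₀ _ hu']
  -- `Q` is minimal over `q`
  have hmin : Q ∈ (Ideal.span {q}).minimalPrimes := by
    refine ⟨⟨hQp, by simpa [Ideal.span_le] using hq⟩, ?_⟩
    rintro Q' ⟨hQ'p, hqQ'⟩ hQ'Q
    intro q' hq'
    obtain ⟨c', hc'⟩ := (hmem q').1 hq'
    have h1 : c * q' = q * c' := by
      apply mul_left_cancel₀ hu
      calc u * (c * q') = (q * b) * q' := by rw [hc]; ring
        _ = q * (q' * b) := by ring
        _ = u * (q * c') := by rw [hc']; ring
    have h2 : c * q' ∈ Q' := by
      rw [h1]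
      exact Ideal.mul_mem_right _ _ (hqQ' (Ideal.mem_span_singleton_self q))
    rcases hQ'p.mem_or_mem h2 with h3 | h3
    · exact absurd (hQ'Q h3) hcQ
    · exact h3
  exact Ideal.height_le_one_of_isPrincipal_of_mem_minimalPrimes _ _ hmin

end normal

section goingDown

variable {A R : Type u} [CommRing A] [IsDomain A] [IsNoetherianRing A] [IsIntegrallyClosed A]
  [CommRing R] [IsDomain R] [IsNoetherianRing R] [IsIntegrallyClosed R] [Algebra A R]
  [Module.Finite A R] [FaithfulSMul A R]

/-- Contractions of associated primes of principal ideals have no nonzero proper subprimes. -/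
lemma eq_bot_of_lt_comap (u : R) (hu : u ≠ 0) (Q : Ideal R)
    (hQ : Q ∈ associatedPrimes R (R ⧸ Ideal.span {u})) (P : Ideal A) [P.IsPrime]
    (hP : P < Q.comap (algebraMap A R)) : P = ⊥ := by
  by_contra hne
  have hQp : Q.IsPrime := hQ.isPrime
  have lo : (Q.comap (algebraMap A R)).IsPrime := Ideal.comap_isPrime _ _
  have hlies : Q.LiesOver (Q.comap (algebraMap A R)) := ⟨rfl⟩
  obtain ⟨Q₁, hQ₁, hQ₁p, hQ₁l⟩ := Ideal.exists_ideal_lt_liesOver_of_lt Q hP
  have hQ₁ne : Q₁ ≠ ⊥ := by
    rintro rfl
    obtain ⟨a, ha, ha0⟩ := Submodule.exists_mem_ne_zero_of_ne_bot hne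
    have h1 : a ∈ (⊥ : Ideal R).comap (algebraMap A R) := by
      have h0 : P = (⊥ : Ideal R).comap (algebraMap A R) := hQ₁l.over
      rw [← h0]
      exact ha
    have h2 : algebraMap A R a = 0 := by simpa using h1
    exact ha0 (FaithfulSMul.algebraMap_injective A R (by simpa using h2))
  have h1 : (⊥ : Ideal R).height < Q₁.height := by
    have : (⊥ : Ideal R).IsPrime := Ideal.isPrime_bot
    exact Ideal.height_strict_mono_of_isPrime (bot_lt_iff_ne_bot.2 hQ₁ne)
  have h2 : Q₁.height < Q.height := Ideal.height_strict_mono_of_isPrime hQ₁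
  have h3 := height_le_one_of_mem_associatedPrimes u hu Q hQ
  have h4 : (1 : ℕ∞) ≤ Q₁.height := by
    have := Order.add_one_le_of_lt h1
    simpa using this
  have h5 : (2 : ℕ∞) ≤ Q.height := by
    have := Order.add_one_le_of_lt h2
    have h6 : (1 : ℕ∞) + 1 ≤ Q₁.height + 1 := by gcongr
    have h7 : (2 : ℕ∞) = 1 + 1 := by norm_num
    rw [h7]
    exact h6.trans this
  have h8 : (2 : ℕ∞) ≤ 1 := h5.trans h3
  exact absurd h8 (by norm_num)

/-- If `y` avoids the minimal primes of `(x)` in `A`, then it is a nonzerodivisor modulo `x ^ i` in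
`R`. -/
lemma regular_mod_pow (x y : A) (hx : x ≠ 0)
    (hy : ∀ P ∈ (Ideal.span {x}).minimalPrimes, y ∉ P) (i : ℕ) (z : R)
    (hz : algebraMap A R y * z ∈ Ideal.span {algebraMap A R x ^ i}) :
    z ∈ Ideal.span {algebraMap A R x ^ i} := by
  rcases Nat.eq_zero_or_pos i with rfl | hi
  · simp
  have hxR : algebraMap A R x ≠ 0 := by
    intro h
    exact hx (FaithfulSMul.algebraMap_injective A R (by simpa using h))
  have hu : algebraMap A R x ^ i ≠ 0 := pow_ne_zero _ hxR
  by_contra hzn
  -- `y` lies in an associated prime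
  have h1 : algebraMap A R y ∈ ⋃ p ∈ associatedPrimes R (R ⧸ Ideal.span {algebraMap A R x ^ i}), p := by
    rw [biUnion_associatedPrimes_eq_zero_divisors]
    refine ⟨Submodule.Quotient.mk z, ?_, ?_⟩
    · rwa [Ne, Submodule.Quotient.mk_eq_zero]
    · rw [← Submodule.Quotient.mk_smul, Submodule.Quotient.mk_eq_zero]
      exact hz
  simp only [Set.mem_iUnion, SetLike.mem_coe, exists_prop] at h1
  obtain ⟨Q, hQ, hyQ⟩ := h1
  have hQp : Q.IsPrime := hQ.isPrime
  -- the contraction contains `x`
  have hxQ : x ∈ Q.comap (algebraMap A R) := by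
    have h2 : algebraMap A R x ^ i ∈ Q := by
      obtain ⟨hQ1, w, hw⟩ := isAssociatedPrime_iff.1 hQ
      rw [hw, Submodule.mem_colon_singleton, Submodule.mem_bot]
      induction w using Submodule.Quotient.induction_on with
      | H w =>
        rw [← Submodule.Quotient.mk_smul, Submodule.Quotient.mk_eq_zero]
        exact Ideal.mul_mem_right _ _ (Ideal.mem_span_singleton_self _)
    exact hQp.mem_of_pow_mem _ h2
  have hcp : (Q.comap (algebraMap A R)).IsPrime := Ideal.comap_isPrime _ _
  obtain ⟨P, hP, hPle⟩ := Ideal.exists_minimalPrimes_le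
    (I := Ideal.span {x}) (J := Q.comap (algebraMap A R)) (by simpa [Ideal.span_le] using hxQ)
  have hPp : P.IsPrime := hP.isPrime
  have hPne : P ≠ ⊥ := by
    rintro rfl
    have h3 : x ∈ (⊥ : Ideal A) := hP.1.2 (Ideal.mem_span_singleton_self x)
    exact hx (by simpa using h3)
  have hPeq : P = Q.comap (algebraMap A R) := by
    by_contra hne
    exact hPne (eq_bot_of_lt_comap _ hu Q hQ P (lt_of_le_of_ne hPle hne))
  have : y ∈ P := by
    rw [hPeq]
    exact hyQ
  exact hy P hP this

end goingDown

end Vale.Agent.Lib.P190
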