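import Vale.Agent.Lib.P190.Normal1

/-!
Elementary facts on regular sequences of length three in a domain.
-/

set_option linter.unusedSectionVars false

universe u

open IsLocalRing RingTheory.Sequence

namespace Vale.Agent.Lib.P190

section elem

variable {A : Type*} [CommRing A] [IsDomain A]

lemma mem_span_pow_of_mul (a b : A) (ha : a ≠ 0)
    (h2 : ∀ g, b * g ∈ Ideal.span {a} → g ∈ Ideal.span {a}) (t : ℕ) (g : A)
    (h : b * g ∈ Ideal.span {a ^ t}) : g ∈ Ideal.span {a ^ t} := by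
  induction t generalizing g with
  | zero => simp
  | succ t ih =>
    obtain ⟨k, hk⟩ := Ideal.mem_span_singleton'.1 h
    have h3 : b * g ∈ Ideal.span {a} :=
      Ideal.mem_span_singleton'.2 ⟨k * a ^ t, by rw [← hk]; ring⟩
    obtain ⟨g', rfl⟩ := Ideal.mem_span_singleton'.1 (h2 g h3)
    have h4 : b * g' = k * a ^ t := by
      apply mul_right_cancel₀ ha
      linear_combination -hk
    have h5 := ih g' (by rw [h4]; exact Ideal.mul_mem_left _ _ (Ideal.mem_span_singleton_self _))
    obtain ⟨m, rfl⟩ := Ideal.mem_span_singleton'.1 h5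
    exact Ideal.mem_span_singleton'.2 ⟨m, by ring⟩

lemma mem_span_pair_pow_of_mul (a b c : A) (ha : a ≠ 0)
    (h2 : ∀ g, b * g ∈ Ideal.span {a} → g ∈ Ideal.span {a})
    (h3 : ∀ g, c * g ∈ Ideal.span {a, b} → g ∈ Ideal.span {a, b}) (t : ℕ) (g : A)
    (h : c * g ∈ Ideal.span {a ^ t, b}) : g ∈ Ideal.span {a ^ t, b} := by
  induction t generalizing g with
  | zero =>
    rw [pow_zero]
    exact Ideal.mem_span_pair.2 ⟨g, 0, by ring⟩
  | succ t ih =>
    obtain ⟨h', k, hk⟩ := Ideal.mem_span_pair.1 h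
    have h4 : c * g ∈ Ideal.span {a, b} :=
      Ideal.mem_span_pair.2 ⟨h' * a ^ t, k, by rw [← hk]; ring⟩
    obtain ⟨g', g'', hg⟩ := Ideal.mem_span_pair.1 (h3 g h4)
    have h5 : b * (k - c * g'') ∈ Ideal.span {a} :=
      Ideal.mem_span_singleton'.2 ⟨c * g' - a ^ t * h', by
        linear_combination (-1 : A) * hk + c * hg⟩
    obtain ⟨m, hm⟩ := Ideal.mem_span_singleton'.1 (h2 _ h5)
    have h6 : c * g' = h' * a ^ t + m * b := by
      apply mul_right_cancel₀ ha
      linear_combination (-1 : A) * hk + c * hg - b * hm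
    have h7 := ih g' (Ideal.mem_span_pair.2 ⟨h', m, h6.symm⟩)
    obtain ⟨p, q, hpq⟩ := Ideal.mem_span_pair.1 h7
    exact Ideal.mem_span_pair.2 ⟨p, q * a + g'', by rw [← hg, ← hpq]; ring⟩

/-- Regularity of `c` modulo powers of `a, b`. -/
lemma regular_pair_pow (a b c : A) (ha : a ≠ 0) (hb : b ≠ 0)
    (h2 : ∀ g, b * g ∈ Ideal.span {a} → g ∈ Ideal.span {a})
    (h3 : ∀ g, c * g ∈ Ideal.span {a, b} → g ∈ Ideal.span {a, b}) (t s N : ℕ) (g : A)
    (h : c ^ N * g ∈ Ideal.span {a ^ t, b ^ s}) : g ∈ Ideal.span {a ^ t, b ^ s} := by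
  have h2t := mem_span_pow_of_mul a b ha h2 t
  have h3t := mem_span_pair_pow_of_mul a b c ha h2 h3 t
  have h2' : ∀ g, a ^ t * g ∈ Ideal.span {b} → g ∈ Ideal.span {b} := by
    intro g hg
    obtain ⟨k, hk⟩ := Ideal.mem_span_singleton'.1 hg
    have h5 : b * k ∈ Ideal.span {a ^ t} :=
      Ideal.mem_span_singleton'.2 ⟨g, by linear_combination -hk⟩
    obtain ⟨m, rfl⟩ := Ideal.mem_span_singleton'.1 (h2t k h5)
    refine Ideal.mem_span_singleton'.2 ⟨m, ?_⟩
    apply mul_left_cancel₀ (pow_ne_zero t ha)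
    linear_combination hk
  have h3' : ∀ g, c * g ∈ Ideal.span {b, a ^ t} → g ∈ Ideal.span {b, a ^ t} := by
    intro g hg
    rw [Set.pair_comm] at hg ⊢
    exact h3t g hg
  have h4 := mem_span_pair_pow_of_mul b (a ^ t) c hb h2' h3' s
  induction N generalizing g with
  | zero =>
    rw [pow_zero, one_mul] at h
    exact h
  | succ N ih =>
    apply ih
    rw [Set.pair_comm] at h ⊢
    apply h4
    rw [← mul_assoc, ← pow_succ']
    exact h

lemma exists_colon_of_minimal [IsNoetherianRing A] (I P : Ideal A) (hP : P ∈ I.minimalPrimes) :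
    ∃ s : A, ∀ f, s * f ∈ I ↔ f ∈ P := by
  have h1 : P ∈ associatedPrimes A (A ⧸ I) := by
    apply Module.associatedPrimes.minimalPrimes_annihilator_subset_associatedPrimes
    rwa [Ideal.annihilator_quotient]
  obtain ⟨hp, z, hz⟩ := isAssociatedPrime_iff.1 h1
  obtain ⟨s, rfl⟩ := Submodule.Quotient.mk_surjective _ z
  refine ⟨s, fun f => ?_⟩
  rw [hz, Submodule.mem_colon_singleton, Submodule.mem_bot]
  change _ ↔ Submodule.Quotient.mk (p := I) (f * s) = 0
  rw [Submodule.Quotient.mk_eq_zero, mul_comm]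

lemma not_mem_of_minimal [IsNoetherianRing A] (a b : A)
    (h2 : ∀ g, b * g ∈ Ideal.span {a} → g ∈ Ideal.span {a}) (P : Ideal A)
    (hP : P ∈ (Ideal.span {a}).minimalPrimes) : b ∉ P := by
  intro hb
  obtain ⟨s, hs⟩ := exists_colon_of_minimal _ P hP
  have h1 : s * b ∈ Ideal.span {a} := (hs b).2 hb
  have h2' : s ∈ Ideal.span {a} := h2 s (by rwa [mul_comm])
  have h3 : (1 : A) ∈ P := (hs 1).1 (by rwa [mul_one])
  exact hP.1.1.ne_top ((Ideal.eq_top_iff_one _).2 h3)

end elem

section R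

variable {A R : Type u} [CommRing A] [IsDomain A] [IsNoetherianRing A] [IsIntegrallyClosed A]
  [CommRing R] [IsDomain R] [IsNoetherianRing R] [IsIntegrallyClosed R] [Algebra A R]
  [Module.Finite A R] [FaithfulSMul A R]

/-- Powers of the second element are nonzerodivisors modulo powers of the first element. -/
lemma regular_mod_pow' (a b : A) (ha : a ≠ 0)
    (h2 : ∀ g, b * g ∈ Ideal.span {a} → g ∈ Ideal.span {a}) (i j : ℕ) (z : R)
    (h : algebraMap A R b ^ j * z ∈ Ideal.span {algebraMap A R a ^ i}) :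
    z ∈ Ideal.span {algebraMap A R a ^ i} := by
  induction j generalizing z with
  | zero => simpa using h
  | succ j ih =>
    apply ih
    apply regular_mod_pow (R := R) a b ha (not_mem_of_minimal a b h2)
    rw [← mul_assoc, ← pow_succ']
    exact h

end R

end Vale.Agent.Lib.P190
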