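import Vale.Agent.Lib.P190.Normal2

/-!
Modules on which a regular system of parameters of a regular local ring is a regular sequence are
free; the resulting free presentations of module-finite algebras of depth at least two.
-/

set_option linter.unusedSectionVars false

universe u

open IsLocalRing RingTheory.Sequence Matrix

namespace Vale.Agent.Lib.P190

section free

lemma maximalIdeal_quot {A : Type u} [CommRing A] [IsLocalRing A] (r : A) (hr : r ∈ maximalIdeal A)
    [IsLocalRing (A ⧸ Ideal.span {r})] :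
    maximalIdeal (A ⧸ Ideal.span {r}) = (maximalIdeal A).map (Ideal.Quotient.mk _) := by
  apply le_antisymm
  · intro x hx
    obtain ⟨y, rfl⟩ := Ideal.Quotient.mk_surjective x
    have h1 : y ∈ maximalIdeal A := by
      by_contra h
      have h2 : IsUnit y := by
        by_contra h3
        exact h ((mem_maximalIdeal _).2 h3)
      exact hx (h2.map _)
    exact Ideal.mem_map_of_mem _ h1
  · rw [Ideal.map_le_iff_le_comap]
    intro y hy
    rw [Ideal.mem_comap, mem_maximalIdeal, mem_nonunits_iff]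
    intro hu
    obtain ⟨z, hz⟩ := hu.exists_right_inv
    obtain ⟨z', rfl⟩ := Ideal.Quotient.mk_surjective z
    have h1 : y * z' - 1 ∈ Ideal.span {r} := by
      apply Ideal.Quotient.eq.1
      simpa using hz
    have h2 : y * z' - 1 ∈ maximalIdeal A := by
      have h3 : Ideal.span {r} ≤ maximalIdeal A := by
        rwa [Ideal.span_le, Set.singleton_subset_iff]
      exact h3 h1
    have h3 : (1 : A) ∈ maximalIdeal A := by
      have h4 := (maximalIdeal A).sub_mem (Ideal.mul_mem_right z' _ hy) h2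
      simp at h4
    exact (Ideal.ne_top_iff_one _).1 (maximalIdeal.isMaximal A).ne_top h3

theorem free_of_isWeaklyRegular (n : ℕ) : ∀ (A : Type u) [CommRing A] [IsLocalRing A]
    [IsNoetherianRing A] (M : Type u) [AddCommGroup M] [Module A M] [Module.Finite A M]
    (rs : List A), rs.length = n → IsWeaklyRegular M rs → (∀ r ∈ rs, r ∈ maximalIdeal A) →
    maximalIdeal A = Ideal.ofList rs → Module.Free A M := by
  induction n with
  | zero =>
    intro A _ _ _ M _ _ _ rs hl hw hmem hm
    have h0 : rs = [] := List.eq_nil_of_length_eq_zero hl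
    subst h0
    have h1 : IsField A := (isField_iff_maximalIdeal_eq).2 (by simpa using hm)
    let _ := h1.toField
    exact Module.Free.of_divisionRing A M
  | succ n ih =>
    intro A _ _ _ M _ _ _ rs hl hw hmem hm
    obtain ⟨r, rs', rfl⟩ : ∃ r rs', rs = r :: rs' := by
      cases rs with
      | nil => simp at hl
      | cons r rs' => exact ⟨r, rs', rfl⟩
    obtain ⟨h1, h2⟩ := (isWeaklyRegular_cons_iff' M r rs').1 hw
    have hr : r ∈ maximalIdeal A := hmem r (by simp)
    have hne : Ideal.span {r} ≠ ⊤ := by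
      intro h
      have h3 : Ideal.span {r} ≤ maximalIdeal A := by
        rwa [Ideal.span_le, Set.singleton_subset_iff]
      rw [h] at h3
      exact (maximalIdeal.isMaximal A).ne_top (top_le_iff.1 h3)
    have : Nontrivial (A ⧸ Ideal.span {r}) := Ideal.Quotient.nontrivial_iff.2 hne
    have : IsLocalRing (A ⧸ Ideal.span {r}) :=
      IsLocalRing.of_surjective' (Ideal.Quotient.mk _) Ideal.Quotient.mk_surjective
    have : Module.Finite A (QuotSMulTop r M) :=
      Module.Finite.of_surjective (Submodule.mkQ _) (Submodule.mkQ_surjective _)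
    have : Module.Finite (A ⧸ Ideal.span {r}) (QuotSMulTop r M) :=
      Module.Finite.of_restrictScalars_finite A _ _
    have : Module.FinitePresentation A M := Module.finitePresentation_of_finite A M
    have hjac : r ∈ (⊥ : Ideal A).jacobson := by
      rw [IsLocalRing.jacobson_eq_maximalIdeal _ bot_ne_top]
      exact hr
    refine (Module.free_quotSMulTop_iff_free A M hjac h1).1 ?_
    refine ih (A ⧸ Ideal.span {r}) (QuotSMulTop r M) (rs'.map (Ideal.Quotient.mk _)) (by
      simpa using hl) h2 ?_ ?_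
    · intro x hx
      obtain ⟨y, hy, rfl⟩ := List.mem_map.1 hx
      have h3 : y ∈ maximalIdeal A := hmem y (by simp [hy])
      rw [maximalIdeal_quot r hr]
      exact Ideal.mem_map_of_mem _ h3
    · rw [maximalIdeal_quot r hr, hm, ← Ideal.map_ofList, Ideal.ofList_cons, Ideal.map_sup,
        Ideal.map_span]
      simp

end free

section presentation

open Pointwise

variable {A R : Type u} [CommRing A] [CommRing R] [Algebra A R]

lemma exists_vec_singleton {n : ℕ} (a : A) (z : Fin n → A) (h : ∀ i, z i ∈ Ideal.span {a}) :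
    ∃ w : Fin n → A, z = a • w := by
  choose w hw using fun i => Ideal.mem_span_singleton'.1 (h i)
  exact ⟨w, funext fun i => by simp [← hw i, mul_comm]⟩

lemma exists_vec_pair {n : ℕ} (a b : A) (z : Fin n → A) (h : ∀ i, z i ∈ Ideal.span {a, b}) :
    ∃ w w' : Fin n → A, z = a • w + b • w' := by
  choose w w' hw using fun i => Ideal.mem_span_pair.1 (h i)
  exact ⟨w, w', funext fun i => by simp [← hw i, mul_comm]⟩

lemma mem_ofList_single_smul_top {M : Type*} [AddCommGroup M] [Module A M] (u : A) (z : M) :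
    z ∈ (Ideal.ofList [u] • ⊤ : Submodule A M) ↔ ∃ z', z = u • z' := by
  rw [Ideal.ofList_singleton, Submodule.ideal_span_singleton_smul,
    Submodule.mem_smul_pointwise_iff_exists]
  constructor
  · rintro ⟨z', -, rfl⟩
    exact ⟨z', rfl⟩
  · rintro ⟨z', rfl⟩
    exact ⟨z', trivial, rfl⟩

lemma mem_ofList_pair_smul_top {M : Type*} [AddCommGroup M] [Module A M] (u v : A) (z : M) :
    z ∈ (Ideal.ofList [u, v] • ⊤ : Submodule A M) ↔ ∃ z' z'', z = u • z' + v • z'' := by
  rw [Ideal.ofList_cons, Ideal.ofList_singleton, Submodule.sup_smul,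
    Submodule.ideal_span_singleton_smul, Submodule.ideal_span_singleton_smul, Submodule.mem_sup]
  constructor
  · rintro ⟨y, hy, y', hy', rfl⟩
    obtain ⟨z', -, rfl⟩ := Submodule.mem_smul_pointwise_iff_exists _ _ _ |>.1 hy
    obtain ⟨z'', -, rfl⟩ := Submodule.mem_smul_pointwise_iff_exists _ _ _ |>.1 hy'
    exact ⟨z', z'', rfl⟩
  · rintro ⟨z', z'', rfl⟩
    exact ⟨u • z', Submodule.mem_smul_pointwise_iff_exists _ _ _ |>.2 ⟨z', trivial, rfl⟩,
      v • z'', Submodule.mem_smul_pointwise_iff_exists _ _ _ |>.2 ⟨z'', trivial, rfl⟩, rfl⟩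

variable [IsDomain A] [IsDomain R] [FaithfulSMul A R]

lemma ker_regular {n : ℕ} (p : (Fin n → A) →ₗ[A] R) (hp : Function.Surjective p) (a₁ a₂ a₃ : A)
    (h1 : a₁ ≠ 0) (h2 : ∀ g, a₂ * g ∈ Ideal.span {a₁} → g ∈ Ideal.span {a₁})
    (h3 : ∀ g, a₃ * g ∈ Ideal.span {a₁, a₂} → g ∈ Ideal.span {a₁, a₂})
    (hR : ∀ z : R, algebraMap A R a₂ * z ∈ Ideal.span {algebraMap A R a₁} →
      z ∈ Ideal.span {algebraMap A R a₁}) :
    IsWeaklyRegular (LinearMap.ker p) [a₁, a₂, a₃] := by
  have hx1 : algebraMap A R a₁ ≠ 0 := by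
    intro h
    exact h1 (FaithfulSMul.algebraMap_injective A R (by simpa using h))
  rw [isWeaklyRegular_iff]
  intro i hi
  have hi' : i < 3 := by simpa using hi
  obtain rfl | rfl | rfl : i = 0 ∨ i = 1 ∨ i = 2 := by omega
  · rw [isSMulRegular_quotient_iff_mem_of_smul_mem]
    intro z hz
    simp only [List.take_zero, Ideal.ofList_nil, Submodule.bot_smul, Submodule.mem_bot,
      List.getElem_cons_zero] at hz ⊢
    have h4 : (a₁ • z : LinearMap.ker p).1 = 0 := by rw [hz]; rfl
    apply Subtype.ext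
    funext i
    have h5 := congrFun h4 i
    have h6 : a₁ * z.1 i = 0 := h5
    exact (mul_eq_zero.1 h6).resolve_left h1
  · rw [isSMulRegular_quotient_iff_mem_of_smul_mem]
    intro z hz
    have hl : [a₁, a₂, a₃].take 1 = [a₁] := rfl
    rw [hl, mem_ofList_single_smul_top] at hz ⊢
    obtain ⟨z', hz'⟩ := hz
    have hz'' : ∀ i, a₂ * z.1 i = a₁ * z'.1 i := fun i =>
      congrFun (congrArg Subtype.val hz') i
    obtain ⟨w, hw⟩ := exists_vec_singleton a₁ z.1 fun i => h2 _ (by
      rw [hz'' i]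
      exact Ideal.mul_mem_right _ _ (Ideal.mem_span_singleton_self _))
    have hpw : p w = 0 := by
      have h4 : p z.1 = 0 := z.2
      rw [hw, map_smul, Algebra.smul_def] at h4
      exact (mul_eq_zero.1 h4).resolve_left hx1
    exact ⟨⟨w, hpw⟩, Subtype.ext hw⟩
  · rw [isSMulRegular_quotient_iff_mem_of_smul_mem]
    intro z hz
    have hl : [a₁, a₂, a₃].take 2 = [a₁, a₂] := rfl
    rw [hl, mem_ofList_pair_smul_top] at hz ⊢
    obtain ⟨z', z'', hz'⟩ := hz
    have hz'' : ∀ i, a₃ * z.1 i = a₁ * z'.1 i + a₂ * z''.1 i := fun i =>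
      congrFun (congrArg Subtype.val hz') i
    obtain ⟨w, w', hw⟩ := exists_vec_pair a₁ a₂ z.1 fun i => h3 _ (by
      rw [hz'' i]
      exact Ideal.add_mem _ (Ideal.mul_mem_right _ _ (Ideal.mem_span_pair.2 ⟨1, 0, by ring⟩))
        (Ideal.mul_mem_right _ _ (Ideal.mem_span_pair.2 ⟨0, 1, by ring⟩)))
    have h4 : p z.1 = 0 := z.2
    rw [hw, map_add, map_smul, map_smul, Algebra.smul_def, Algebra.smul_def] at h4
    have h5 : p w' ∈ Ideal.span {algebraMap A R a₁} := hR _ (Ideal.mem_span_singleton'.2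
      ⟨-p w, by linear_combination -h4⟩)
    obtain ⟨r, hr⟩ := Ideal.mem_span_singleton'.1 h5
    obtain ⟨r', rfl⟩ := hp r
    have h6 : p w = - (algebraMap A R a₂ * p r') := by
      apply mul_left_cancel₀ hx1
      rw [← hr] at h4
      linear_combination h4
    refine ⟨⟨w + a₂ • r', ?_⟩, ⟨w' - a₁ • r', ?_⟩, Subtype.ext ?_⟩
    · rw [LinearMap.mem_ker, map_add, map_smul, h6, Algebra.smul_def]
      ring
    · rw [LinearMap.mem_ker, map_sub, map_smul, ← hr, Algebra.smul_def]
      ring
    · rw [hw]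
      change _ = a₁ • (w + a₂ • r') + a₂ • (w' - a₁ • r')
      funext i
      simp only [Pi.add_apply, Pi.smul_apply, Pi.sub_apply, smul_eq_mul]
      ring

/-- **Free presentations.** -/
theorem exists_free_presentation [IsLocalRing A] [IsNoetherianRing A] [Module.Finite A R]
    (a₁ a₂ a₃ : A) (hm : maximalIdeal A = Ideal.span {a₁, a₂, a₃})
    (h1 : a₁ ≠ 0) (h2 : ∀ g, a₂ * g ∈ Ideal.span {a₁} → g ∈ Ideal.span {a₁})
    (h3 : ∀ g, a₃ * g ∈ Ideal.span {a₁, a₂} → g ∈ Ideal.span {a₁, a₂})
    (hR : ∀ z : R, algebraMap A R a₂ * z ∈ Ideal.span {algebraMap A R a₁} →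
      z ∈ Ideal.span {algebraMap A R a₁}) :
    ∃ (n m : ℕ) (p : (Fin n → A) →ₗ[A] R) (D : Matrix (Fin n) (Fin m) A),
      Function.Surjective p ∧ (∀ f, p (D *ᵥ f) = 0) ∧ (∀ x, p x = 0 → ∃ f, D *ᵥ f = x) ∧
        (∀ f, D *ᵥ f = 0 → f = 0) := by
  obtain ⟨n, p, hp⟩ := Module.Finite.exists_fin' A R
  have h5 : Module.Free A (LinearMap.ker p) := by
    refine free_of_isWeaklyRegular 3 A _ [a₁, a₂, a₃] rfl (ker_regular p hp a₁ a₂ a₃ h1 h2 h3 hR)
      ?_ ?_
    · intro r hr
      rw [hm]
      simp only [List.mem_cons, List.not_mem_nil, or_false] at hr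
      rcases hr with rfl | rfl | rfl
      · exact Ideal.subset_span (by simp)
      · exact Ideal.subset_span (by simp)
      · exact Ideal.subset_span (by simp)
    · rw [hm]
      congr 1
      ext x
      simp
  let b := Module.finBasis A (LinearMap.ker p)
  let D : Matrix (Fin n) (Fin (Module.finrank A (LinearMap.ker p))) A :=
    fun i j => (b j).1 i
  have hDf : ∀ f, D *ᵥ f = ((∑ j, f j • b j : LinearMap.ker p) : Fin n → A) := by
    intro f
    funext i
    simp [D, mulVec, dotProduct, mul_comm]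
  refine ⟨n, _, p, D, hp, ?_, ?_, ?_⟩
  · intro f
    rw [hDf]
    exact (∑ j, f j • b j : LinearMap.ker p).2
  · intro x hx
    refine ⟨b.repr ⟨x, hx⟩, ?_⟩
    rw [hDf, ← b.sum_repr ⟨x, hx⟩]
    simp
  · intro f hf
    rw [hDf] at hf
    have h6 : (∑ j, f j • b j : LinearMap.ker p) = 0 := Subtype.ext hf
    funext j
    exact Fintype.linearIndependent_iff.1 b.linearIndependent f h6 j

end presentation

end Vale.Agent.Lib.P190
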