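import Vale.Agent.Lib.P190.Normal3

/-!
Injectivity of a free presentation matrix modulo nonmaximal primes.
-/

set_option linter.unusedSectionVars false

universe u

open IsLocalRing RingTheory.Sequence Matrix

namespace Vale.Agent.Lib.P190

section reg

variable {A R : Type u} [CommRing A] [IsDomain A] [CommRing R] [IsDomain R] [Algebra A R]
  [FaithfulSMul A R] {n m : ℕ} (p : (Fin n → A) →ₗ[A] R) (D : Matrix (Fin n) (Fin m) A)

lemma reg_singleton (hD : ∀ f, p (D *ᵥ f) = 0) (hker : ∀ x, p x = 0 → ∃ f, D *ᵥ f = x)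
    (hinj : ∀ f, D *ᵥ f = 0 → f = 0) (u : A) (hu : u ≠ 0) (f : Fin m → A)
    (h : ∀ i, (D *ᵥ f) i ∈ Ideal.span {u}) (j : Fin m) : f j ∈ Ideal.span {u} := by
  have hxu : algebraMap A R u ≠ 0 := by
    intro h
    exact hu (FaithfulSMul.algebraMap_injective A R (by simpa using h))
  obtain ⟨g, hg⟩ := exists_vec_singleton u _ h
  have h1 : p g = 0 := by
    have h2 := hD f
    rw [hg, map_smul, Algebra.smul_def] at h2
    exact (mul_eq_zero.1 h2).resolve_left hxu
  obtain ⟨f₁, hf₁⟩ := hker g h1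
  have h2 : f = u • f₁ := by
    rw [← sub_eq_zero]
    apply hinj
    rw [mulVec_sub, mulVec_smul, hg, hf₁, sub_self]
  rw [h2]
  exact Ideal.mem_span_singleton'.2 ⟨f₁ j, by simp [mul_comm]⟩

lemma reg_pair (hp : Function.Surjective p) (hD : ∀ f, p (D *ᵥ f) = 0)
    (hker : ∀ x, p x = 0 → ∃ f, D *ᵥ f = x)
    (hinj : ∀ f, D *ᵥ f = 0 → f = 0) (u v : A) (hu : u ≠ 0)
    (hv : ∀ z : R, algebraMap A R v * z ∈ Ideal.span {algebraMap A R u} →
      z ∈ Ideal.span {algebraMap A R u}) (f : Fin m → A)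
    (h : ∀ i, (D *ᵥ f) i ∈ Ideal.span {u, v}) (j : Fin m) : f j ∈ Ideal.span {u, v} := by
  have hxu : algebraMap A R u ≠ 0 := by
    intro h
    exact hu (FaithfulSMul.algebraMap_injective A R (by simpa using h))
  obtain ⟨g, h', hg⟩ := exists_vec_pair u v _ h
  have h1 := hD f
  rw [hg, map_add, map_smul, map_smul, Algebra.smul_def, Algebra.smul_def] at h1
  have h2 : p h' ∈ Ideal.span {algebraMap A R u} := hv _ (Ideal.mem_span_singleton'.2
    ⟨-p g, by linear_combination -h1⟩)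
  obtain ⟨r, hr⟩ := Ideal.mem_span_singleton'.1 h2
  obtain ⟨r', rfl⟩ := hp r
  have h3 : p g = - (algebraMap A R v * p r') := by
    apply mul_left_cancel₀ hxu
    rw [← hr] at h1
    linear_combination h1
  obtain ⟨f₂, hf₂⟩ := hker (h' - u • r') (by
    rw [map_sub, map_smul, ← hr, Algebra.smul_def]
    ring)
  obtain ⟨f₁, hf₁⟩ := hker (g + v • r') (by
    rw [map_add, map_smul, h3, Algebra.smul_def]
    ring)
  have h4 : f = u • f₁ + v • f₂ := by
    rw [← sub_eq_zero]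
    apply hinj
    rw [mulVec_sub, mulVec_add, mulVec_smul, mulVec_smul, hg, hf₁, hf₂, sub_eq_zero]
    funext i
    simp only [Pi.add_apply, Pi.smul_apply, Pi.sub_apply, smul_eq_mul]
    ring
  rw [h4]
  exact Ideal.mem_span_pair.2 ⟨f₁ j, f₂ j, by simp [mul_comm]⟩

end reg

section prime

variable {A R : Type u} [CommRing A] [IsDomain A] [IsNoetherianRing A] [IsIntegrallyClosed A]
  [CommRing R] [IsDomain R] [IsNoetherianRing R] [IsIntegrallyClosed R] [Algebra A R]
  [Module.Finite A R] [FaithfulSMul A R] {n m : ℕ} (p : (Fin n → A) →ₗ[A] R)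
  (D : Matrix (Fin n) (Fin m) A)

/-- The height of a prime strictly below a chain. -/
lemma height_chain {P₁ P₂ P₃ P₄ : Ideal A} [P₁.IsPrime] [P₂.IsPrime] [P₃.IsPrime] [P₄.IsPrime]
    (h0 : ⊥ < P₁) (h1 : P₁ < P₂) (h2 : P₂ < P₃) (h3 : P₃ < P₄) : (4 : ℕ∞) ≤ P₄.height := by
  have : (⊥ : Ideal A).IsPrime := Ideal.isPrime_bot
  have e0 := Ideal.height_add_one_le_of_lt_of_isPrime h0
  have e1 := Ideal.height_add_one_le_of_lt_of_isPrime h1
  have e2 := Ideal.height_add_one_le_of_lt_of_isPrime h2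
  have e3 := Ideal.height_add_one_le_of_lt_of_isPrime h3
  calc (4 : ℕ∞) = 0 + 1 + 1 + 1 + 1 := by norm_num
    _ ≤ (⊥ : Ideal A).height + 1 + 1 + 1 + 1 := by gcongr; exact zero_le
    _ ≤ P₁.height + 1 + 1 + 1 := by gcongr
    _ ≤ P₂.height + 1 + 1 := by gcongr
    _ ≤ P₃.height + 1 := by gcongr
    _ ≤ P₄.height := e3

/-- Every nonmaximal prime is the colon of an ideal of `A` on which the presentation is regular. -/
lemma exists_reg_colon (hp : Function.Surjective p) (hD : ∀ f, p (D *ᵥ f) = 0)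
    (hker : ∀ x, p x = 0 → ∃ f, D *ᵥ f = x) (hinj : ∀ f, D *ᵥ f = 0 → f = 0)
    (M P : Ideal A) [M.IsPrime] [P.IsPrime] (hPM : P < M) (hM : M.height ≤ 3) :
    ∃ (I : Ideal A) (s : A), (∀ f, s * f ∈ I ↔ f ∈ P) ∧
      ∀ f : Fin m → A, (∀ i, (D *ᵥ f) i ∈ I) → ∀ j, f j ∈ I := by
  classical
  by_cases hP0 : P = ⊥
  · subst hP0
    refine ⟨⊥, 1, fun f => by simp, fun f hf j => ?_⟩
    have h1 : D *ᵥ f = 0 := by
      funext i
      simpa using hf i
    rw [hinj f h1]
    simp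
  obtain ⟨u, huP, hu⟩ := Submodule.exists_mem_ne_zero_of_ne_bot hP0
  have hxu : algebraMap A R u ≠ 0 := by
    intro h
    exact hu (FaithfulSMul.algebraMap_injective A R (by simpa using h))
  have huP' : Ideal.span {u} ≤ P := by
    rwa [Ideal.span_le, Set.singleton_subset_iff]
  let S₁ : Set (Ideal A) := (Ideal.span {u}).minimalPrimes
  let S₂ : Set (Ideal A) := (Ideal.comap (algebraMap A R)) ''
    (associatedPrimes R (R ⧸ Ideal.span {algebraMap A R u}))
  have hS₁ : S₁.Finite := Ideal.finite_minimalPrimes_of_isNoetherianRing A _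
  have hS₂ : S₂.Finite := (associatedPrimes.finite R _).image _
  have hS : (S₁ ∪ S₂).Finite := hS₁.union hS₂
  have hprime : ∀ Q ∈ S₁ ∪ S₂, Q.IsPrime := by
    rintro Q (hQ | ⟨Q', hQ', rfl⟩)
    · exact hQ.1.1
    · have := hQ'.isPrime
      exact Ideal.comap_isPrime _ _
  by_cases hav : ∃ Q ∈ S₁ ∪ S₂, P ≤ Q
  · -- `P` is minimal over `u`
    obtain ⟨Q, hQ, hPQ⟩ := hav
    have hmin : P ∈ (Ideal.span {u}).minimalPrimes := by
      refine ⟨⟨inferInstance, huP'⟩, ?_⟩
      rintro P' ⟨hP'p, huP''⟩ hP'P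
      rcases hQ with hQ | ⟨Q', hQ', rfl⟩
      · exact hPQ.trans (hQ.2 ⟨hP'p, huP''⟩ (hP'P.trans hPQ))
      · by_cases hne : P' = Q'.comap (algebraMap A R)
        · rw [hne]
          exact hPQ
        · exfalso
          have h1 : P' = ⊥ := eq_bot_of_lt_comap _ hxu Q' hQ' P'
            (lt_of_le_of_ne (hP'P.trans hPQ) hne)
          have h2 : u ∈ P' := huP'' (Ideal.mem_span_singleton_self u)
          rw [h1] at h2
          exact hu (by simpa using h2)
    obtain ⟨s, hs⟩ := exists_colon_of_minimal _ P hmin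
    exact ⟨_, s, hs, fun f hf j => reg_singleton (R := R) p D hD hker hinj u hu f hf j⟩
  · -- a second element
    have hv : ¬ ((P : Set A) ⊆ ⋃ Q ∈ S₁ ∪ S₂, (id Q : Ideal A)) := by
      intro h
      obtain ⟨Q, hQ, hPQ⟩ := (Ideal.subset_union_prime_finite hS (f := id) ⊥ ⊥
        (fun Q hQ _ _ => hprime Q hQ)).1 h
      exact hav ⟨Q, hQ, hPQ⟩
    obtain ⟨v, hvP, hv⟩ := Set.not_subset.1 hv
    simp only [Set.mem_iUnion, not_exists, id] at hv
    have hvS₁ : ∀ Q ∈ (Ideal.span {u}).minimalPrimes, v ∉ Q := fun Q hQ => hv Q (Or.inl hQ)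
    have hvS₂ : ∀ Q ∈ associatedPrimes R (R ⧸ Ideal.span {algebraMap A R u}),
        algebraMap A R v ∉ Q := fun Q hQ h => hv _ (Or.inr ⟨Q, hQ, rfl⟩) h
    have hIP : Ideal.span {u, v} ≤ P := by
      rw [Ideal.span_le]
      rintro x (rfl | rfl)
      · exact huP
      · exact hvP
    have hmin : P ∈ (Ideal.span {u, v}).minimalPrimes := by
      refine ⟨⟨inferInstance, hIP⟩, ?_⟩
      rintro P' ⟨hP'p, hIP'⟩ hP'P
      by_contra hne
      have hlt : P' < P := lt_of_le_of_ne hP'P (fun h => hne (by rw [h]))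
      have huP1 : Ideal.span {u} ≤ P' := by
        rw [Ideal.span_le, Set.singleton_subset_iff]
        exact hIP' (Ideal.subset_span (by simp))
      have hvP1 : v ∈ P' := hIP' (Ideal.subset_span (by simp))
      obtain ⟨Q₁, hQ₁, hQ₁P⟩ := Ideal.exists_minimalPrimes_le huP1
      have hQ₁p : Q₁.IsPrime := hQ₁.1.1
      have hlt1 : Q₁ < P' := lt_of_le_of_ne hQ₁P (fun h => hvS₁ Q₁ hQ₁ (by rw [h]; exact hvP1))
      have hu1 : u ∈ Q₁ := hQ₁.1.2 (Ideal.mem_span_singleton_self u)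
      have hbot : ⊥ < Q₁ := by
        refine bot_lt_iff_ne_bot.2 ?_
        intro h
        rw [h] at hu1
        exact hu (by simpa using hu1)
      have h4 := height_chain hbot hlt1 hlt hPM
      have h5 : (4 : ℕ∞) ≤ 3 := h4.trans hM
      exact absurd h5 (by norm_num)
    obtain ⟨s, hs⟩ := exists_colon_of_minimal _ P hmin
    refine ⟨_, s, hs, fun f hf j => reg_pair (R := R) p D hp hD hker hinj u v hu ?_ f hf j⟩
    intro z hz
    by_contra hzn
    have h1 : algebraMap A R v ∈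
        ⋃ Q ∈ associatedPrimes R (R ⧸ Ideal.span {algebraMap A R u}), Q := by
      rw [biUnion_associatedPrimes_eq_zero_divisors]
      refine ⟨Submodule.Quotient.mk z, ?_, ?_⟩
      · rwa [Ne, Submodule.Quotient.mk_eq_zero]
      · rw [← Submodule.Quotient.mk_smul, Submodule.Quotient.mk_eq_zero]
        exact hz
    simp only [Set.mem_iUnion, SetLike.mem_coe, exists_prop] at h1
    obtain ⟨Q, hQ, hvQ⟩ := h1
    exact hvS₂ Q hQ hvQ

/-- The presentation matrix stays injective modulo every nonmaximal prime. -/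
lemma inj_mod_prime (hp : Function.Surjective p) (hD : ∀ f, p (D *ᵥ f) = 0)
    (hker : ∀ x, p x = 0 → ∃ f, D *ᵥ f = x) (hinj : ∀ f, D *ᵥ f = 0 → f = 0)
    (M P : Ideal A) [M.IsPrime] [P.IsPrime] (hPM : P < M) (hM : M.height ≤ 3)
    (f : Fin m → A) (hf : ∀ i, (D *ᵥ f) i ∈ P) (j : Fin m) : f j ∈ P := by
  obtain ⟨I, s, hs, hreg⟩ := exists_reg_colon p D hp hD hker hinj M P hPM hM
  rw [← hs]
  have h1 := hreg (s • f) (fun i => by
    rw [mulVec_smul, Pi.smul_apply, smul_eq_mul, hs]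
    exact hf i) j
  simpa using h1

end prime

end Vale.Agent.Lib.P190
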