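import Vale.Agent.Lib.P190.Normal4

/-!
Matrices injective modulo a prime have left inverses after inverting an element outside the prime.
-/

set_option linter.unusedSectionVars false

universe u

open IsLocalRing RingTheory.Sequence Matrix

namespace Vale.Agent.Lib.P190

section inverse

variable {A : Type u} [CommRing A] {n m : ℕ} (D : Matrix (Fin n) (Fin m) A) (P : Ideal A)
  [P.IsPrime]

lemma exists_inverse (hP : ∀ f : Fin m → A, (∀ i, (D *ᵥ f) i ∈ P) → ∀ j, f j ∈ P) :
    ∃ a, a ∉ P ∧ ∃ G : Matrix (Fin m) (Fin n) A, G * D = a • 1 := by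
  classical
  let B := A ⧸ P
  let κ := FractionRing B
  let φ : A →+* κ := (algebraMap B κ).comp (Ideal.Quotient.mk P)
  have hφ : ∀ x, φ x = 0 ↔ x ∈ P := by
    intro x
    have h1 : φ x = algebraMap B κ (Ideal.Quotient.mk P x) := rfl
    rw [h1, map_eq_zero_iff _ (IsFractionRing.injective B κ), Ideal.Quotient.eq_zero_iff_mem]
  have clear : ∀ (ι : Type) [Fintype ι] (v : ι → κ), ∃ (b : A) (w : ι → A), b ∉ P ∧
      ∀ i, φ (w i) = φ b * v i := by
    intro ι _ v
    obtain ⟨b, hb⟩ := IsLocalization.exist_integer_multiples_of_finite (nonZeroDivisors B) v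
    choose w' hw' using hb
    choose w hw using fun i => Ideal.Quotient.mk_surjective (w' i)
    obtain ⟨b', hb'⟩ := Ideal.Quotient.mk_surjective (b : B)
    refine ⟨b', w, ?_, ?_⟩
    · intro h
      have h1 : (b : B) = 0 := by
        rw [← hb']
        exact Ideal.Quotient.eq_zero_iff_mem.2 h
      exact nonZeroDivisors.ne_zero b.2 h1
    · intro i
      change algebraMap B κ (Ideal.Quotient.mk P (w i)) =
        algebraMap B κ (Ideal.Quotient.mk P b') * v i
      rw [hw, hw', hb', Algebra.smul_def]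
  let DK : Matrix (Fin n) (Fin m) κ := D.map φ
  have hDK : ∀ f : Fin m → A, DK *ᵥ (fun j => φ (f j)) = fun i => φ ((D *ᵥ f) i) := by
    intro f
    funext i
    simp [DK, mulVec, dotProduct, map_sum]
  have hK : Function.Injective DK.mulVecLin := by
    rw [injective_iff_map_eq_zero]
    intro v hv
    obtain ⟨b, w, hb, hw⟩ := clear (Fin m) v
    have hb0 : φ b ≠ 0 := fun h => hb ((hφ b).1 h)
    have h1 : ∀ i, (D *ᵥ w) i ∈ P := by
      intro i
      rw [← hφ, ← congrFun (hDK w) i]
      have hw' : (fun j => φ (w j)) = φ b • v := by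
        funext j
        simp [hw j]
      rw [hw', mulVec_smul]
      have hv' : DK *ᵥ v = 0 := hv
      rw [hv']
      simp
    have h2 := hP w h1
    funext j
    have h3 : φ (w j) = 0 := (hφ _).2 (h2 j)
    rw [hw j] at h3
    exact (mul_eq_zero.1 h3).resolve_left hb0
  obtain ⟨L, hL⟩ := LinearMap.exists_leftInverse_of_injective DK.mulVecLin
    (LinearMap.ker_eq_bot.2 hK)
  let CK : Matrix (Fin m) (Fin n) κ := LinearMap.toMatrix' L
  have hCK : CK * DK = 1 := by
    have h1 : CK * DK = LinearMap.toMatrix' (L ∘ₗ DK.mulVecLin) := by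
      rw [LinearMap.toMatrix'_comp, ← Matrix.toLin'_apply', LinearMap.toMatrix'_toLin']
    rw [h1, hL, LinearMap.toMatrix'_id]
  obtain ⟨b, w, hb, hw⟩ := clear (Fin m × Fin n) (fun ij => CK ij.1 ij.2)
  have hb0 : φ b ≠ 0 := fun h => hb ((hφ b).1 h)
  let C : Matrix (Fin m) (Fin n) A := fun i j => w (i, j)
  have hC : C.map φ = φ b • CK := by
    ext i j
    exact hw (i, j)
  have hE : (C * D).map φ = φ b • 1 := by
    have h1 : (C * D).map φ = C.map φ * DK := by
      rw [Matrix.map_mul]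
    rw [h1, hC, Matrix.smul_mul, hCK]
  refine ⟨(C * D).det, ?_, (C * D).adjugate * C, ?_⟩
  · intro h
    have h1 : φ (C * D).det = 0 := (hφ _).2 h
    rw [RingHom.map_det] at h1
    have h2 : (φ.mapMatrix (C * D)) = φ b • 1 := hE
    rw [h2, Matrix.det_smul, Matrix.det_one, mul_one] at h1
    exact pow_ne_zero _ hb0 h1
  · rw [Matrix.mul_assoc, Matrix.adjugate_mul]

end inverse

section ideal

variable {A : Type u} [CommRing A] [IsLocalRing A] [IsNoetherianRing A] {n m : ℕ}
  (D : Matrix (Fin n) (Fin m) A)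

/-- Elements multiplying the identity into the left ideal generated by rows. -/
def invIdeal : Ideal A where
  carrier := {a | ∃ G : Matrix (Fin m) (Fin n) A, G * D = a • 1}
  add_mem' := by
    rintro a b ⟨G, hG⟩ ⟨G', hG'⟩
    exact ⟨G + G', by rw [Matrix.add_mul, hG, hG', add_smul]⟩
  zero_mem' := ⟨0, by simp⟩
  smul_mem' := by
    rintro c a ⟨G, hG⟩
    exact ⟨c • G, by rw [Matrix.smul_mul, hG, smul_smul, smul_eq_mul]⟩

lemma mem_invIdeal (a : A) : a ∈ invIdeal D ↔ ∃ G : Matrix (Fin m) (Fin n) A, G * D = a • 1 :=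
  Iff.rfl

/-- Uniform powers. -/
lemma exists_pow_mem_invIdeal
    (h : ∀ P : Ideal A, P.IsPrime → P ≠ maximalIdeal A → ∃ a, a ∉ P ∧ a ∈ invIdeal D) :
    ∃ c : ℕ, ∀ a ∈ maximalIdeal A, a ^ c ∈ invIdeal D := by
  have h1 : maximalIdeal A ≤ (invIdeal D).radical := by
    rw [Ideal.radical_eq_sInf]
    refine le_sInf ?_
    rintro P ⟨hP1, hP2⟩
    by_cases hPm : P = maximalIdeal A
    · rw [hPm]
    · obtain ⟨a, ha, ha'⟩ := h P hP2 hPm
      exact absurd (hP1 ha') ha
  obtain ⟨c, hc⟩ := Ideal.exists_pow_le_of_le_radical_of_fg h1 (IsNoetherian.noetherian _)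
  exact ⟨c, fun a ha => hc (Ideal.pow_mem_pow ha c)⟩

end ideal

end Vale.Agent.Lib.P190
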