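import Vale.Agent.Lib.P190.Normal5

/-!
Colon computations and the uniform bound on lengths of torsion modules modulo powers of two elements.
-/

set_option linter.unusedSectionVars false

universe u

open IsLocalRing RingTheory.Sequence Matrix

namespace Vale.Agent.Lib.P190

section colon

variable {R : Type u} [CommRing R] [IsDomain R] (x y z : R) (hx : x ≠ 0)
  (HR : ∀ (i j : ℕ) (w : R), y ^ j * w ∈ Ideal.span {x ^ i} → w ∈ Ideal.span {x ^ i})

include hx HR in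
lemma inj_step (s e : ℕ) (w : R)
    (h : (x * y) ^ e * w ∈ Ideal.span {x ^ (s + e), y ^ (s + e)}) :
    w ∈ Ideal.span {x ^ s, y ^ s} := by
  obtain ⟨α, β, hαβ⟩ := Ideal.mem_span_pair.1 h
  have h1 : y ^ (s + e) * β ∈ Ideal.span {x ^ e} :=
    Ideal.mem_span_singleton'.2 ⟨y ^ e * w - α * x ^ s, by
      rw [mul_pow] at hαβ
      rw [pow_add x s e] at hαβ
      linear_combination -hαβ⟩
  obtain ⟨β', rfl⟩ := Ideal.mem_span_singleton'.1 (HR _ _ _ h1)
  have h2 : α * x ^ s + β' * y ^ (s + e) = y ^ e * w := by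
    apply mul_left_cancel₀ (pow_ne_zero e hx)
    rw [mul_pow, pow_add x s e] at hαβ
    linear_combination hαβ
  have h3 : y ^ e * (w - β' * y ^ s) ∈ Ideal.span {x ^ s} :=
    Ideal.mem_span_singleton'.2 ⟨α, by
      rw [pow_add y s e] at h2
      linear_combination h2⟩
  obtain ⟨γ, hγ⟩ := Ideal.mem_span_singleton'.1 (HR _ _ _ h3)
  exact Ideal.mem_span_pair.2 ⟨γ, β', by linear_combination hγ⟩

include hx HR in
lemma colon_step (c e : ℕ) (u : R)
    (h1 : x ^ c * u ∈ Ideal.span {x ^ (c + e), y ^ (c + e)})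
    (h2 : y ^ c * u ∈ Ideal.span {x ^ (c + e), y ^ (c + e)}) :
    ∃ w, u - (x * y) ^ e * w ∈ Ideal.span {x ^ (c + e), y ^ (c + e)} := by
  obtain ⟨α, β, hαβ⟩ := Ideal.mem_span_pair.1 h1
  have h3 : y ^ (c + e) * β ∈ Ideal.span {x ^ c} :=
    Ideal.mem_span_singleton'.2 ⟨u - α * x ^ e, by
      rw [pow_add x c e] at hαβ
      linear_combination -hαβ⟩
  obtain ⟨β', rfl⟩ := Ideal.mem_span_singleton'.1 (HR _ _ _ h3)
  have h4 : α * x ^ e + β' * y ^ (c + e) = u := by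
    apply mul_left_cancel₀ (pow_ne_zero c hx)
    rw [pow_add x c e] at hαβ
    linear_combination hαβ
  obtain ⟨γ, δ, hγδ⟩ := Ideal.mem_span_pair.1 h2
  have h5 : y ^ (c + e) * (δ - β' * y ^ c) ∈ Ideal.span {x ^ e} :=
    Ideal.mem_span_singleton'.2 ⟨y ^ c * α - γ * x ^ c, by
      rw [← h4, pow_add x c e] at hγδ
      linear_combination -hγδ⟩
  obtain ⟨δ', hδ'⟩ := Ideal.mem_span_singleton'.1 (HR _ _ _ h5)
  have h6 : y ^ c * α - γ * x ^ c = δ' * y ^ (c + e) := by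
    apply mul_left_cancel₀ (pow_ne_zero e hx)
    rw [← h4, pow_add x c e] at hγδ
    linear_combination (-1 : R) * hγδ - y ^ (c + e) * hδ'
  have h7 : y ^ c * (α - δ' * y ^ e) ∈ Ideal.span {x ^ c} :=
    Ideal.mem_span_singleton'.2 ⟨γ, by
      rw [pow_add y c e] at h6
      linear_combination -h6⟩
  obtain ⟨η, hη⟩ := Ideal.mem_span_singleton'.1 (HR _ _ _ h7)
  refine ⟨δ', Ideal.mem_span_pair.2 ⟨η, β', ?_⟩⟩
  rw [pow_add x c e, mul_pow]
  linear_combination x ^ e * hη + h4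

/-- Multiplication by `(x y) ^ e` between quotients. -/
noncomputable def psiMap (s e : ℕ) :
    (R ⧸ Ideal.span {x ^ s, y ^ s}) →ₗ[R] (R ⧸ Ideal.span {x ^ (s + e), y ^ (s + e)}) :=
  Submodule.mapQ _ _ (LinearMap.mulLeft R ((x * y) ^ e)) (by
    refine Submodule.span_le.2 ?_
    rintro v (rfl | rfl)
    · exact Ideal.mem_span_pair.2 ⟨y ^ e, 0, by simp only [LinearMap.mulLeft_apply]; ring⟩
    · exact Ideal.mem_span_pair.2 ⟨0, x ^ e, by simp only [LinearMap.mulLeft_apply]; ring⟩)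

lemma psiMap_mk (s e : ℕ) (w : R) :
    psiMap x y s e (Submodule.Quotient.mk w) = Submodule.Quotient.mk ((x * y) ^ e * w) := rfl

/-- The torsion modules. -/
abbrev Cmod (s : ℕ) : Submodule R (R ⧸ Ideal.span {x ^ s, y ^ s}) :=
  Submodule.torsion' R (R ⧸ Ideal.span {x ^ s, y ^ s}) (Submonoid.powers z)

lemma mk_mem_Cmod (s : ℕ) (w : R) :
    (Submodule.Quotient.mk w : R ⧸ Ideal.span {x ^ s, y ^ s}) ∈ Cmod x y z s ↔
      ∃ N : ℕ, z ^ N * w ∈ Ideal.span {x ^ s, y ^ s} := by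
  constructor
  · rintro ⟨⟨_, N, rfl⟩, h⟩
    refine ⟨N, ?_⟩
    have h1 : (z ^ N) • (Submodule.Quotient.mk w : R ⧸ Ideal.span {x ^ s, y ^ s}) = 0 := h
    rwa [← Submodule.Quotient.mk_smul, Submodule.Quotient.mk_eq_zero] at h1
  · rintro ⟨N, h⟩
    refine ⟨⟨z ^ N, N, rfl⟩, ?_⟩
    change (z ^ N) • (Submodule.Quotient.mk w : R ⧸ Ideal.span {x ^ s, y ^ s}) = 0
    rwa [← Submodule.Quotient.mk_smul, Submodule.Quotient.mk_eq_zero]

lemma length_le_of_inj_on {M N : Type*} [AddCommGroup M] [Module R M] [AddCommGroup N] [Module R N]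
    (f : M →ₗ[R] N) (T : Submodule R M) (T' : Submodule R N) (h : ∀ a ∈ T, f a ∈ T')
    (hinj : ∀ a ∈ T, f a = 0 → a = 0) : Module.length R T ≤ Module.length R T' := by
  refine Module.length_le_of_injective (f.restrict h) ?_
  rw [injective_iff_map_eq_zero]
  rintro ⟨a, ha⟩ h0
  apply Subtype.ext
  apply hinj a ha
  exact congrArg Subtype.val h0

lemma length_le_of_surj_on {M N : Type*} [AddCommGroup M] [Module R M] [AddCommGroup N] [Module R N]
    (f : M →ₗ[R] N) (T : Submodule R M) (T' : Submodule R N) (h : ∀ a ∈ T, f a ∈ T')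
    (hs : ∀ b ∈ T', ∃ a ∈ T, f a = b) : Module.length R T' ≤ Module.length R T := by
  refine Module.length_le_of_surjective (f.restrict h) ?_
  rintro ⟨b, hb⟩
  obtain ⟨a, ha, rfl⟩ := hs b hb
  exact ⟨⟨a, ha⟩, rfl⟩

lemma psiMap_mem (s e : ℕ) (a : R ⧸ Ideal.span {x ^ s, y ^ s}) (ha : a ∈ Cmod x y z s) :
    psiMap x y s e a ∈ Cmod x y z (s + e) := by
  obtain ⟨w, rfl⟩ := Submodule.Quotient.mk_surjective _ a
  rw [psiMap_mk, mk_mem_Cmod]
  obtain ⟨N, hN⟩ := (mk_mem_Cmod x y z s w).1 ha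
  refine ⟨N, ?_⟩
  have h1 : (x * y) ^ e * (z ^ N * w) ∈ Ideal.span {x ^ (s + e), y ^ (s + e)} := by
    obtain ⟨α, β, h⟩ := Ideal.mem_span_pair.1 hN
    exact Ideal.mem_span_pair.2 ⟨α * y ^ e, β * x ^ e, by rw [← h]; ring⟩
  have h2 : z ^ N * ((x * y) ^ e * w) = (x * y) ^ e * (z ^ N * w) := by ring
  rwa [h2]

include hx HR in
/-- The uniform bound. -/
theorem length_Cmod_le (c : ℕ) (HC : ∀ (t N : ℕ) (u : R), z ^ N * u ∈ Ideal.span {x ^ t, y ^ t} →
      x ^ c * u ∈ Ideal.span {x ^ t, y ^ t} ∧ y ^ c * u ∈ Ideal.span {x ^ t, y ^ t}) (t : ℕ) :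
    Module.length R (Cmod x y z t) ≤ Module.length R (Cmod x y z c) := by
  rcases le_total t c with h | h
  · obtain ⟨e, rfl⟩ := Nat.exists_eq_add_of_le h
    refine length_le_of_inj_on (psiMap x y t e) _ _ (psiMap_mem x y z t e) ?_
    intro a _ h0
    obtain ⟨w, rfl⟩ := Submodule.Quotient.mk_surjective _ a
    rw [psiMap_mk, Submodule.Quotient.mk_eq_zero] at h0
    rw [Submodule.Quotient.mk_eq_zero]
    exact inj_step x y hx HR t e w h0
  · obtain ⟨e, rfl⟩ := Nat.exists_eq_add_of_le h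
    refine length_le_of_surj_on (psiMap x y c e) _ _ (psiMap_mem x y z c e) ?_
    intro b hb
    obtain ⟨u, rfl⟩ := Submodule.Quotient.mk_surjective _ b
    obtain ⟨N, hN⟩ := (mk_mem_Cmod x y z _ u).1 hb
    obtain ⟨h1, h2⟩ := HC _ N u hN
    obtain ⟨w, hw⟩ := colon_step x y hx HR c e u h1 h2
    refine ⟨Submodule.Quotient.mk w, ?_, ?_⟩
    · rw [mk_mem_Cmod]
      refine ⟨N, inj_step x y hx HR c e _ ?_⟩
      have h3 : (x * y) ^ e * (z ^ N * w) = z ^ N * u - z ^ N * (u - (x * y) ^ e * w) := by ring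
      rw [h3]
      exact Ideal.sub_mem _ hN (Ideal.mul_mem_left _ _ hw)
    · rw [psiMap_mk]
      refine (Submodule.Quotient.eq _).2 ?_
      have h4 : (x * y) ^ e * w - u = -(u - (x * y) ^ e * w) := by ring
      rw [h4]
      exact Ideal.neg_mem_iff _ |>.2 hw

end colon

section finiteLength

lemma length_ne_top_of_torsion {R M : Type*} [CommRing R] [AddCommGroup M] [Module R M]
    [Module.Finite R M] (J : Ideal R) [IsArtinianRing (R ⧸ J)] (hJ : ∀ r ∈ J, ∀ x : M, r • x = 0) :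
    Module.length R M ≠ ⊤ := by
  have htors : Module.IsTorsionBySet R M J := fun x r => hJ r r.2 x
  let _ : Module (R ⧸ J) M := htors.module
  have : Module.Finite (R ⧸ J) M := Module.Finite.of_restrictScalars_finite R (R ⧸ J) M
  have h : IsFiniteLength (R ⧸ J) M := ((IsArtinianRing.tfae (R ⧸ J) M).out 0 3).1 this
  rw [Module.length_eq_of_surjective (S := R) (R := R ⧸ J) Ideal.Quotient.mk_surjective]
  exact Module.length_ne_top_iff.2 h

end finiteLength

section torsion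

variable {A R : Type u} [CommRing A] [IsDomain A] [CommRing R] [Algebra A R] {n m : ℕ}
  (p : (Fin n → A) →ₗ[A] R) (D : Matrix (Fin n) (Fin m) A)

/-- A uniform annihilator from a left inverse up to `a`. -/
lemma mul_mem_of_torsion (hp : Function.Surjective p) (hD : ∀ f, p (D *ᵥ f) = 0)
    (hker : ∀ x, p x = 0 → ∃ f, D *ᵥ f = x) (a₁ a₂ a₃ : A)
    (HA3 : ∀ (t N : ℕ) (g : A), a₃ ^ N * g ∈ Ideal.span {a₁ ^ t, a₂ ^ t} →
      g ∈ Ideal.span {a₁ ^ t, a₂ ^ t})
    (a : A) (G : Matrix (Fin m) (Fin n) A) (hG : G * D = a • 1) (t N : ℕ) (u : R)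
    (hu : algebraMap A R a₃ ^ N * u ∈
      Ideal.span {algebraMap A R a₁ ^ t, algebraMap A R a₂ ^ t}) :
    algebraMap A R a * u ∈ Ideal.span {algebraMap A R a₁ ^ t, algebraMap A R a₂ ^ t} := by
  obtain ⟨α, β, hαβ⟩ := Ideal.mem_span_pair.1 hu
  obtain ⟨û, rfl⟩ := hp u
  obtain ⟨α', rfl⟩ := hp α
  obtain ⟨β', rfl⟩ := hp β
  let T : (Fin n → A) →ₗ[A] (Fin n → A) := a • LinearMap.id - D.mulVecLin ∘ₗ G.mulVecLin
  have hT : ∀ y, T y = a • y - D *ᵥ (G *ᵥ y) := fun y => rfl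
  have hTD : ∀ f, T (D *ᵥ f) = 0 := by
    intro f
    have h5 : G *ᵥ (D *ᵥ f) = a • f := by
      rw [mulVec_mulVec, hG, smul_mulVec, one_mulVec]
    rw [hT, h5, mulVec_smul, sub_self]
  have hpT : ∀ y, p (T y) = algebraMap A R a * p y := by
    intro y
    rw [hT, map_sub, map_smul, hD, sub_zero, Algebra.smul_def]
  obtain ⟨f, hf⟩ := hker ((a₃ ^ N) • û - (a₁ ^ t) • α' - (a₂ ^ t) • β') (by
    rw [map_sub, map_sub, map_smul, map_smul, map_smul, Algebra.smul_def, Algebra.smul_def,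
      Algebra.smul_def, map_pow, map_pow, map_pow]
    linear_combination -hαβ)
  have h1 : (a₃ ^ N) • T û = (a₁ ^ t) • T α' + (a₂ ^ t) • T β' := by
    have h2 := hTD f
    rw [hf, map_sub, map_sub, map_smul, map_smul, map_smul] at h2
    rw [sub_sub, sub_eq_zero] at h2
    exact h2
  have h3 : ∀ i, T û i ∈ Ideal.span {a₁ ^ t, a₂ ^ t} := by
    intro i
    apply HA3 t N
    have h4 : a₃ ^ N * T û i = a₁ ^ t * T α' i + a₂ ^ t * T β' i := congrFun h1 i
    rw [h4]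
    exact Ideal.mem_span_pair.2 ⟨T α' i, T β' i, by ring⟩
  obtain ⟨y, y', hy⟩ := exists_vec_pair _ _ _ h3
  rw [← hpT, hy, map_add, map_smul, map_smul, Algebra.smul_def, Algebra.smul_def, map_pow, map_pow]
  exact Ideal.mem_span_pair.2 ⟨p y, p y', by ring⟩

end torsion

end Vale.Agent.Lib.P190
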