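import Vale.Agent.Lib.P190.Normal7
import Vale.Agent.Lib.P190.Endo

/-!
The small Cohen-Macaulay theorem for normal F-split rings of dimension three which are
module-finite over a regular local ring.
-/

set_option linter.unusedSectionVars false

universe u

open IsLocalRing RingTheory.Sequence Matrix

namespace Vale.Agent.Lib.P190

section final

lemma length_torsion_eq_zero {R : Type u} [CommRing R] (I : Ideal R) (y : R)
    (h : ∀ (N : ℕ) (w : R), y ^ N * w ∈ I → w ∈ I) :
    Module.length R (Submodule.torsion' R (R ⧸ I) (Submonoid.powers y)) = 0 := by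
  rw [Module.length_eq_zero_iff]
  refine ⟨?_⟩
  rintro ⟨a, ha⟩ ⟨b, hb⟩
  have key : ∀ (a : R ⧸ I), a ∈ Submodule.torsion' R (R ⧸ I) (Submonoid.powers y) → a = 0 := by
    intro a ha
    obtain ⟨w, rfl⟩ := Submodule.Quotient.mk_surjective _ a
    obtain ⟨⟨_, N, rfl⟩, h1⟩ := ha
    have h2 : (y ^ N) • (Submodule.Quotient.mk w : R ⧸ I) = 0 := h1
    rw [← Submodule.Quotient.mk_smul, Submodule.Quotient.mk_eq_zero] at h2
    rw [Submodule.Quotient.mk_eq_zero]
    exact h N w h2
  apply Subtype.ext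
  change a = b
  rw [key a ha, key b hb]

variable {A R : Type u} [CommRing A] [IsDomain A] [IsLocalRing A] [IsNoetherianRing A]
  [IsIntegrallyClosed A] [CommRing R] [IsDomain R] [IsLocalRing R] [IsNoetherianRing R]
  [IsIntegrallyClosed R] [Algebra A R] [Module.Finite A R] [FaithfulSMul A R]

/-- The elementary form of finiteness of local cohomology for the parameters coming from `A`. -/
theorem hflc_normal3 (a₁ a₂ a₃ : A) (hreg : IsRegular A [a₁, a₂, a₃])
    (hm : maximalIdeal A = Ideal.span {a₁, a₂, a₃}) (i : ℕ)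
    (hi : i < [algebraMap A R a₁, algebraMap A R a₂, algebraMap A R a₃].length) :
    ∃ C : ℕ, ∀ t : ℕ, Module.length R (Submodule.torsion' R
      (R ⧸ Ideal.ofList (([algebraMap A R a₁, algebraMap A R a₂, algebraMap A R a₃].take i).map
        (· ^ t)))
      (Submonoid.powers [algebraMap A R a₁, algebraMap A R a₂, algebraMap A R a₃][i])) ≤ C := by
  obtain ⟨h1, hb, h2, h3⟩ := regular_elementwise a₁ a₂ a₃ hreg
  have hi' : i < 3 := by simpa using hi
  have hx : algebraMap A R a₁ ≠ 0 := by
    intro h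
    exact h1 (FaithfulSMul.algebraMap_injective A R (by simpa using h))
  have hy : algebraMap A R a₂ ≠ 0 := by
    intro h
    exact hb (FaithfulSMul.algebraMap_injective A R (by simpa using h))
  obtain rfl | rfl | rfl : i = 0 ∨ i = 1 ∨ i = 2 := by omega
  · refine ⟨0, fun t => ?_⟩
    refine (length_torsion_eq_zero _ _ ?_).le
    intro N w hw
    have e : Ideal.ofList (([algebraMap A R a₁, algebraMap A R a₂, algebraMap A R a₃].take 0).map
        (· ^ t)) = ⊥ := by simp
    rw [e] at hw ⊢
    have h4 : algebraMap A R a₁ ^ N * w = 0 := by simpa using hw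
    have h5 : w = 0 := (mul_eq_zero.1 h4).resolve_left (pow_ne_zero _ hx)
    simp [h5]
  · refine ⟨0, fun t => ?_⟩
    refine (length_torsion_eq_zero _ _ ?_).le
    intro N w hw
    have e : Ideal.ofList (([algebraMap A R a₁, algebraMap A R a₂, algebraMap A R a₃].take 1).map
        (· ^ t)) = Ideal.span {algebraMap A R a₁ ^ t} := by simp
    rw [e] at hw ⊢
    exact regular_mod_pow' a₁ a₂ h1 h2 t N w hw
  · obtain ⟨C, hC⟩ := exists_bound_Cmod (R := R) a₁ a₂ a₃ hm h1 hb h2 h3
    refine ⟨C, fun t => ?_⟩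
    have e : Ideal.ofList (([algebraMap A R a₁, algebraMap A R a₂, algebraMap A R a₃].take 2).map
        (· ^ t)) = Ideal.span {algebraMap A R a₁ ^ t, algebraMap A R a₂ ^ t} := by
      simp only [List.take_succ_cons, List.take_zero, List.map_cons, List.map_nil,
        Ideal.ofList_cons, Ideal.ofList_nil, sup_bot_eq]
      rw [Ideal.span_insert]
    rw [e]
    exact hC t

/-- **Small Cohen-Macaulay modules for normal F-split rings of dimension three**, with the regular
sequence made explicit. -/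
theorem exists_small_CM_normal3' (a₁ a₂ a₃ : A) (hreg : IsRegular A [a₁, a₂, a₃])
    (hm : maximalIdeal A = Ideal.span {a₁, a₂, a₃}) (p : ℕ) [Fact p.Prime] [CharP R p]
    (hfin : (frobenius R p).Finite) (φ : R →+ R) (hφ : ∀ r s, φ (r ^ p * s) = r * φ s)
    (hφ1 : φ 1 = 1) :
    ∃ (M : Type u) (_ : AddCommGroup M) (_ : Module R M) (_ : Module.Finite R M)
      (_ : Nontrivial M) (t : ℕ), t ≠ 0 ∧
        IsRegular M ([algebraMap A R a₁, algebraMap A R a₂, algebraMap A R a₃].map (· ^ t)) := by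
  obtain ⟨h1, hb, h2, h3⟩ := regular_elementwise a₁ a₂ a₃ hreg
  obtain ⟨hm1, hm2, hm3⟩ := mem_maximalIdeal_of_eq a₁ a₂ a₃ hm
  refine exists_small_CM_of_Fsplit' p hfin φ hφ hφ1
    [algebraMap A R a₁, algebraMap A R a₂, algebraMap A R a₃] ?_ ?_
    (hflc_normal3 a₁ a₂ a₃ hreg hm)
  · intro x hx
    simp only [List.mem_cons, List.not_mem_nil, or_false] at hx
    rcases hx with rfl | rfl | rfl
    · exact algebraMap_mem_maximalIdeal _ hm1
    · exact algebraMap_mem_maximalIdeal _ hm2
    · exact algebraMap_mem_maximalIdeal _ hm3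
  · rw [ringKrullDim_eq_of_integral (A := A) (R := R), ringKrullDim_eq_three a₁ a₂ a₃ hm h1 h2 h3]
    rfl

/-- **Small Cohen-Macaulay modules for normal F-split rings of dimension three.** -/
theorem exists_small_CM_normal3 (a₁ a₂ a₃ : A) (hreg : IsRegular A [a₁, a₂, a₃])
    (hm : maximalIdeal A = Ideal.span {a₁, a₂, a₃}) (p : ℕ) [Fact p.Prime] [CharP R p]
    (hfin : (frobenius R p).Finite) (φ : R →+ R) (hφ : ∀ r s, φ (r ^ p * s) = r * φ s)
    (hφ1 : φ 1 = 1) :
    ∃ (M : Type u) (_ : AddCommGroup M) (_ : Module R M) (_ : Module.Finite R M)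
      (_ : Nontrivial M) (rs : List R), IsRegular M rs ∧ (∀ x ∈ rs, x ∈ maximalIdeal R) ∧
        (rs.length : WithBot ℕ∞) = ringKrullDim R := by
  obtain ⟨h1, hb, h2, h3⟩ := regular_elementwise a₁ a₂ a₃ hreg
  obtain ⟨hm1, hm2, hm3⟩ := mem_maximalIdeal_of_eq a₁ a₂ a₃ hm
  refine exists_small_CM_of_Fsplit p hfin φ hφ hφ1
    [algebraMap A R a₁, algebraMap A R a₂, algebraMap A R a₃] ?_ ?_
    (hflc_normal3 a₁ a₂ a₃ hreg hm)
  · intro x hx
    simp only [List.mem_cons, List.not_mem_nil, or_false] at hx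
    rcases hx with rfl | rfl | rfl
    · exact algebraMap_mem_maximalIdeal _ hm1
    · exact algebraMap_mem_maximalIdeal _ hm2
    · exact algebraMap_mem_maximalIdeal _ hm3
  · rw [ringKrullDim_eq_of_integral (A := A) (R := R), ringKrullDim_eq_three a₁ a₂ a₃ hm h1 h2 h3]
    rfl

end final

end Vale.Agent.Lib.P190
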