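import Vale.Agent.Lib.P190.Tw

/-!
A split endomorphism: the restriction of scalars of `R` along `ψ` has a free summand whose rank is
the length of the restriction of scalars of the residue field.
-/

set_option linter.unusedSectionVars false

universe u

open IsLocalRing

namespace Vale.Agent.Lib.P190

section split

variable {R : Type u} [CommRing R] [IsLocalRing R] (ψ : R →+* R)
  (φ : R →+ R) (hφ : ∀ r s, φ (ψ r * s) = r * φ s) (hφ1 : φ 1 = 1)
  (hψ : ∀ r ∈ maximalIdeal R, ψ r ∈ maximalIdeal R)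

/-- The splitting as a linear map. -/
noncomputable def phiL (hφ : ∀ r s, φ (ψ r * s) = r * φ s) : Tw ψ R →ₗ[R] R where
  toFun x := φ (ofTw ψ x)
  map_add' a b := by simp only [map_add]
  map_smul' r a := by
    simp only [RingHom.id_apply, ofTw_smul, smul_eq_mul]
    exact hφ r _

@[simp] lemma phiL_apply (x : Tw ψ R) : phiL ψ φ hφ x = φ (ofTw ψ x) := rfl

/-- The residue map on the restriction of scalars. -/
noncomputable abbrev piK : Tw ψ R →ₗ[R] Tw ψ (R ⧸ maximalIdeal R) :=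
  twMap ψ (Submodule.mkQ (maximalIdeal R))

lemma piK_surjective : Function.Surjective (piK ψ) :=
  twMap_surjective ψ (Submodule.mkQ_surjective _)

include hψ in
lemma tw_residue_killed (r : R) (hr : r ∈ maximalIdeal R)
    (w : Tw ψ (R ⧸ maximalIdeal R)) : r • w = 0 := by
  obtain ⟨s, rfl⟩ := piK_surjective ψ w
  have h1 : ψ r * ofTw ψ s ∈ maximalIdeal R := Ideal.mul_mem_right _ _ (hψ r hr)
  have h2 : Submodule.Quotient.mk (p := maximalIdeal R) (ψ r * ofTw ψ s) = 0 :=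
    (Submodule.Quotient.mk_eq_zero _).2 h1
  rw [← map_smul]
  exact congrArg (toTw ψ) h2

include hφ hφ1 hψ in
/-- Extend a retraction on a free summand by one more free summand. -/
lemma retract_step (i : ℕ) (hi : (i : ℕ∞) < Module.length R (Tw ψ (R ⧸ maximalIdeal R)))
    (ρ : Tw ψ R →ₗ[R] (Fin i → R)) (ι : (Fin i → R) →ₗ[R] Tw ψ R) (h : ρ ∘ₗ ι = LinearMap.id) :
    ∃ (ρ' : Tw ψ R →ₗ[R] (Fin (i + 1) → R)) (ι' : (Fin (i + 1) → R) →ₗ[R] Tw ψ R),
      ρ' ∘ₗ ι' = LinearMap.id := by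
  classical
  have hρι : ∀ v, ρ (ι v) = v := fun v => LinearMap.congr_fun h v
  -- an element outside of the image
  obtain ⟨s, hs⟩ : ∃ s : Tw ψ R, piK ψ s ∉ LinearMap.range (piK ψ ∘ₗ ι) := by
    by_contra hcon
    push Not at hcon
    have hsurj : Function.Surjective (piK ψ ∘ₗ ι) := by
      intro w
      obtain ⟨s, rfl⟩ := piK_surjective ψ w
      exact hcon s
    have h1 := length_le_of_surjective_pi (tw_residue_killed ψ hψ) _ hsurj
    simp only [Fintype.card_fin] at h1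
    exact absurd hi (not_lt.2 h1)
  -- correct it to be killed by `ρ`
  let s' : Tw ψ R := s - ι (ρ s)
  have hρs' : ρ s' = 0 := by
    simp [s', hρι]
  have hs' : piK ψ s' ∉ LinearMap.range (piK ψ ∘ₗ ι) := by
    intro hmem
    apply hs
    have h2 : piK ψ s = piK ψ s' + (piK ψ ∘ₗ ι) (ρ s) := by
      simp [s']
    rw [h2]
    exact Submodule.add_mem _ hmem ⟨_, rfl⟩
  have hunit : IsUnit (ofTw ψ s') := by
    by_contra hnu
    apply hs'
    have h3 : ofTw ψ s' ∈ maximalIdeal R := hnu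
    have h4 : Submodule.Quotient.mk (p := maximalIdeal R) (ofTw ψ s') = 0 :=
      (Submodule.Quotient.mk_eq_zero _).2 h3
    have h5 : piK ψ s' = 0 := congrArg (toTw ψ) h4
    rw [h5]
    exact Submodule.zero_mem _
  obtain ⟨w, hw⟩ := hunit.exists_left_inv
  -- the new functional
  let ψ₀ : Tw ψ R →ₗ[R] R := phiL ψ φ hφ ∘ₗ twMap ψ (LinearMap.mulLeft R w)
  have hψ₀ : ψ₀ s' = 1 := by
    change φ (w * ofTw ψ s') = 1
    rw [hw, hφ1]
  let ψ' : Tw ψ R →ₗ[R] R := ψ₀ - ψ₀ ∘ₗ ι ∘ₗ ρ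
  have hψ'ι : ∀ v, ψ' (ι v) = 0 := by
    intro v
    simp [ψ', hρι]
  have hψ's' : ψ' s' = 1 := by
    simp [ψ', hρs', hψ₀]
  -- the new maps
  let ρ' : Tw ψ R →ₗ[R] (Fin (i + 1) → R) :=
    LinearMap.pi (Fin.cases ψ' (fun j => LinearMap.proj j ∘ₗ ρ))
  let ι' : (Fin (i + 1) → R) →ₗ[R] Tw ψ R :=
    (LinearMap.toSpanSingleton R _ s') ∘ₗ (LinearMap.proj 0) + ι ∘ₗ LinearMap.funLeft R R Fin.succ
  refine ⟨ρ', ι', ?_⟩
  apply LinearMap.ext
  intro v
  funext j
  refine Fin.cases ?_ (fun j => ?_) j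
  · simp [ρ', ι', hψ's', hψ'ι]
  · have h6 : (LinearMap.funLeft R R Fin.succ) v j = v j.succ := rfl
    simp [ρ', ι', hρs', hρι, h6]

include hφ hφ1 hψ in
/-- The restriction of scalars of `R` has a free direct summand of the expected rank. -/
theorem exists_retract (i : ℕ) (hi : (i : ℕ∞) ≤ Module.length R (Tw ψ (R ⧸ maximalIdeal R))) :
    ∃ (ρ : Tw ψ R →ₗ[R] (Fin i → R)) (ι : (Fin i → R) →ₗ[R] Tw ψ R),
      ρ ∘ₗ ι = LinearMap.id := by
  induction i with
  | zero =>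
    refine ⟨0, 0, ?_⟩
    apply LinearMap.ext
    intro v
    exact Subsingleton.elim _ _
  | succ i ih =>
    have h1 : (i : ℕ∞) < Module.length R (Tw ψ (R ⧸ maximalIdeal R)) := by
      refine lt_of_lt_of_le ?_ hi
      exact_mod_cast Nat.lt_succ_self i
    obtain ⟨ρ, ι, h⟩ := ih h1.le
    exact retract_step ψ φ hφ hφ1 hψ i h1 ρ ι h

end split

end Vale.Agent.Lib.P190
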