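import Vale.Agent.Lib.P190.FClosedNormal

/-!
A pigeonhole principle for small Cohen-Macaulay modules.  If the local cohomology has finite length
in its elementary form and `F^e_* R` splits into more direct summands than the total length of its
lower local cohomology, then one of the summands is a small Cohen-Macaulay module.  This is the local
form of the argument for graded rings, where the summands are given by the degree modulo `p^e`.
-/

set_option linter.unusedSectionVars false

universe u

open IsLocalRing RingTheory.Sequence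

namespace Vale.Agent.Lib.P190

section summands

variable {R : Type u} [CommRing R] [IsLocalRing R]

/-- A family of elements such that a relation has all coefficients in the maximal ideal has at most
as many members as the length of the module. -/
lemma card_le_length_of_family {W : Type*} [AddCommGroup W] [Module R W] {ι : Type*} [Fintype ι]
    (w : ι → W) (hw : ∀ r : ι → R, ∑ l, r l • w l = 0 → ∀ l, r l ∈ maximalIdeal R) :
    (Fintype.card ι : ℕ∞) ≤ Module.length R W := by
  classical
  let g : (ι → R) →ₗ[R] W := Fintype.linearCombination R w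
  have hker : LinearMap.ker g ≤ LinearMap.ker (piRed (R := R) ι) := by
    intro v hv
    rw [LinearMap.mem_ker] at hv ⊢
    have h1 : ∑ l, v l • w l = 0 := by
      simpa [g, Fintype.linearCombination_apply] using hv
    funext l
    exact (Submodule.Quotient.mk_eq_zero _).2 (hw v h1 l)
  let φ : ((ι → R) ⧸ LinearMap.ker g) →ₗ[R] (ι → R ⧸ maximalIdeal R) :=
    (LinearMap.ker g).liftQ (piRed ι) hker
  have hφ : Function.Surjective φ := by
    intro y
    obtain ⟨v, rfl⟩ := piRed_surjective (R := R) (ι := ι) y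
    exact ⟨Submodule.Quotient.mk v, rfl⟩
  have h1 := Module.length_le_of_surjective φ hφ
  rw [length_pi_residue, (LinearMap.quotKerEquivRange g).length_eq] at h1
  exact h1.trans (Module.length_le_of_injective (LinearMap.range g).subtype
    (Submodule.injective_subtype _))

variable [IsNoetherianRing R] (ψ : R →+* R)

/-- An additive map which is linear over the image of `ψ` preserves the ideals generated by elements
of the image of `ψ`. -/
lemma map_mem_map_of_linear (E : R →+ R) (hlin : ∀ r z, E (ψ r * z) = ψ r * E z) (I : Ideal R)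
    (b : R) (hb : b ∈ I.map ψ) (a : R) : E (a * b) ∈ I.map ψ := by
  induction hb using Submodule.span_induction generalizing a with
  | mem x hx =>
    obtain ⟨y, hy, rfl⟩ := hx
    rw [mul_comm a, hlin]
    exact Ideal.mul_mem_right _ _ (Ideal.mem_map_of_mem _ hy)
  | zero => simp
  | add x y _ _ hx hy =>
    rw [mul_add, map_add]
    exact Ideal.add_mem _ (hx a) (hy a)
  | smul r x _ hx =>
    rw [smul_eq_mul, ← mul_assoc]
    exact hx (a * r)

/-- The range of an idempotent linear over the image of `ψ`, as a submodule of `Tw ψ R`. -/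
noncomputable def summand (E : R →+ R) (hlin : ∀ r z, E (ψ r * z) = ψ r * E z) :
    Submodule R (Tw ψ R) where
  carrier := {z | E (ofTw ψ z) = ofTw ψ z}
  add_mem' := by
    intro a b ha hb
    simp only [Set.mem_setOf_eq] at ha hb ⊢
    rw [map_add, map_add, ha, hb]
  zero_mem' := by
    simp only [Set.mem_setOf_eq, map_zero]
  smul_mem' := by
    intro r z hz
    simp only [Set.mem_setOf_eq] at hz ⊢
    rw [ofTw_smul, smul_eq_mul, hlin, hz]

lemma mem_summand (E : R →+ R) (hlin : ∀ r z, E (ψ r * z) = ψ r * E z) (z : Tw ψ R) :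
    z ∈ summand ψ E hlin ↔ E (ofTw ψ z) = ofTw ψ z := Iff.rfl

/-- Elementwise regularity on the summand. -/
lemma isSMulRegular_summand (E : R →+ R) (hlin : ∀ r z, E (ψ r * z) = ψ r * E z)
    (hidem : ∀ z, E (E z) = E z) (I : Ideal R) (y : R)
    (hgood : ∀ z, E z = z → ψ y * z ∈ I.map ψ → z ∈ I.map ψ) :
    IsSMulRegular (summand ψ E hlin ⧸ (I • ⊤ : Submodule R (summand ψ E hlin))) y := by
  have hout : ∀ n : summand ψ E hlin, n ∈ (I • ⊤ : Submodule R (summand ψ E hlin)) →
      ofTw ψ (n : Tw ψ R) ∈ I.map ψ := by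
    intro n hn
    refine Submodule.smul_induction_on hn ?_ ?_
    · intro j hj s _
      rw [Submodule.coe_smul, ofTw_smul, smul_eq_mul]
      exact Ideal.mul_mem_right _ _ (Ideal.mem_map_of_mem _ hj)
    · intro a b ha hb
      rw [Submodule.coe_add, map_add]
      exact Ideal.add_mem _ ha hb
  have hin : ∀ b ∈ I.map ψ, ∀ a : R, ∀ hm : toTw ψ (E (a * b)) ∈ summand ψ E hlin,
      (⟨toTw ψ (E (a * b)), hm⟩ : summand ψ E hlin) ∈
        (I • ⊤ : Submodule R (summand ψ E hlin)) := by
    intro b hb
    induction hb using Submodule.span_induction with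
    | mem x hx =>
      intro a hm
      obtain ⟨c, hc, rfl⟩ := hx
      have hm2 : toTw ψ (E a) ∈ summand ψ E hlin := by
        rw [mem_summand, ofTw_toTw, hidem]
      have h1 : (⟨toTw ψ (E (a * ψ c)), hm⟩ : summand ψ E hlin) =
          c • (⟨toTw ψ (E a), hm2⟩ : summand ψ E hlin) := by
        apply Subtype.ext
        change toTw ψ (E (a * ψ c)) = toTw ψ (ψ c * E a)
        rw [mul_comm a, hlin]
      rw [h1]
      exact Submodule.smul_mem_smul hc Submodule.mem_top
    | zero =>
      intro a hm
      have h1 : (⟨toTw ψ (E (a * 0)), hm⟩ : summand ψ E hlin) = 0 := by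
        apply Subtype.ext
        simp
      rw [h1]
      exact Submodule.zero_mem _
    | add x y _ _ hx hy =>
      intro a hm
      have hmx : toTw ψ (E (a * x)) ∈ summand ψ E hlin := by
        rw [mem_summand, ofTw_toTw, hidem]
      have hmy : toTw ψ (E (a * y)) ∈ summand ψ E hlin := by
        rw [mem_summand, ofTw_toTw, hidem]
      have h1 : (⟨toTw ψ (E (a * (x + y))), hm⟩ : summand ψ E hlin) =
          (⟨toTw ψ (E (a * x)), hmx⟩ : summand ψ E hlin) + ⟨toTw ψ (E (a * y)), hmy⟩ := by
        apply Subtype.ext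
        rw [Submodule.coe_add]
        simp only [mul_add, map_add]
      rw [h1]
      exact Submodule.add_mem _ (hx a hmx) (hy a hmy)
    | smul r x _ hx =>
      intro a hm
      have hm2 : toTw ψ (E ((a * r) * x)) ∈ summand ψ E hlin := by
        rw [mem_summand, ofTw_toTw, hidem]
      have h1 : (⟨toTw ψ (E (a * (r • x))), hm⟩ : summand ψ E hlin) =
          ⟨toTw ψ (E ((a * r) * x)), hm2⟩ := by
        apply Subtype.ext
        simp only [smul_eq_mul, mul_assoc]
      rw [h1]
      exact hx (a * r) hm2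
  rw [isSMulRegular_iff_right_eq_zero_of_smul]
  intro z hz
  obtain ⟨n, rfl⟩ := Submodule.Quotient.mk_surjective _ z
  rw [← Submodule.Quotient.mk_smul, Submodule.Quotient.mk_eq_zero] at hz
  have h1 : ψ y * ofTw ψ (n : Tw ψ R) ∈ I.map ψ := by
    have := hout _ hz
    rwa [Submodule.coe_smul, ofTw_smul, smul_eq_mul] at this
  have hn : E (ofTw ψ (n : Tw ψ R)) = ofTw ψ (n : Tw ψ R) := n.2
  have h2 := hgood _ hn h1
  rw [Submodule.Quotient.mk_eq_zero]
  have hm : toTw ψ (E (1 * ofTw ψ (n : Tw ψ R))) ∈ summand ψ E hlin := by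
    rw [mem_summand, ofTw_toTw, hidem]
  have h3 := hin _ h2 1 hm
  have h4 : (⟨toTw ψ (E (1 * ofTw ψ (n : Tw ψ R))), hm⟩ : summand ψ E hlin) = n := by
    apply Subtype.ext
    change toTw ψ (E (1 * ofTw ψ (n : Tw ψ R))) = (n : Tw ψ R)
    rw [one_mul, hn, toTw_ofTw]
  rwa [h4] at h3

/-- The number of summands with a torsion element outside the ideal is bounded by the length of the
torsion module, multiplied by the length of the residue field under `ψ`. -/
lemma card_bad_le (u : ℕ) (hu : 1 ≤ u) (I : Ideal R) (y : R) (hy : ψ y = y ^ u)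
    {ι : Type*} [Fintype ι] [DecidableEq ι] (E : ι → (R →+ R))
    (hlin : ∀ l r z, E l (ψ r * z) = ψ r * E l z)
    (horth : ∀ l l' z, l ≠ l' → E l (E l' z) = 0) (hidem : ∀ l z, E l (E l z) = E l z)
    (c C : ℕ) (hc : Module.length R (Tw ψ (R ⧸ maximalIdeal R)) ≤ c)
    (hC : Module.length R (Submodule.torsion' R (R ⧸ I.map ψ) (Submonoid.powers y)) ≤ C)
    (S : Finset ι)
    (hS : ∀ l ∈ S, ∃ z, E l z = z ∧ (∃ N : ℕ, y ^ N * z ∈ I.map ψ) ∧ z ∉ I.map ψ) :
    S.card ≤ c * C := by
  classical
  choose! z hz1 hz2 hz3 using hS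
  set T := Submodule.torsion' R (R ⧸ I.map ψ) (Submonoid.powers y) with hT
  have hmemT : ∀ l ∈ S, (Submodule.Quotient.mk (z l) : R ⧸ I.map ψ) ∈ T := by
    intro l hl
    obtain ⟨N, hN⟩ := hz2 l hl
    refine ⟨⟨y ^ N, N, rfl⟩, ?_⟩
    change y ^ N • (Submodule.Quotient.mk (z l) : R ⧸ I.map ψ) = 0
    rw [← Submodule.Quotient.mk_smul, Submodule.Quotient.mk_eq_zero]
    exact hN
  let w : S → Tw ψ T := fun l => toTw ψ ⟨Submodule.Quotient.mk (z l), hmemT l l.2⟩
  have hw : ∀ r : S → R, ∑ l, r l • w l = 0 → ∀ l, r l ∈ maximalIdeal R := by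
    intro r hr l
    have h1 : ∑ a : S, ψ (r a) * z a ∈ I.map ψ := by
      have h2 : (ofTw ψ (∑ a, r a • w a) : T) = 0 := by
        rw [hr, map_zero]
      have h3 : ((ofTw ψ (∑ a, r a • w a) : T) : R ⧸ I.map ψ) = 0 := by
        rw [h2]; rfl
      have h4 : ((ofTw ψ (∑ a, r a • w a) : T) : R ⧸ I.map ψ) =
          Submodule.Quotient.mk (∑ a : S, ψ (r a) * z a) := by
        rw [map_sum]
        simp only [ofTw_smul, w, ofTw_toTw]
        rw [AddSubmonoidClass.coe_finset_sum]
        simp only [Submodule.coe_smul]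
        rw [← Submodule.mkQ_apply, map_sum]
        refine Finset.sum_congr rfl fun a _ => ?_
        change ψ (r a) • Submodule.Quotient.mk (z a) = Submodule.Quotient.mk (ψ (r a) * z a)
        rw [← Submodule.Quotient.mk_smul, smul_eq_mul]
      rw [h4, Submodule.Quotient.mk_eq_zero] at h3
      exact h3
    have h2 := map_mem_map_of_linear ψ (E l) (hlin l) I _ h1 1
    have h3 : E l (1 * ∑ a : S, ψ (r a) * z a) = ψ (r l) * z l := by
      rw [one_mul, map_sum]
      rw [Finset.sum_eq_single l]
      · rw [hlin, hz1 l l.2]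
      · intro b _ hb
        rw [hlin, ← hz1 b b.2, horth (l : ι) (b : ι) _ (fun h => hb (Subtype.ext h.symm)), mul_zero]
      · intro h
        exact absurd (Finset.mem_univ l) h
    rw [h3] at h2
    by_contra hnot
    have hunit : IsUnit (r l) := by
      by_contra hnu
      exact hnot hnu
    have hu2 : IsUnit (ψ (r l)) := hunit.map ψ
    exact hz3 l l.2 ((Ideal.unit_mul_mem_iff_mem _ hu2).1 h2)
  have h1 := card_le_length_of_family w hw
  have hfinT : IsFiniteLength R T := by
    rw [← Module.length_ne_top_iff]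
    exact ne_top_of_le_ne_top (ENat.natCast_ne_top C) hC
  rw [length_tw ψ hfinT] at h1
  have h2 : (Fintype.card S : ℕ∞) ≤ ((c * C : ℕ) : ℕ∞) := by
    refine h1.trans ?_
    push_cast
    gcongr
  have h3 : Fintype.card S ≤ c * C := by exact_mod_cast h2
  simpa using h3

/-- A summand on which all the torsion vanishes is a small Cohen-Macaulay module. -/
theorem exists_small_CM_of_good (hfin : Module.Finite R (Tw ψ R))
    (xs : List R) (hxs : ∀ x ∈ xs, x ∈ maximalIdeal R) (E : R →+ R)
    (hlin : ∀ r z, E (ψ r * z) = ψ r * E z) (hidem : ∀ z, E (E z) = E z) (hne : E ≠ 0)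
    (hgood : ∀ (i : ℕ) (hi : i < xs.length) (z : R), E z = z →
      ψ xs[i] * z ∈ (Ideal.ofList (xs.take i)).map ψ → z ∈ (Ideal.ofList (xs.take i)).map ψ) :
    ∃ (M : Type u) (_ : AddCommGroup M) (_ : Module R M) (_ : Module.Finite R M)
      (_ : Nontrivial M), IsRegular M xs := by
  have : IsNoetherian R (Tw ψ R) := inferInstance
  let M := summand ψ E hlin
  have hntM : Nontrivial M := by
    obtain ⟨z, hz⟩ : ∃ z, E z ≠ 0 := by
      by_contra hcon
      push Not at hcon
      exact hne (AddMonoidHom.ext hcon)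
    have hm : toTw ψ (E z) ∈ summand ψ E hlin := by
      rw [mem_summand, ofTw_toTw, hidem]
    refine ⟨⟨(⟨toTw ψ (E z), hm⟩ : M), 0, ?_⟩⟩
    intro h
    exact hz (congrArg (fun n : M => ofTw ψ (n : Tw ψ R)) h)
  have hfinM : Module.Finite R M := inferInstance
  have hreg : IsWeaklyRegular M xs := by
    refine ⟨fun i hi => ?_⟩
    exact isSMulRegular_summand ψ E hlin hidem _ _ (hgood i hi)
  exact ⟨M, inferInstance, inferInstance, hfinM, hntM,
    IsRegular.of_isWeaklyRegular_of_mem_maximalIdeal _ hxs hreg⟩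

/-- **The pigeonhole principle for summands of `Tw ψ R`.** -/
theorem exists_small_CM_of_idempotents (hfin : Module.Finite R (Tw ψ R))
    (u : ℕ) (hu : 1 ≤ u) (xs : List R) (hxs : ∀ x ∈ xs, x ∈ maximalIdeal R)
    (hψx : ∀ x ∈ xs, ψ x = x ^ u) (C : ℕ)
    (hflc : ∀ (i : ℕ) (hi : i < xs.length) (t : ℕ),
      Module.length R (Submodule.torsion' R (R ⧸ Ideal.ofList ((xs.take i).map (· ^ t)))
        (Submonoid.powers xs[i])) ≤ C)
    (c : ℕ) (hc : Module.length R (Tw ψ (R ⧸ maximalIdeal R)) ≤ c)
    {ι : Type*} [Fintype ι] [DecidableEq ι] (E : ι → (R →+ R))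
    (hlin : ∀ l r z, E l (ψ r * z) = ψ r * E l z)
    (horth : ∀ l l' z, l ≠ l' → E l (E l' z) = 0) (hidem : ∀ l z, E l (E l z) = E l z)
    (hne : ∀ l, E l ≠ 0)
    (hcard : xs.length * (c * C) < Fintype.card ι) :
    ∃ (M : Type u) (_ : AddCommGroup M) (_ : Module R M) (_ : Module.Finite R M)
      (_ : Nontrivial M), IsRegular M xs := by
  classical
  have hJ : ∀ i : ℕ, (Ideal.ofList (xs.take i)).map ψ = Ideal.ofList ((xs.take i).map (· ^ u)) := by
    intro i
    have h1 := map_ofList_pow ψ u (xs.take i) (fun x hx => hψx x (List.mem_of_mem_take hx)) 1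
    simpa using h1
  -- the bad summands at level `i`
  let Bad : Fin xs.length → Finset ι := fun i => Finset.univ.filter fun l =>
    ∃ z, E l z = z ∧ (∃ N : ℕ, xs[(i : ℕ)] ^ N * z ∈ (Ideal.ofList (xs.take i)).map ψ) ∧
      z ∉ (Ideal.ofList (xs.take i)).map ψ
  have hBad : ∀ i, (Bad i).card ≤ c * C := by
    intro i
    refine card_bad_le ψ u hu (Ideal.ofList (xs.take i)) xs[(i : ℕ)]
      (hψx _ (List.getElem_mem _)) E hlin horth hidem c C hc ?_ _ ?_
    · rw [hJ]
      exact hflc i i.2 u
    · intro l hl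
      exact (Finset.mem_filter.1 hl).2
  have hunion : (Finset.univ.biUnion Bad).card < Fintype.card ι := by
    refine lt_of_le_of_lt (Finset.card_biUnion_le) (lt_of_le_of_lt ?_ hcard)
    refine (Finset.sum_le_card_nsmul _ _ (c * C) (fun i _ => hBad i)).trans ?_
    simp
  obtain ⟨l, -, hl⟩ : ∃ l ∈ (Finset.univ : Finset ι), l ∉ Finset.univ.biUnion Bad :=
    Finset.exists_mem_notMem_of_card_lt_card (by simpa using hunion)
  have hgood : ∀ (i : ℕ) (hi : i < xs.length) (z : R), E l z = z →
      ψ xs[i] * z ∈ (Ideal.ofList (xs.take i)).map ψ → z ∈ (Ideal.ofList (xs.take i)).map ψ := by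
    intro i hi z hz hmem
    by_contra hnot
    apply hl
    refine Finset.mem_biUnion.2 ⟨⟨i, hi⟩, Finset.mem_univ _, Finset.mem_filter.2
      ⟨Finset.mem_univ _, z, hz, ⟨u, ?_⟩, hnot⟩⟩
    rw [← hψx _ (List.getElem_mem hi)]
    exact hmem
  exact exists_small_CM_of_good ψ hfin xs hxs (E l) (hlin l) (hidem l) (hne l) hgood

end summands

end Vale.Agent.Lib.P190
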