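import Vale.Agent.Lib.P190.Summands

/-!
The pigeonhole principle for summands of `F^e_* R`, for the Frobenius map: the general statement,
complete normal rings of dimension three, and gradings by `ZMod (p ^ e)`.
-/

set_option linter.unusedSectionVars false

universe u

open IsLocalRing RingTheory.Sequence

namespace Vale.Agent.Lib.P190

section frob

variable {R : Type u} [CommRing R] [IsLocalRing R] [IsNoetherianRing R] (p : ℕ) [Fact p.Prime]
  [CharP R p]

/-- The length of the residue field under `ψ` is at most the size of a generating set. -/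
lemma length_tw_residue_le (ψ : R →+* R) (hψ : ∀ r ∈ maximalIdeal R, ψ r ∈ maximalIdeal R) (c : ℕ)
    (v : Fin c → R) (hv : ∀ a : R, ∃ b : Fin c → R, a - ∑ i, v i * ψ (b i) ∈ maximalIdeal R) :
    Module.length R (Tw ψ (R ⧸ maximalIdeal R)) ≤ c := by
  have hW : ∀ r ∈ maximalIdeal R, ∀ w : Tw ψ (R ⧸ maximalIdeal R), r • w = 0 := by
    intro r hr w
    obtain ⟨a, rfl⟩ : ∃ a : R, w = toTw ψ (Submodule.Quotient.mk a) := by
      obtain ⟨a, ha⟩ := Submodule.Quotient.mk_surjective _ (ofTw ψ w)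
      exact ⟨a, by rw [ha, toTw_ofTw]⟩
    rw [toTw_smul, ← Submodule.Quotient.mk_smul]
    have h0 : (Submodule.Quotient.mk (ψ r • a) : R ⧸ maximalIdeal R) = 0 := by
      rw [Submodule.Quotient.mk_eq_zero, smul_eq_mul]
      exact Ideal.mul_mem_right _ _ (hψ r hr)
    rw [h0]
    exact map_zero _
  let g : (Fin c → R) →ₗ[R] Tw ψ (R ⧸ maximalIdeal R) :=
    Fintype.linearCombination R (fun i => toTw ψ (Submodule.Quotient.mk (v i)))
  have hg : Function.Surjective g := by
    intro w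
    obtain ⟨a, rfl⟩ : ∃ a : R, w = toTw ψ (Submodule.Quotient.mk a) := by
      obtain ⟨a, ha⟩ := Submodule.Quotient.mk_surjective _ (ofTw ψ w)
      exact ⟨a, by rw [ha, toTw_ofTw]⟩
    obtain ⟨b, hb⟩ := hv a
    refine ⟨b, ?_⟩
    simp only [g, Fintype.linearCombination_apply]
    simp only [toTw_smul, ← Submodule.Quotient.mk_smul, smul_eq_mul]
    rw [← map_sum]
    congr 1
    have h1 : (Submodule.Quotient.mk a : R ⧸ maximalIdeal R) =
        Submodule.Quotient.mk (∑ i, v i * ψ (b i)) := by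
      rw [Submodule.Quotient.eq]
      exact hb
    rw [h1]
    have h3 : (Submodule.mkQ (maximalIdeal R)) (∑ i, v i * ψ (b i)) =
        ∑ i, (Submodule.mkQ (maximalIdeal R)) (v i * ψ (b i)) := map_sum _ _ _
    change _ = (Submodule.mkQ (maximalIdeal R)) (∑ i, v i * ψ (b i))
    rw [h3]
    refine Finset.sum_congr rfl fun i _ => ?_
    rw [mul_comm]
    rfl
  simpa using length_le_of_surjective_pi hW g hg

/-- **The pigeonhole principle for summands of `F^e_* R`.** -/
theorem exists_small_CM_of_summands (hfin : (frobenius R p).Finite) (e c : ℕ) (v : Fin c → R)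
    (hv : ∀ a : R, ∃ b : Fin c → R, a - ∑ i, v i * b i ^ p ^ e ∈ maximalIdeal R)
    (xs : List R) (hxs : ∀ x ∈ xs, x ∈ maximalIdeal R) (C : ℕ)
    (hflc : ∀ (i : ℕ) (hi : i < xs.length) (t : ℕ),
      Module.length R (Submodule.torsion' R (R ⧸ Ideal.ofList ((xs.take i).map (· ^ t)))
        (Submonoid.powers xs[i])) ≤ C)
    (n : ℕ) (E : Fin n → (R →+ R))
    (hlin : ∀ l r z, E l (r ^ p ^ e * z) = r ^ p ^ e * E l z)
    (horth : ∀ l l' z, l ≠ l' → E l (E l' z) = 0) (hidem : ∀ l z, E l (E l z) = E l z)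
    (hne : ∀ l, E l ≠ 0)
    (hcard : xs.length * (c * C) < n) :
    ∃ (M : Type u) (_ : AddCommGroup M) (_ : Module R M) (_ : Module.Finite R M)
      (_ : Nontrivial M), IsRegular M xs := by
  have hp0 : 0 < p ^ e := pow_pos (Fact.out : p.Prime).pos e
  refine exists_small_CM_of_idempotents (iterateFrobenius R p e)
    (finite_tw_of_finite _ (iterateFrobenius_finite R p hfin e)) (p ^ e) hp0 xs hxs
    (fun x _ => iterateFrobenius_def p e x) C hflc c ?_ E
    (fun l r z => by simpa [iterateFrobenius_def] using hlin l r z) horth hidem hne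
    (by simpa using hcard)
  refine length_tw_residue_le _ ?_ c v ?_
  · intro r hr
    rw [iterateFrobenius_def]
    exact Ideal.pow_mem_of_mem _ hr _ hp0
  · intro a
    obtain ⟨b, hb⟩ := hv a
    exact ⟨b, by simpa [iterateFrobenius_def] using hb⟩

lemma perfect_pow (hperf : ∀ a : R, ∃ b : R, a - b ^ p ∈ maximalIdeal R) (e : ℕ) (a : R) :
    ∃ b : R, a - b ^ p ^ e ∈ maximalIdeal R := by
  induction e generalizing a with
  | zero =>
    exact ⟨a, by simp⟩
  | succ e ih =>
    obtain ⟨b, hb⟩ := ih a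
    obtain ⟨b', hb'⟩ := hperf b
    refine ⟨b', ?_⟩
    have h1 : b ^ p ^ e - (b' ^ p) ^ p ^ e = (b - b' ^ p) ^ p ^ e := by
      have := map_sub (iterateFrobenius R p e) b (b' ^ p)
      simpa [iterateFrobenius_def] using this.symm
    have h2 : b' ^ p ^ (e + 1) = (b' ^ p) ^ p ^ e := by
      rw [← pow_mul, pow_succ, mul_comm]
    rw [h2]
    have h3 : a - (b' ^ p) ^ p ^ e = (a - b ^ p ^ e) + (b ^ p ^ e - (b' ^ p) ^ p ^ e) := by ring
    rw [h3, h1]
    exact Ideal.add_mem _ hb (Ideal.pow_mem_of_mem _ hb' _ (pow_pos (Fact.out : p.Prime).pos e))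

end frob

section normal

variable {A R : Type u} [CommRing A] [IsDomain A] [IsLocalRing A] [IsNoetherianRing A]
  [IsIntegrallyClosed A] [CommRing R] [IsDomain R] [IsLocalRing R] [IsNoetherianRing R]
  [IsIntegrallyClosed R] [Algebra A R] [Module.Finite A R] [FaithfulSMul A R]

/-- The pigeonhole principle for normal rings module-finite over a regular local ring of dimension
three, with perfect residue field. -/
theorem exists_small_CM_normal3_summands (a₁ a₂ a₃ : A) (hreg : IsRegular A [a₁, a₂, a₃])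
    (hm : maximalIdeal A = Ideal.span {a₁, a₂, a₃}) (p : ℕ) [Fact p.Prime] [CharP R p]
    (hfin : (frobenius R p).Finite)
    (hperf : ∀ a : R, ∃ b : R, a - b ^ p ∈ maximalIdeal R)
    (hsum : ∀ N : ℕ, ∃ (e n : ℕ) (E : Fin n → (R →+ R)), N < n ∧
      (∀ l r z, E l (r ^ p ^ e * z) = r ^ p ^ e * E l z) ∧
      (∀ l l' z, l ≠ l' → E l (E l' z) = 0) ∧ (∀ l z, E l (E l z) = E l z) ∧ ∀ l, E l ≠ 0) :
    ∃ (M : Type u) (_ : AddCommGroup M) (_ : Module R M) (_ : Module.Finite R M)
      (_ : Nontrivial M), IsRegular M [algebraMap A R a₁, algebraMap A R a₂, algebraMap A R a₃] := by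
  obtain ⟨hm1, hm2, hm3⟩ := mem_maximalIdeal_of_eq a₁ a₂ a₃ hm
  set xs : List R := [algebraMap A R a₁, algebraMap A R a₂, algebraMap A R a₃] with hxs
  have hflc := hflc_normal3 (R := R) a₁ a₂ a₃ hreg hm
  obtain ⟨C₀, hC₀⟩ := hflc 0 (by simp)
  obtain ⟨C₁, hC₁⟩ := hflc 1 (by simp)
  obtain ⟨C₂, hC₂⟩ := hflc 2 (by simp)
  let C := C₀ + C₁ + C₂
  have hC : ∀ (i : ℕ) (hi : i < xs.length) (t : ℕ),
      Module.length R (Submodule.torsion' R (R ⧸ Ideal.ofList ((xs.take i).map (· ^ t)))
        (Submonoid.powers xs[i])) ≤ C := by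
    intro i hi t
    have hi' : i < 3 := by simpa [hxs] using hi
    have hC' : ((C₀ : ℕ∞) + C₁ + C₂) = (C : ℕ∞) := by push_cast [C]; rfl
    obtain rfl | rfl | rfl : i = 0 ∨ i = 1 ∨ i = 2 := by omega
    · refine (hC₀ t).trans ?_
      rw [← hC']
      exact le_trans le_self_add le_self_add
    · refine (hC₁ t).trans ?_
      rw [← hC']
      exact le_trans le_add_self le_self_add
    · refine (hC₂ t).trans ?_
      rw [← hC']
      exact le_add_self
  obtain ⟨e, n, E, hn, hlin, horth, hidem, hne⟩ := hsum (3 * (1 * C))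
  refine exists_small_CM_of_summands p hfin e 1 (fun _ => 1) ?_ xs ?_ C hC n E hlin horth hidem hne
    (by simpa [hxs] using hn)
  · intro a
    obtain ⟨b, hb⟩ := perfect_pow p hperf e a
    exact ⟨fun _ => b, by simpa using hb⟩
  · intro x hx
    simp only [hxs, List.mem_cons, List.not_mem_nil, or_false] at hx
    rcases hx with rfl | rfl | rfl
    · exact algebraMap_mem_maximalIdeal _ hm1
    · exact algebraMap_mem_maximalIdeal _ hm2
    · exact algebraMap_mem_maximalIdeal _ hm3

end normal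

section complete

/-- **The pigeonhole principle for complete normal domains of dimension three with perfect residue
field: if the number of direct summands of `F^e_* R` is unbounded, then `R` has a small
Cohen-Macaulay module.** -/
theorem exists_small_CM_complete_normal3_summands {R : Type u} [CommRing R] [IsDomain R]
    [IsLocalRing R] [IsNoetherianRing R] [IsAdicComplete (maximalIdeal R) R] [IsIntegrallyClosed R]
    (hdim : ringKrullDim R = 3) (p : ℕ) [Fact p.Prime] [CharP R p] (hfin : (frobenius R p).Finite)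
    (hperf : ∀ a : R, ∃ b : R, a - b ^ p ∈ maximalIdeal R)
    (hsum : ∀ N : ℕ, ∃ (e n : ℕ) (E : Fin n → (R →+ R)), N < n ∧
      (∀ l r z, E l (r ^ p ^ e * z) = r ^ p ^ e * E l z) ∧
      (∀ l l' z, l ≠ l' → E l (E l' z) = 0) ∧ (∀ l z, E l (E l z) = E l z) ∧ ∀ l, E l ≠ 0) :
    ∃ (M : Type u) (_ : AddCommGroup M) (_ : Module R M) (_ : Module.Finite R M)
      (_ : Nontrivial M) (rs : List R), IsRegular M rs ∧ (∀ x ∈ rs, x ∈ maximalIdeal R) ∧
        (rs.length : WithBot ℕ∞) = ringKrullDim R := by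
  classical
  obtain ⟨Φ, hinj, hfinΦ⟩ := exists_structure hdim p hfin
  let A := PS3 (ResidueField R)
  let _ : Algebra A R := Φ.toAlgebra
  have : Module.Finite A R := hfinΦ
  have : FaithfulSMul A R := (faithfulSMul_iff_algebraMap_injective A R).2 hinj
  let a₁ : A := MvPowerSeries.X 0
  let a₂ : A := MvPowerSeries.X 1
  let a₃ : A := MvPowerSeries.X 2
  have hreg : IsRegular A [a₁, a₂, a₃] := isRegular_PS3 _
  have hm : maximalIdeal A = Ideal.span {a₁, a₂, a₃} := maximalIdeal_PS3 _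
  obtain ⟨hm1, hm2, hm3⟩ := mem_maximalIdeal_of_eq a₁ a₂ a₃ hm
  have hm1' := algebraMap_mem_maximalIdeal (R := R) a₁ hm1
  have hm2' := algebraMap_mem_maximalIdeal (R := R) a₂ hm2
  have hm3' := algebraMap_mem_maximalIdeal (R := R) a₃ hm3
  obtain ⟨M, i1, i2, i3, i4, hM⟩ :=
    exists_small_CM_normal3_summands (A := A) (R := R) a₁ a₂ a₃ hreg hm p hfin hperf hsum
  refine ⟨M, i1, i2, i3, i4, _, hM, ?_, ?_⟩
  · intro x hx
    simp only [List.mem_cons, List.not_mem_nil, or_false] at hx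
    rcases hx with rfl | rfl | rfl
    · exact hm1'
    · exact hm2'
    · exact hm3'
  · rw [hdim]
    simp

end complete

section graded

variable {R : Type u} [CommRing R] (p : ℕ) [Fact p.Prime] [CharP R p] (e : ℕ)
  (𝒜 : ZMod (p ^ e) → AddSubgroup R) [GradedRing 𝒜]

/-- A `p ^ e`-th power has degree zero for a grading by `ZMod (p ^ e)`. -/
lemma pow_mem_grade_zero (r : R) : r ^ p ^ e ∈ 𝒜 0 := by
  classical
  have h1 : r = ∑ i ∈ (DirectSum.decompose 𝒜 r).support, ((DirectSum.decompose 𝒜 r i : 𝒜 i) : R) :=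
    (DirectSum.sum_support_decompose 𝒜 r).symm
  rw [h1, sum_pow_char_pow]
  refine AddSubgroup.sum_mem _ fun i _ => ?_
  have h2 := SetLike.pow_mem_graded (p ^ e) (DirectSum.decompose 𝒜 r i : 𝒜 i).2
  have h3 : (p ^ e) • i = 0 := by
    rw [nsmul_eq_mul]
    have : ((p ^ e : ℕ) : ZMod (p ^ e)) = 0 := ZMod.natCast_self _
    rw [this, zero_mul]
  rwa [h3] at h2

/-- The homogeneous projections of a grading by `ZMod (p ^ e)` form a family of orthogonal idempotents
linear over the `p ^ e`-th powers. -/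
lemma exists_family_of_grading :
    ∃ (E : Fin (Set.ncard {j : ZMod (p ^ e) | 𝒜 j ≠ ⊥}) → (R →+ R)),
      (∀ l r z, E l (r ^ p ^ e * z) = r ^ p ^ e * E l z) ∧
      (∀ l l' z, l ≠ l' → E l (E l' z) = 0) ∧ (∀ l z, E l (E l z) = E l z) ∧ ∀ l, E l ≠ 0 := by
  classical
  have : NeZero (p ^ e) := ⟨pow_ne_zero _ (Fact.out : p.Prime).ne_zero⟩
  let S := {j : ZMod (p ^ e) // 𝒜 j ≠ ⊥}
  have hcard : Fintype.card S = Set.ncard {j : ZMod (p ^ e) | 𝒜 j ≠ ⊥} := by
    rw [← Nat.card_eq_fintype_card, ← Nat.card_coe_set_eq]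
    rfl
  let eq0 : Fin (Set.ncard {j : ZMod (p ^ e) | 𝒜 j ≠ ⊥}) ≃ S :=
    (finCongr hcard.symm).trans (Fintype.equivFin S).symm
  refine ⟨fun l => GradedRing.proj 𝒜 (eq0 l).1, ?_, ?_, ?_, ?_⟩
  · intro l r z
    simp only [GradedRing.proj_apply]
    exact DirectSum.coe_decompose_mul_of_left_mem_zero 𝒜 (pow_mem_grade_zero p e 𝒜 r)
  · intro l l' z hll
    simp only [GradedRing.proj_apply]
    refine DirectSum.decompose_of_mem_ne 𝒜 (i := (eq0 l').1) (j := (eq0 l).1)
      (DirectSum.decompose 𝒜 z (eq0 l').1 : 𝒜 (eq0 l').1).2 ?_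
    intro h
    exact hll (eq0.injective (Subtype.ext h.symm))
  · intro l z
    simp only [GradedRing.proj_apply]
    exact DirectSum.decompose_of_mem_same 𝒜 (DirectSum.decompose 𝒜 z (eq0 l).1 : 𝒜 (eq0 l).1).2
  · intro l h0
    apply (eq0 l).2
    rw [AddSubgroup.eq_bot_iff_forall]
    intro x hx
    have h1 := congrArg (fun f : R →+ R => f x) h0
    simp only [GradedRing.proj_apply, AddMonoidHom.zero_apply] at h1
    rwa [DirectSum.decompose_of_mem_same 𝒜 hx] at h1

end graded

end Vale.Agent.Lib.P190
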