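import Vale.Agent.Lib.P190.SummandsFrob

/-!
The pigeonhole principle for gradings by `ZMod (p ^ e)`, with no condition on the residue field: if
the maximal ideal is homogeneous, the number of degrees in which the torsion modules live is at most
their length.
-/

set_option linter.unusedSectionVars false

universe u

open IsLocalRing RingTheory.Sequence

namespace Vale.Agent.Lib.P190

section graded

variable {R : Type u} [CommRing R] [IsLocalRing R] (p : ℕ) [Fact p.Prime] [CharP R p] (e : ℕ)
  (𝒜 : ZMod (p ^ e) → AddSubgroup R) [GradedRing 𝒜]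

/-- The degree zero part of a grading, as a subring. -/
def gradeZero : Subring R where
  carrier := 𝒜 0
  mul_mem' := by
    intro a b ha hb
    have := SetLike.GradedMul.mul_mem ha hb
    rwa [add_zero] at this
  one_mem' := SetLike.GradedOne.one_mem
  add_mem' := fun ha hb => (𝒜 0).add_mem ha hb
  zero_mem' := (𝒜 0).zero_mem
  neg_mem' := fun ha => (𝒜 0).neg_mem ha

lemma mem_gradeZero (x : R) : x ∈ gradeZero p e 𝒜 ↔ x ∈ 𝒜 0 := Iff.rfl

/-- A unit of `R` of degree zero has its inverse in degree zero. -/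
lemma isUnit_gradeZero (a : gradeZero p e 𝒜) (ha : IsUnit (a : R)) : IsUnit a := by
  obtain ⟨u, hu⟩ := ha
  let b : R := (DirectSum.decompose 𝒜 (↑u⁻¹ : R) 0 : 𝒜 0)
  have hb : b ∈ 𝒜 0 := (DirectSum.decompose 𝒜 (↑u⁻¹ : R) 0 : 𝒜 0).2
  have h1 : (a : R) * b = 1 := by
    have h2 : (DirectSum.decompose 𝒜 ((a : R) * (↑u⁻¹ : R)) 0 : R) = (a : R) * b :=
      DirectSum.coe_decompose_mul_of_left_mem_zero 𝒜 a.2
    have h3 : (a : R) * (↑u⁻¹ : R) = 1 := by
      rw [← hu]
      simp
    rw [h3] at h2
    rw [← h2]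
    exact DirectSum.decompose_of_mem_same 𝒜 SetLike.GradedOne.one_mem
  exact IsUnit.of_mul_eq_one ⟨b, hb⟩ (Subtype.ext h1)

instance : IsLocalRing (gradeZero p e 𝒜) := by
  refine IsLocalRing.of_nonunits_add ?_
  intro a b ha hb hab
  have h1 : IsUnit ((a : R) + (b : R)) := by
    have := hab.map (gradeZero p e 𝒜).subtype
    simpa using this
  rcases IsLocalRing.isUnit_or_isUnit_of_isUnit_add h1 with h2 | h2
  · exact ha (isUnit_gradeZero p e 𝒜 a h2)
  · exact hb (isUnit_gradeZero p e 𝒜 b h2)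

lemma exists_gradeZero_sub_mem (hm : ∀ j, j ≠ 0 → ∀ x ∈ 𝒜 j, x ∈ maximalIdeal R) (r : R) :
    ∃ s ∈ 𝒜 0, r - s ∈ maximalIdeal R := by
  classical
  have key : r - (DirectSum.decompose 𝒜 r 0 : R) ∈ maximalIdeal R := by
    induction r using DirectSum.Decomposition.inductionOn 𝒜 with
    | zero => simp
    | @homogeneous i m =>
      by_cases hi : i = 0
      · subst hi
        rw [DirectSum.decompose_of_mem_same 𝒜 m.2, sub_self]
        exact Ideal.zero_mem _
      · rw [DirectSum.decompose_of_mem_ne 𝒜 m.2 hi, sub_zero]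
        exact hm i hi m m.2
    | add a b ha hb =>
      have h1 : a + b - (DirectSum.decompose 𝒜 (a + b) 0 : R) =
          (a - (DirectSum.decompose 𝒜 a 0 : R)) + (b - (DirectSum.decompose 𝒜 b 0 : R)) := by
        rw [DirectSum.decompose_add]
        simp only [DirectSum.add_apply, AddMemClass.coe_add]
        ring
      rw [h1]
      exact Ideal.add_mem _ ha hb
  exact ⟨_, (DirectSum.decompose 𝒜 r 0 : 𝒜 0).2, key⟩

/-- A simple module over `R` is simple over the degree zero part. -/
lemma isSimpleModule_gradeZero (hres : ∀ r : R, ∃ s ∈ 𝒜 0, r - s ∈ maximalIdeal R)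
    (X : Type*) [AddCommGroup X] [Module R X] [IsSimpleModule R X] :
    IsSimpleModule (gradeZero p e 𝒜) X := by
  have hkill : ∀ r ∈ maximalIdeal R, ∀ x : X, r • x = 0 := by
    intro r hr x
    obtain ⟨I, hI, ⟨f⟩⟩ := isSimpleModule_iff_quot_maximal.1 (inferInstance : IsSimpleModule R X)
    obtain rfl : I = maximalIdeal R := IsLocalRing.eq_maximalIdeal hI
    apply f.injective
    rw [map_smul, map_zero]
    obtain ⟨a, ha⟩ := Submodule.Quotient.mk_surjective _ (f x)
    rw [← ha, ← Submodule.Quotient.mk_smul, Submodule.Quotient.mk_eq_zero, smul_eq_mul]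
    exact Ideal.mul_mem_right _ _ hr
  have hnt : Nontrivial X := IsSimpleModule.nontrivial R X
  refine (isSimpleModule_iff (gradeZero p e 𝒜) X).2 { eq_bot_or_eq_top := fun U => ?_ }
  let U' : Submodule R X :=
    { carrier := U
      add_mem' := fun ha hb => U.add_mem ha hb
      zero_mem' := U.zero_mem
      smul_mem' := by
        intro r x hx
        obtain ⟨s, hs, hrs⟩ := hres r
        have h1 : r • x = (⟨s, hs⟩ : gradeZero p e 𝒜) • x := by
          have h2 : (r - s) • x = 0 := hkill _ hrs x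
          rw [sub_smul, sub_eq_zero] at h2
          exact h2
        rw [h1]
        exact U.smul_mem _ hx }
  rcases eq_bot_or_eq_top U' with h | h
  · left
    rw [eq_bot_iff]
    intro x hx
    have : x ∈ U' := hx
    rw [h] at this
    exact this
  · right
    rw [eq_top_iff]
    intro x _
    have : x ∈ U' := by rw [h]; trivial
    exact this

/-- Lengths over the degree zero part are at most lengths over `R`. -/
lemma length_gradeZero_le (hres : ∀ r : R, ∃ s ∈ 𝒜 0, r - s ∈ maximalIdeal R)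
    (W : Type u) [AddCommGroup W] [Module R W] (h : IsFiniteLength R W) :
    Module.length (gradeZero p e 𝒜) W ≤ Module.length R W := by
  induction h with
  | @of_subsingleton M _ _ _ =>
    simp [Module.length_eq_zero]
  | @of_simple_quotient M _ _ N _ _ ih =>
    have h1 : Module.length (gradeZero p e 𝒜) M =
        Module.length (gradeZero p e 𝒜) N + Module.length (gradeZero p e 𝒜) (M ⧸ N) :=
      Module.length_eq_add_of_exact (N.subtype.restrictScalars (gradeZero p e 𝒜))
        (N.mkQ.restrictScalars (gradeZero p e 𝒜)) N.injective_subtype N.mkQ_surjective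
        (LinearMap.exact_subtype_mkQ N)
    have h2 : Module.length R M = Module.length R N + Module.length R (M ⧸ N) :=
      Module.length_eq_add_of_exact N.subtype N.mkQ N.injective_subtype N.mkQ_surjective
        (LinearMap.exact_subtype_mkQ N)
    have : IsSimpleModule (gradeZero p e 𝒜) (M ⧸ N) :=
      isSimpleModule_gradeZero p e 𝒜 hres (M ⧸ N)
    have h3 : Module.length (gradeZero p e 𝒜) (M ⧸ N) = 1 := Module.length_eq_one _ _
    have h4 : Module.length R (M ⧸ N) = 1 := Module.length_eq_one _ _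
    rw [h1, h2, h3, h4]
    gcongr

variable [IsNoetherianRing R]

/-- The homogeneous projections are linear over the `p ^ e`-th powers. -/
lemma proj_lin (j : ZMod (p ^ e)) (r z : R) :
    GradedRing.proj 𝒜 j (iterateFrobenius R p e r * z) =
      iterateFrobenius R p e r * GradedRing.proj 𝒜 j z := by
  simp only [GradedRing.proj_apply, iterateFrobenius_def]
  exact DirectSum.coe_decompose_mul_of_left_mem_zero 𝒜 (pow_mem_grade_zero p e 𝒜 r)

/-- The relation step: a relation with coefficients of degree zero among homogeneous elements of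
distinct degrees gives a relation for each term. -/
lemma relation_step (I : Ideal R) (S : Finset (ZMod (p ^ e))) (z : ZMod (p ^ e) → R)
    (hz0 : ∀ j ∈ S, z j ∈ 𝒜 j) (r : S → R) (hr0 : ∀ a, r a ∈ 𝒜 0)
    (h1 : ∑ a : S, r a * z a ∈ I.map (iterateFrobenius R p e)) (j : S) :
    r j * z j ∈ I.map (iterateFrobenius R p e) := by
  classical
  have h2 := map_mem_map_of_linear (iterateFrobenius R p e)
    (GradedRing.proj 𝒜 (j : ZMod (p ^ e))) (proj_lin p e 𝒜 _) I _ h1 1
  have h3 : GradedRing.proj 𝒜 (j : ZMod (p ^ e)) (1 * ∑ a : S, r a * z a) = r j * z j := by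
    rw [one_mul, map_sum]
    have hstep : ∀ a : S, GradedRing.proj 𝒜 (j : ZMod (p ^ e)) (r a * z a) =
        r a * GradedRing.proj 𝒜 (j : ZMod (p ^ e)) (z a) := by
      intro a
      simp only [GradedRing.proj_apply]
      exact DirectSum.coe_decompose_mul_of_left_mem_zero 𝒜 (hr0 a)
    rw [Finset.sum_eq_single j]
    · rw [hstep, GradedRing.proj_apply]
      rw [DirectSum.decompose_of_mem_same 𝒜 (hz0 j j.2)]
    · intro b _ hb
      rw [hstep, GradedRing.proj_apply]
      rw [DirectSum.decompose_of_mem_ne 𝒜 (hz0 b b.2) (fun h => hb (Subtype.ext h)), mul_zero]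
    · intro h
      exact absurd (Finset.mem_univ j) h
  rwa [h3] at h2

/-- A family in a finite length module with no relation having a unit coefficient over the degree
zero part has at most length-many elements. -/
lemma card_le_of_family_gradeZero (hres : ∀ r : R, ∃ s ∈ 𝒜 0, r - s ∈ maximalIdeal R)
    (W : Type u) [AddCommGroup W] [Module R W] (hfinW : IsFiniteLength R W)
    {ι : Type} [Fintype ι] (w : ι → W)
    (hw : ∀ r : ι → gradeZero p e 𝒜, ∑ j, r j • w j = 0 → ∀ j, r j ∈ maximalIdeal (gradeZero p e 𝒜)) :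
    (Fintype.card ι : ℕ∞) ≤ Module.length R W :=
  (card_le_length_of_family w hw).trans (length_gradeZero_le p e 𝒜 hres W hfinW)

/-- The classes of elements killed by powers of `y` modulo `J` lie in the torsion. -/
lemma mk_mem_torsion' (J : Ideal R) (y z : R) (N : ℕ) (hN : y ^ N * z ∈ J) :
    (Submodule.Quotient.mk z : R ⧸ J) ∈ Submodule.torsion' R (R ⧸ J) (Submonoid.powers y) := by
  refine ⟨⟨y ^ N, N, rfl⟩, ?_⟩
  change y ^ N • (Submodule.Quotient.mk z : R ⧸ J) = 0
  rw [← Submodule.Quotient.mk_smul, Submodule.Quotient.mk_eq_zero]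
  exact hN

/-- Relations in the torsion are relations in the ring. -/
lemma sum_mem_of_sum_torsion_eq_zero (J : Ideal R) (y : R) {ι : Type} [Fintype ι] (z : ι → R)
    (hz : ∀ a, (Submodule.Quotient.mk (z a) : R ⧸ J) ∈
      Submodule.torsion' R (R ⧸ J) (Submonoid.powers y))
    (r : ι → gradeZero p e 𝒜)
    (hr : ∑ a, r a • (⟨Submodule.Quotient.mk (z a), hz a⟩ :
      Submodule.torsion' R (R ⧸ J) (Submonoid.powers y)) = 0) :
    ∑ a, (r a : R) * z a ∈ J := by
  have h3 := congrArg (Submodule.subtype (Submodule.torsion' R (R ⧸ J) (Submonoid.powers y))) hr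
  rw [map_zero, map_sum] at h3
  have h4 : ∑ a, (Submodule.subtype (Submodule.torsion' R (R ⧸ J) (Submonoid.powers y)))
      (r a • (⟨Submodule.Quotient.mk (z a), hz a⟩ :
        Submodule.torsion' R (R ⧸ J) (Submonoid.powers y))) =
      Submodule.Quotient.mk (∑ a, (r a : R) * z a) := by
    rw [← Submodule.mkQ_apply, map_sum]
    refine Finset.sum_congr rfl fun a _ => ?_
    change (r a : R) • (Submodule.Quotient.mk (z a) : R ⧸ J) =
      Submodule.Quotient.mk ((r a : R) * z a)
    rw [← Submodule.Quotient.mk_smul, smul_eq_mul]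
  rw [h4, Submodule.Quotient.mk_eq_zero] at h3
  exact h3

/-- **Counting the degrees of the torsion.** -/
lemma card_bad_graded (hres : ∀ r : R, ∃ s ∈ 𝒜 0, r - s ∈ maximalIdeal R) (I : Ideal R) (y : R) (C : ℕ)
    (hC : Module.length R (Submodule.torsion' R (R ⧸ I.map (iterateFrobenius R p e))
      (Submonoid.powers y)) ≤ C)
    (S : Finset (ZMod (p ^ e)))
    (hS : ∀ j ∈ S, ∃ z ∈ 𝒜 j, (∃ N : ℕ, y ^ N * z ∈ I.map (iterateFrobenius R p e)) ∧
      z ∉ I.map (iterateFrobenius R p e)) :
    S.card ≤ C := by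
  classical
  choose! z hz0 hz1 hz2 using hS
  have hmemT : ∀ j : S, (Submodule.Quotient.mk (z j) : R ⧸ I.map (iterateFrobenius R p e)) ∈
      Submodule.torsion' R (R ⧸ I.map (iterateFrobenius R p e)) (Submonoid.powers y) := by
    intro j
    obtain ⟨N, hN⟩ := hz1 j j.2
    exact mk_mem_torsion' _ y _ N hN
  have hfinT : IsFiniteLength R (Submodule.torsion' R (R ⧸ I.map (iterateFrobenius R p e))
      (Submonoid.powers y)) := by
    rw [← Module.length_ne_top_iff]
    exact ne_top_of_le_ne_top (ENat.natCast_ne_top C) hC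
  have h1 := card_le_of_family_gradeZero p e 𝒜 hres _ hfinT
    (fun j : S => (⟨Submodule.Quotient.mk (z j), hmemT j⟩ :
      Submodule.torsion' R (R ⧸ I.map (iterateFrobenius R p e)) (Submonoid.powers y))) (by
    intro r hr j
    have hsum := sum_mem_of_sum_torsion_eq_zero p e 𝒜 _ y (fun j : S => z j) hmemT r hr
    have h2 := relation_step p e 𝒜 I S z hz0 (fun a => (r a : R)) (fun a => (r a).2) hsum j
    by_contra hnot
    have hunit : IsUnit (r j) := by
      by_contra hnu
      exact hnot hnu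
    have hu2 : IsUnit ((r j : gradeZero p e 𝒜) : R) := hunit.map (gradeZero p e 𝒜).subtype
    exact hz2 j j.2 ((Ideal.unit_mul_mem_iff_mem _ hu2).1 h2))
  have h3 : (Fintype.card S : ℕ∞) ≤ (C : ℕ∞) := h1.trans hC
  have h4 : Fintype.card S ≤ C := by exact_mod_cast h3
  simpa using h4

/-- **The pigeonhole principle for gradings by `ZMod (p ^ e)`.** -/
theorem exists_small_CM_of_grading (hfin : (frobenius R p).Finite)
    (hm : ∀ j, j ≠ 0 → ∀ x ∈ 𝒜 j, x ∈ maximalIdeal R)
    (xs : List R) (hxs : ∀ x ∈ xs, x ∈ maximalIdeal R) (C : ℕ)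
    (hflc : ∀ (i : ℕ) (hi : i < xs.length) (t : ℕ),
      Module.length R (Submodule.torsion' R (R ⧸ Ideal.ofList ((xs.take i).map (· ^ t)))
        (Submonoid.powers xs[i])) ≤ C)
    (hcard : xs.length * C < Set.ncard {j : ZMod (p ^ e) | 𝒜 j ≠ ⊥}) :
    ∃ (M : Type u) (_ : AddCommGroup M) (_ : Module R M) (_ : Module.Finite R M)
      (_ : Nontrivial M), IsRegular M xs := by
  classical
  have : NeZero (p ^ e) := ⟨pow_ne_zero _ (Fact.out : p.Prime).ne_zero⟩
  have hres := exists_gradeZero_sub_mem p e 𝒜 hm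
  set ψ := iterateFrobenius R p e with hψ
  have hp0 : 0 < p ^ e := pow_pos (Fact.out : p.Prime).pos e
  have hψx : ∀ x : R, ψ x = x ^ p ^ e := fun x => iterateFrobenius_def p e x
  have hJ : ∀ i : ℕ, (Ideal.ofList (xs.take i)).map ψ =
      Ideal.ofList ((xs.take i).map (· ^ (p ^ e))) := by
    intro i
    have h1 := map_ofList_pow ψ (p ^ e) (xs.take i) (fun x _ => hψx x) 1
    simpa using h1
  let Bad : Fin xs.length → Finset (ZMod (p ^ e)) := fun i => Finset.univ.filter fun j =>
    ∃ z ∈ 𝒜 j, (∃ N : ℕ, xs[(i : ℕ)] ^ N * z ∈ (Ideal.ofList (xs.take i)).map ψ) ∧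
      z ∉ (Ideal.ofList (xs.take i)).map ψ
  have hBad : ∀ i, (Bad i).card ≤ C := by
    intro i
    refine card_bad_graded p e 𝒜 hres (Ideal.ofList (xs.take i)) xs[(i : ℕ)] C ?_ _ ?_
    · rw [← hψ, hJ]
      exact hflc i i.2 (p ^ e)
    · intro j hj
      exact (Finset.mem_filter.1 hj).2
  have hunion : (Finset.univ.biUnion Bad).card < (Finset.univ.filter fun j => 𝒜 j ≠ ⊥).card := by
    refine lt_of_le_of_lt (Finset.card_biUnion_le) (lt_of_le_of_lt ?_ (lt_of_lt_of_eq hcard ?_))
    · refine (Finset.sum_le_card_nsmul _ _ C (fun i _ => hBad i)).trans ?_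
      simp
    · rw [Set.ncard_eq_toFinset_card']
      congr 1
      ext j
      simp
  obtain ⟨j, hj, hl⟩ := Finset.exists_mem_notMem_of_card_lt_card hunion
  have hjne : 𝒜 j ≠ ⊥ := (Finset.mem_filter.1 hj).2
  have hE : ∀ z, GradedRing.proj 𝒜 j z = z → z ∈ 𝒜 j := by
    intro z hz
    rw [← hz]
    exact (DirectSum.decompose 𝒜 z j : 𝒜 j).2
  refine exists_small_CM_of_good ψ (finite_tw_of_finite _ (iterateFrobenius_finite R p hfin e)) xs hxs
    (GradedRing.proj 𝒜 j) (proj_lin p e 𝒜 j) ?_ ?_ ?_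
  · intro z
    simp only [GradedRing.proj_apply]
    exact DirectSum.decompose_of_mem_same 𝒜 (DirectSum.decompose 𝒜 z j : 𝒜 j).2
  · intro h0
    apply hjne
    rw [AddSubgroup.eq_bot_iff_forall]
    intro x hx
    have h1 := congrArg (fun f : R →+ R => f x) h0
    simp only [GradedRing.proj_apply, AddMonoidHom.zero_apply] at h1
    rwa [DirectSum.decompose_of_mem_same 𝒜 hx] at h1
  · intro i hi z hz hmem
    by_contra hnot
    apply hl
    refine Finset.mem_biUnion.2 ⟨⟨i, hi⟩, Finset.mem_univ _, Finset.mem_filter.2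
      ⟨Finset.mem_univ _, z, hE z hz, ⟨p ^ e, ?_⟩, hnot⟩⟩
    rw [← hψx]
    exact hmem

end graded

section complete

/-- **Complete normal domains of dimension three with gradings by `ZMod (p ^ e)` having arbitrarily
many nonzero components, and homogeneous maximal ideal.**  No condition on the residue field beyond
F-finiteness. -/
theorem exists_small_CM_complete_normal3_graded {R : Type u} [CommRing R] [IsDomain R]
    [IsLocalRing R] [IsNoetherianRing R] [IsAdicComplete (maximalIdeal R) R] [IsIntegrallyClosed R]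
    (hdim : ringKrullDim R = 3) (p : ℕ) [Fact p.Prime] [CharP R p] (hfin : (frobenius R p).Finite)
    (hsum : ∀ N : ℕ, ∃ (e : ℕ) (𝒜 : ZMod (p ^ e) → AddSubgroup R) (_ : GradedRing 𝒜),
      (∀ j, j ≠ 0 → ∀ x ∈ 𝒜 j, x ∈ maximalIdeal R) ∧ N < Set.ncard {j : ZMod (p ^ e) | 𝒜 j ≠ ⊥}) :
    ∃ (M : Type u) (_ : AddCommGroup M) (_ : Module R M) (_ : Module.Finite R M)
      (_ : Nontrivial M) (rs : List R), IsRegular M rs ∧ (∀ x ∈ rs, x ∈ maximalIdeal R) ∧
        (rs.length : WithBot ℕ∞) = ringKrullDim R := by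
  classical
  obtain ⟨Φ, hinj, hfinΦ⟩ := exists_structure hdim p hfin
  let A := PS3 (ResidueField R)
  let _ : Algebra A R := Φ.toAlgebra
  have : Module.Finite A R := hfinΦ
  have : FaithfulSMul A R := (faithfulSMul_iff_algebraMap_injective A R).2 hinj
  let a₁ : A := MvPowerSeries.X 0
  let a₂ : A := MvPowerSeries.X 1
  let a₃ : A := MvPowerSeries.X 2
  have hreg : IsRegular A [a₁, a₂, a₃] := isRegular_PS3 _
  have hm : maximalIdeal A = Ideal.span {a₁, a₂, a₃} := maximalIdeal_PS3 _
  obtain ⟨hm1, hm2, hm3⟩ := mem_maximalIdeal_of_eq a₁ a₂ a₃ hm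
  have hm1' := algebraMap_mem_maximalIdeal (R := R) a₁ hm1
  have hm2' := algebraMap_mem_maximalIdeal (R := R) a₂ hm2
  have hm3' := algebraMap_mem_maximalIdeal (R := R) a₃ hm3
  set xs : List R := [algebraMap A R a₁, algebraMap A R a₂, algebraMap A R a₃] with hxs
  have hflc := hflc_normal3 (R := R) a₁ a₂ a₃ hreg hm
  obtain ⟨C₀, hC₀⟩ := hflc 0 (by simp)
  obtain ⟨C₁, hC₁⟩ := hflc 1 (by simp)
  obtain ⟨C₂, hC₂⟩ := hflc 2 (by simp)
  let C := C₀ + C₁ + C₂
  have hC : ∀ (i : ℕ) (hi : i < xs.length) (t : ℕ),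
      Module.length R (Submodule.torsion' R (R ⧸ Ideal.ofList ((xs.take i).map (· ^ t)))
        (Submonoid.powers xs[i])) ≤ C := by
    intro i hi t
    have hi' : i < 3 := by simpa [hxs] using hi
    have hC' : ((C₀ : ℕ∞) + C₁ + C₂) = (C : ℕ∞) := by push_cast [C]; rfl
    obtain rfl | rfl | rfl : i = 0 ∨ i = 1 ∨ i = 2 := by omega
    · refine (hC₀ t).trans ?_
      rw [← hC']
      exact le_trans le_self_add le_self_add
    · refine (hC₁ t).trans ?_
      rw [← hC']
      exact le_trans le_add_self le_self_add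
    · refine (hC₂ t).trans ?_
      rw [← hC']
      exact le_add_self
  obtain ⟨e, 𝒜, i𝒜, hm𝒜, hcard⟩ := hsum (3 * C)
  have hmem : ∀ x ∈ xs, x ∈ maximalIdeal R := by
    intro x hx
    simp only [hxs, List.mem_cons, List.not_mem_nil, or_false] at hx
    rcases hx with rfl | rfl | rfl
    · exact hm1'
    · exact hm2'
    · exact hm3'
  obtain ⟨M, i1, i2, i3, i4, hM⟩ := exists_small_CM_of_grading p e 𝒜 hfin hm𝒜 xs hmem C hC
    (by simpa [hxs] using hcard)
  refine ⟨M, i1, i2, i3, i4, xs, hM, hmem, ?_⟩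
  rw [hdim]
  simp [hxs]

end complete

end Vale.Agent.Lib.P190
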