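import Mathlib

/-!
Restriction of scalars along an endomorphism `ψ` of a local ring, and its effect on lengths.
-/

set_option linter.unusedSectionVars false

universe u v w x

open IsLocalRing

namespace Vale.Agent.Lib.P190

section Tw

variable {R : Type u} [CommRing R] (ψ : R →+* R)

/-- The module `X` with scalars restricted along `ψ`. -/
def Tw (_ψ : R →+* R) (X : Type v) : Type v := X

variable {X : Type v} {Y : Type w} {Z : Type x} [AddCommGroup X] [Module R X] [AddCommGroup Y]
  [Module R Y] [AddCommGroup Z] [Module R Z]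

noncomputable instance : AddCommGroup (Tw ψ X) := inferInstanceAs (AddCommGroup X)

noncomputable instance : Module R (Tw ψ X) := Module.compHom X ψ

/-- The identity map `X → Tw ψ X`. -/
def toTw : X ≃+ Tw ψ X := AddEquiv.refl X

/-- The identity map `Tw ψ X → X`. -/
def ofTw : Tw ψ X ≃+ X := AddEquiv.refl X

@[simp] lemma ofTw_toTw (x : X) : ofTw ψ (toTw ψ x) = x := rfl

@[simp] lemma toTw_ofTw (x : Tw ψ X) : toTw ψ (ofTw ψ x) = x := rfl

lemma ofTw_smul (r : R) (x : Tw ψ X) : ofTw ψ (r • x) = ψ r • ofTw ψ x := rfl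

lemma toTw_smul (r : R) (x : X) : r • toTw ψ x = toTw ψ (ψ r • x) := rfl

/-- The functor on linear maps. -/
noncomputable def twMap (f : X →ₗ[R] Y) : Tw ψ X →ₗ[R] Tw ψ Y where
  toFun x := toTw ψ (f (ofTw ψ x))
  map_add' a b := by
    simp only [map_add]
  map_smul' r a := by
    simp only [RingHom.id_apply, ofTw_smul, map_smul, toTw_smul]

@[simp] lemma twMap_apply (f : X →ₗ[R] Y) (x : Tw ψ X) :
    twMap ψ f x = toTw ψ (f (ofTw ψ x)) := rfl

lemma twMap_injective {f : X →ₗ[R] Y} (hf : Function.Injective f) :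
    Function.Injective (twMap ψ f) := by
  intro a b h
  exact (ofTw ψ).injective (hf ((toTw ψ).injective h))

lemma twMap_surjective {f : X →ₗ[R] Y} (hf : Function.Surjective f) :
    Function.Surjective (twMap ψ f) := by
  intro y
  obtain ⟨x, hx⟩ := hf (ofTw ψ y)
  exact ⟨toTw ψ x, by simp [hx]⟩

lemma twMap_exact {f : X →ₗ[R] Y} {g : Y →ₗ[R] Z} (h : Function.Exact f g) :
    Function.Exact (twMap ψ f) (twMap ψ g) := by
  intro y
  constructor
  · intro hy
    have h1 : g (ofTw ψ y) = 0 := (toTw ψ).injective (by simpa using hy)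
    obtain ⟨x, hx⟩ := (h (ofTw ψ y)).1 h1
    exact ⟨toTw ψ x, by simp [hx]⟩
  · rintro ⟨x, rfl⟩
    have h1 : g (f (ofTw ψ x)) = 0 := h.apply_apply_eq_zero _
    simp [h1]

/-- The functor on linear equivalences. -/
noncomputable def twEquiv (e : X ≃ₗ[R] Y) : Tw ψ X ≃ₗ[R] Tw ψ Y :=
  LinearEquiv.ofBijective (twMap ψ e.toLinearMap)
    ⟨twMap_injective ψ e.injective, twMap_surjective ψ e.surjective⟩

variable [IsLocalRing R]

/-- Length of a restriction of scalars. -/
theorem length_tw (h : IsFiniteLength R X) :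
    Module.length R (Tw ψ X) =
      Module.length R (Tw ψ (R ⧸ maximalIdeal R)) * Module.length R X := by
  induction h with
  | @of_subsingleton M _ _ _ =>
    have : Subsingleton (Tw ψ M) := inferInstanceAs (Subsingleton M)
    simp [Module.length_eq_zero]
  | @of_simple_quotient M _ _ N _ _ ih =>
    have h1 : Module.length R (Tw ψ M) = Module.length R (Tw ψ N) +
        Module.length R (Tw ψ (M ⧸ N)) :=
      Module.length_eq_add_of_exact (twMap ψ N.subtype) (twMap ψ N.mkQ)
        (twMap_injective ψ N.injective_subtype) (twMap_surjective ψ N.mkQ_surjective)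
        (twMap_exact ψ (LinearMap.exact_subtype_mkQ N))
    have h2 : Module.length R M = Module.length R N + Module.length R (M ⧸ N) :=
      Module.length_eq_add_of_exact N.subtype N.mkQ N.injective_subtype N.mkQ_surjective
        (LinearMap.exact_subtype_mkQ N)
    obtain ⟨I, hI, ⟨e⟩⟩ := isSimpleModule_iff_quot_maximal.1 (inferInstance : IsSimpleModule R (M ⧸ N))
    obtain rfl : I = maximalIdeal R := IsLocalRing.eq_maximalIdeal hI
    have h3 : Module.length R (Tw ψ (M ⧸ N)) = Module.length R (Tw ψ (R ⧸ maximalIdeal R)) :=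
      (twEquiv ψ e).length_eq
    have h4 : Module.length R (M ⧸ N) = 1 := Module.length_eq_one R (M ⧸ N)
    rw [h1, h2, ih, h3, h4, mul_add, mul_one]

end Tw

section gens

variable {R : Type u} [CommRing R] [IsLocalRing R] {W : Type v} [AddCommGroup W] [Module R W]
  {ι : Type*} [Fintype ι]

/-- Reduction modulo the maximal ideal, coordinatewise. -/
noncomputable def piRed (ι : Type*) : (ι → R) →ₗ[R] (ι → R ⧸ maximalIdeal R) :=
  LinearMap.compLeft (Submodule.mkQ (maximalIdeal R)) ι

lemma piRed_surjective : Function.Surjective (piRed (R := R) ι) := by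
  intro v
  choose w hw using fun i => Submodule.mkQ_surjective (maximalIdeal R) (v i)
  exact ⟨w, funext hw⟩

lemma map_eq_zero_of_forall_mem [DecidableEq ι] (hW : ∀ r ∈ maximalIdeal R, ∀ w : W, r • w = 0)
    (g : (ι → R) →ₗ[R] W) (v : ι → R) (hv : ∀ i, v i ∈ maximalIdeal R) : g v = 0 := by
  rw [LinearMap.pi_apply_eq_sum_univ g v]
  exact Finset.sum_eq_zero fun i _ => hW _ (hv i) _

/-- A linear map from a free module into a module killed by the maximal ideal factors through the
reduction. -/
lemma exists_factor (hW : ∀ r ∈ maximalIdeal R, ∀ w : W, r • w = 0) (g : (ι → R) →ₗ[R] W) :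
    ∃ gb : (ι → R ⧸ maximalIdeal R) →ₗ[R] W, ∀ v, gb (piRed ι v) = g v := by
  classical
  have hker : LinearMap.ker (piRed (R := R) ι) ≤ LinearMap.ker g := by
    intro v hv
    rw [LinearMap.mem_ker] at hv ⊢
    apply map_eq_zero_of_forall_mem hW
    intro i
    have h : Submodule.Quotient.mk (p := maximalIdeal R) (v i) = 0 := congrFun hv i
    exact (Submodule.Quotient.mk_eq_zero _).1 h
  let gq := (LinearMap.ker (piRed (R := R) ι)).liftQ g hker
  let e := (piRed (R := R) ι).quotKerEquivOfSurjective piRed_surjective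
  refine ⟨gq ∘ₗ e.symm.toLinearMap, fun v => ?_⟩
  have : e.symm (piRed ι v) = (LinearMap.ker (piRed (R := R) ι)).mkQ v := by
    rw [LinearEquiv.symm_apply_eq]
    simp [e]
  simp [this, gq]

lemma length_residue : Module.length R (R ⧸ maximalIdeal R) = 1 := by
  have : IsSimpleModule R (R ⧸ maximalIdeal R) :=
    isSimpleModule_iff_quot_maximal.2 ⟨_, inferInstance, ⟨LinearEquiv.refl _ _⟩⟩
  exact Module.length_eq_one _ _

lemma length_pi_residue (ι : Type*) [Fintype ι] :
    Module.length R (ι → R ⧸ maximalIdeal R) = Fintype.card ι := by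
  simp [length_residue]

/-- A module generated by `card ι` elements and killed by the maximal ideal has length at most
`card ι`. -/
theorem length_le_of_surjective_pi (hW : ∀ r ∈ maximalIdeal R, ∀ w : W, r • w = 0)
    (g : (ι → R) →ₗ[R] W) (hg : Function.Surjective g) :
    Module.length R W ≤ Fintype.card ι := by
  obtain ⟨gb, hgb⟩ := exists_factor hW g
  have hs : Function.Surjective gb := by
    intro w
    obtain ⟨v, rfl⟩ := hg w
    exact ⟨_, hgb v⟩
  have := Module.length_le_of_surjective gb hs
  rwa [length_pi_residue] at this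

/-- If moreover the length equals `card ι`, a relation has all coefficients in the maximal ideal. -/
theorem mem_maximalIdeal_of_length_eq (hW : ∀ r ∈ maximalIdeal R, ∀ w : W, r • w = 0)
    (g : (ι → R) →ₗ[R] W) (hg : Function.Surjective g)
    (hl : Module.length R W = Fintype.card ι) (v : ι → R) (hv : g v = 0) (i : ι) :
    v i ∈ maximalIdeal R := by
  obtain ⟨gb, hgb⟩ := exists_factor hW g
  have hs : Function.Surjective gb := by
    intro w
    obtain ⟨v, rfl⟩ := hg w
    exact ⟨_, hgb v⟩
  have h1 := Module.length_eq_add_of_exact (LinearMap.ker gb).subtype gb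
    (Submodule.subtype_injective _) hs (LinearMap.exact_subtype_ker_map gb)
  rw [length_pi_residue, hl] at h1
  have h2 : Module.length R (LinearMap.ker gb) = 0 := by
    have h3 : ((Fintype.card ι : ℕ) : ℕ∞) + 0 = ((Fintype.card ι : ℕ) : ℕ∞) +
        Module.length R (LinearMap.ker gb) := by
      rw [add_zero, add_comm]
      exact h1
    exact (ENat.add_right_injective_of_ne_top (ENat.natCast_ne_top _) h3).symm
  have h4 : Subsingleton (LinearMap.ker gb) := Module.length_eq_zero_iff.1 h2
  have h5 : piRed ι v ∈ LinearMap.ker gb := by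
    rw [LinearMap.mem_ker, hgb, hv]
  have h6 : (⟨piRed ι v, h5⟩ : LinearMap.ker gb) = 0 := Subsingleton.elim _ _
  have h7 : piRed ι v = 0 := congrArg Subtype.val h6
  have h8 : Submodule.Quotient.mk (p := maximalIdeal R) (v i) = 0 := congrFun h7 i
  exact (Submodule.Quotient.mk_eq_zero _).1 h8

end gens

end Vale.Agent.Lib.P190
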